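import Vale.Agent.P208.Basic

/-! Vector inequalities used in the fibre game. -/

namespace Vale.Agent.P208

open scoped RealInnerProductSpace

variable {V : Type*} [NormedAddCommGroup V] [InnerProductSpace ℝ V]

/-- Raw form of the three point inequality. -/
def TriV (σ e C : ℝ) (X Y : V) (T T' : ℝ) : Prop :=
  -σ * (‖X‖ ^ 2 + ‖Y‖ ^ 2) - e * T ^ 2 - C * T' ^ 2 ≤ ⟪X, Y⟫

theorem tri_iff (u d : V) (σ e C : ℝ) (y₁ y₂ y₃ : V) :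
    Tri u d σ e C y₁ y₂ y₃ ↔
      TriV σ e C (prj u d (y₃ - y₂)) (prj u d (y₂ - y₁)) ⟪u, y₃ - y₂⟫ ⟪u, y₂ - y₁⟫ := Iff.rfl

theorem TriV.mono {σ e C σ' e' C' : ℝ} {X Y : V} {T T' : ℝ} (h : TriV σ e C X Y T T')
    (h1 : σ ≤ σ') (h2 : e ≤ e') (h3 : C ≤ C') : TriV σ' e' C' X Y T T' := by
  unfold TriV at *
  have a1 := mul_le_mul_of_nonneg_right h1 (by positivity : 0 ≤ ‖X‖ ^ 2 + ‖Y‖ ^ 2)
  have a2 := mul_le_mul_of_nonneg_right h2 (sq_nonneg T)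
  have a3 := mul_le_mul_of_nonneg_right h3 (sq_nonneg T')
  linarith

theorem Tri.mono {u d : V} {σ e C σ' e' C' : ℝ} {y₁ y₂ y₃ : V} (h : Tri u d σ e C y₁ y₂ y₃)
    (h1 : σ ≤ σ') (h2 : e ≤ e') (h3 : C ≤ C') : Tri u d σ' e' C' y₁ y₂ y₃ :=
  TriV.mono h h1 h2 h3

theorem norm_add_sq_orth {X Y : V} (h : ⟪X, Y⟫ = 0) : ‖X + Y‖ ^ 2 = ‖X‖ ^ 2 + ‖Y‖ ^ 2 := by
  rw [norm_add_sq_real, h]; ring

theorem inner_orth {U : Submodule ℝ V} {X Y : V} (hX : X ∈ U) (hY : Y ∈ Uᗮ) : ⟪X, Y⟫ = 0 :=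
  Submodule.inner_right_of_mem_orthogonal hX hY

theorem inner_orth' {U : Submodule ℝ V} {X Y : V} (hX : X ∈ U) (hY : Y ∈ Uᗮ) : ⟪Y, X⟫ = 0 :=
  Submodule.inner_left_of_mem_orthogonal hX hY

theorem neg_le_inner (X Y : V) : -(‖X‖ * ‖Y‖) ≤ ⟪X, Y⟫ := by
  have := abs_real_inner_le_norm X Y
  have := neg_abs_le ⟪X, Y⟫
  linarith

/-- (A) from the `G` coordinates to the flat coordinates. -/
theorem TriV.conv {σ ε C C' : ℝ} {X Y v : V} {T T' : ℝ} (hσ : 0 < σ) (hv : ‖v‖ = 1)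
    (hX : ⟪v, X⟫ = 0) (hY : ⟪v, Y⟫ = 0) (hC : C + ε ^ 2 / (2 * σ) ≤ C')
    (h : TriV σ (σ * ε ^ 2 / 2) C X Y T T') (T₀ : ℝ) :
    TriV σ 0 C' (X + (ε * T) • v) (Y + (ε * T') • v) T₀ T' := by
  unfold TriV at *
  have hX' : ⟪X, v⟫ = 0 := by rw [real_inner_comm]; exact hX
  have hY' : ⟪Y, v⟫ = 0 := by rw [real_inner_comm]; exact hY
  have hvv : ⟪v, v⟫ = 1 := by rw [real_inner_self_eq_norm_sq, hv]; norm_num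
  have e1 : ‖X + (ε * T) • v‖ ^ 2 = ‖X‖ ^ 2 + (ε * T) ^ 2 := by
    rw [norm_add_sq_orth (by rw [real_inner_smul_right, hX']; ring), norm_smul, hv,
      mul_one, Real.norm_eq_abs, sq_abs]
  have e2 : ‖Y + (ε * T') • v‖ ^ 2 = ‖Y‖ ^ 2 + (ε * T') ^ 2 := by
    rw [norm_add_sq_orth (by rw [real_inner_smul_right, hY']; ring), norm_smul, hv,
      mul_one, Real.norm_eq_abs, sq_abs]
  have e3 : ⟪X + (ε * T) • v, Y + (ε * T') • v⟫ = ⟪X, Y⟫ + (ε * T) * (ε * T') := by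
    simp only [inner_add_left, inner_add_right, real_inner_smul_left, real_inner_smul_right, hX',
      hY, hvv]
    ring
  rw [e1, e2, e3]
  have k1 : C * T' ^ 2 + ε ^ 2 / (2 * σ) * T' ^ 2 ≤ C' * T' ^ 2 := by
    have := mul_le_mul_of_nonneg_right hC (sq_nonneg T')
    linarith
  have k2 : -(σ / 2 * (ε * T) ^ 2) - ε ^ 2 / (2 * σ) * T' ^ 2 ≤ (ε * T) * (ε * T') := by
    have : 0 ≤ (σ * (ε * T) + ε * T') ^ 2 / (2 * σ) := by positivity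
    have e : (σ * (ε * T) + ε * T') ^ 2 / (2 * σ) =
        σ / 2 * (ε * T) ^ 2 + ε ^ 2 / (2 * σ) * T' ^ 2 + (ε * T) * (ε * T') := by
      field_simp; ring
    linarith
  have k3 : 0 ≤ σ * (ε * T') ^ 2 := by positivity
  nlinarith

/-- (B) adding a fresh component to the first vector. -/
theorem TriV.addL {U : Submodule ℝ V} {σ e C : ℝ} {X Y Z : V} {T T' : ℝ} (hσ : 0 ≤ σ)
    (hX : X ∈ U) (hY : Y ∈ U) (hZ : Z ∈ Uᗮ) (h : TriV σ e C X Y T T') :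
    TriV σ e C (X + Z) Y T T' := by
  unfold TriV at *
  rw [norm_add_sq_orth (inner_orth hX hZ), inner_add_left, inner_orth' hY hZ]
  have : 0 ≤ σ * ‖Z‖ ^ 2 := by positivity
  nlinarith

/-- (C) oldest point in the layer, middle point in the cluster. -/
theorem TriV.lc {U : Submodule ℝ V} {σ ε C κ₁ : ℝ} {r Y₁ X₂ Y₂ : V} {T T' : ℝ} (hσ : 0 < σ)
    (hC : 0 ≤ C) (hr : r ∈ U) (hY₁ : Y₁ ∈ U) (hX₂ : X₂ ∈ Uᗮ) (hY₂ : Y₂ ∈ Uᗮ)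
    (hrn : ‖r‖ ≤ σ * ε) (hκ₁ : κ₁ ≤ σ * ε / 2)
    (hX : ‖X₂‖ ≤ κ₁ * |T| + σ / 2 * ‖Y₂‖) :
    TriV σ (σ * ε ^ 2 / 2) C (T • r + X₂) (Y₁ + Y₂) T T' := by
  unfold TriV
  have hTr : T • r ∈ U := U.smul_mem _ hr
  rw [norm_add_sq_orth (inner_orth hY₁ hY₂), inner_add_left, inner_add_right, inner_add_right,
    inner_orth hTr hY₂, inner_orth' hY₁ hX₂]
  have h1 := neg_le_inner (T • r) Y₁
  have h2 := neg_le_inner X₂ Y₂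
  rw [norm_smul, Real.norm_eq_abs] at h1
  have hT := abs_nonneg T
  have hsq : |T| ^ 2 = T ^ 2 := sq_abs T
  have hy1 := norm_nonneg Y₁
  have hy2 := norm_nonneg Y₂
  have hr0 := norm_nonneg r
  have hε : 0 ≤ σ * ε := le_trans hr0 hrn
  have a1 : |T| * ‖r‖ * ‖Y₁‖ ≤ |T| * (σ * ε) * ‖Y₁‖ := by gcongr
  have a2 : |T| * (σ * ε) * ‖Y₁‖ ≤ σ * ‖Y₁‖ ^ 2 + σ * ε ^ 2 / 4 * |T| ^ 2 := by
    have := mul_nonneg hσ.le (sq_nonneg (‖Y₁‖ - ε * |T| / 2))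
    nlinarith
  have a3 : ‖X₂‖ * ‖Y₂‖ ≤ (σ * ε / 2 * |T| + σ / 2 * ‖Y₂‖) * ‖Y₂‖ := by
    have : κ₁ * |T| ≤ σ * ε / 2 * |T| := by gcongr
    gcongr
    linarith
  have a4 : σ * ε / 2 * |T| * ‖Y₂‖ ≤ σ / 2 * ‖Y₂‖ ^ 2 + σ * ε ^ 2 / 8 * |T| ^ 2 := by
    have := mul_nonneg hσ.le (sq_nonneg (‖Y₂‖ - ε * |T| / 2))
    nlinarith
  have a5 : 0 ≤ σ * ‖T • r + X₂‖ ^ 2 := by positivity
  have a6 : 0 ≤ C * T' ^ 2 := by positivity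
  have a7 : 0 ≤ σ * ε ^ 2 * T ^ 2 := by positivity
  rw [hsq] at a2 a4
  nlinarith

/-- (D) the two oldest points in the cluster. -/
theorem TriV.cc {U : Submodule ℝ V} {σ ε C : ℝ} {r X₂ Y₂ : V} {T T' : ℝ} (hσ : 0 ≤ σ)
    (hσ' : σ ≤ 1 / 2) (hr : r ∈ U) (hX₂ : X₂ ∈ Uᗮ) (hY₂ : Y₂ ∈ Uᗮ) (hrn : ‖r‖ ≤ σ * ε)
    (h : TriV σ (σ * ε ^ 2 / 4) C X₂ Y₂ T T') :
    TriV σ (σ * ε ^ 2 / 2) (C + ε ^ 2) (T • r + X₂) (T' • r + Y₂) T T' := by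
  unfold TriV at *
  have hTr : T • r ∈ U := U.smul_mem _ hr
  have hTr' : T' • r ∈ U := U.smul_mem _ hr
  rw [norm_add_sq_orth (inner_orth hTr' hY₂), norm_add_sq_orth (inner_orth hTr hX₂),
    inner_add_left, inner_add_right, inner_add_right,
    inner_orth hTr hY₂, inner_orth' hTr' hX₂, real_inner_smul_left, real_inner_smul_right,
    real_inner_self_eq_norm_sq]
  have hr0 := norm_nonneg r
  have hr2 : ‖r‖ ^ 2 ≤ (σ * ε) ^ 2 := by gcongr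
  have a0 : (σ * ε) ^ 2 ≤ σ * ε ^ 2 / 2 := by
    have : 0 ≤ σ * ε ^ 2 := by positivity
    nlinarith
  have a00 : σ * ε ^ 2 / 2 ≤ ε ^ 2 := by nlinarith [sq_nonneg ε]
  have a1 : -(‖r‖ ^ 2 / 2 * T ^ 2) - ‖r‖ ^ 2 / 2 * T' ^ 2 ≤ T * (T' * ‖r‖ ^ 2) := by
    have := mul_nonneg (sq_nonneg ‖r‖) (sq_nonneg (T + T'))
    nlinarith
  have a2 : ‖r‖ ^ 2 / 2 * T ^ 2 ≤ σ * ε ^ 2 / 4 * T ^ 2 :=
    mul_le_mul_of_nonneg_right (by linarith) (sq_nonneg _)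
  have a3 : ‖r‖ ^ 2 / 2 * T' ^ 2 ≤ ε ^ 2 * T' ^ 2 :=
    mul_le_mul_of_nonneg_right (by nlinarith [sq_nonneg ‖r‖]) (sq_nonneg _)
  have a4 : 0 ≤ σ * ‖T • r‖ ^ 2 := by positivity
  have a5 : 0 ≤ σ * ‖T' • r‖ ^ 2 := by positivity
  nlinarith

theorem perturb_aux {σ ω a x b n Z t : ℝ} (hσ : 0 ≤ σ) (hσ' : σ ≤ 1) (hω : 0 ≤ ω)
    (hω' : ω ≤ 1 / 4) (hx : 0 ≤ x) (hb : 0 ≤ b) (hn : 0 ≤ n) (hZ : 0 ≤ Z) (ht : 0 ≤ t)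
    (ha : 0 ≤ a) (h2 : a ≤ x + n) (he : n ≤ ω * (Z + a + b + t)) :
    σ * a ^ 2 + n * b ≤ σ * x ^ 2 + 24 * ω * (Z ^ 2 + x ^ 2 + b ^ 2 + t ^ 2) := by
  have hS0 : 0 ≤ Z + x + b + t := by positivity
  have k0 : ω * (Z + a + b + t) ≤ ω * (Z + x + b + t + n) :=
    mul_le_mul_of_nonneg_left (by linarith) hω
  have k00 : ω * n ≤ 1 / 4 * n := mul_le_mul_of_nonneg_right hω' hn
  have k01 : 0 ≤ ω * (Z + x + b + t) := mul_nonneg hω hS0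
  have k1 : n ≤ 2 * ω * (Z + x + b + t) := by nlinarith
  have k02 : ω * (Z + x + b + t) ≤ 1 / 4 * (Z + x + b + t) :=
    mul_le_mul_of_nonneg_right hω' hS0
  have k2 : n ≤ Z + x + b + t := by nlinarith
  have k3 : a ^ 2 ≤ x ^ 2 + n * (2 * x + n) := by
    have : a ^ 2 ≤ (x + n) ^ 2 := by gcongr
    nlinarith
  have k4 : n * (2 * x + n + b) ≤ 2 * ω * (Z + x + b + t) * (3 * (Z + x + b + t)) :=
    mul_le_mul k1 (by linarith) (by positivity) (by positivity)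
  have k5 : (Z + x + b + t) ^ 2 ≤ 4 * (Z ^ 2 + x ^ 2 + b ^ 2 + t ^ 2) := by
    nlinarith [sq_nonneg (Z - x), sq_nonneg (Z - b), sq_nonneg (Z - t), sq_nonneg (x - b),
      sq_nonneg (x - t), sq_nonneg (b - t)]
  have k7 : σ * a ^ 2 ≤ σ * x ^ 2 + n * (2 * x + n) := by
    have h3 : σ * a ^ 2 ≤ σ * (x ^ 2 + n * (2 * x + n)) := mul_le_mul_of_nonneg_left k3 hσ
    have h4 : 0 ≤ n * (2 * x + n) := by positivity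
    have h5 : σ * (n * (2 * x + n)) ≤ 1 * (n * (2 * x + n)) := mul_le_mul_of_nonneg_right hσ' h4
    linarith
  have k8 : ω * (Z + x + b + t) ^ 2 ≤ ω * (4 * (Z ^ 2 + x ^ 2 + b ^ 2 + t ^ 2)) :=
    mul_le_mul_of_nonneg_left k5 hω
  linarith

/-- (E) perturbation of the first vector. -/
theorem TriV.perturb {σ ε C ω : ℝ} {X₀ Y e : V} {T₀ T T' : ℝ} (hσ : 0 ≤ σ) (hσ' : σ ≤ 1)
    (hε : 0 ≤ ε) (hω : 0 ≤ ω) (hω' : ω ≤ 1 / 4)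
    (he : ‖e‖ ≤ ω * (ε * |T| + ‖X₀‖ + ‖Y‖ + |T'|)) (h : TriV σ 0 C X₀ Y T₀ T') :
    TriV (σ + 24 * ω) (24 * ω * ε ^ 2) (C + 24 * ω) (X₀ + e) Y T T' := by
  unfold TriV at *
  rw [inner_add_left]
  have h1 := neg_le_inner e Y
  have h2 : ‖X₀‖ ≤ ‖X₀ + e‖ + ‖e‖ := by
    have := norm_sub_le (X₀ + e) e
    simpa using this
  have k := perturb_aux hσ hσ' hω hω' (norm_nonneg (X₀ + e)) (norm_nonneg Y) (norm_nonneg e)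
    (by positivity : 0 ≤ ε * |T|) (abs_nonneg T') (norm_nonneg X₀) h2 he
  rw [mul_pow, sq_abs, sq_abs] at k
  linarith

/-- The first vector is tiny compared with the second. -/
theorem TriV.of_small {σ C : ℝ} {X Y : V} {T T' : ℝ} (hσ : 0 ≤ σ) (hC : 0 ≤ C)
    (h : ‖X‖ ≤ σ * ‖Y‖) : TriV σ 0 C X Y T T' := by
  unfold TriV
  have h1 := neg_le_inner X Y
  have h2 : ‖X‖ * ‖Y‖ ≤ σ * ‖Y‖ * ‖Y‖ := by gcongr
  have a5 : 0 ≤ σ * ‖X‖ ^ 2 := by positivity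
  have a6 : 0 ≤ C * T' ^ 2 := by positivity
  nlinarith

/-- The second vector is controlled by its time increment. -/
theorem TriV.of_time {σ C : ℝ} {X Y : V} {T T' : ℝ} (hσ : 0 < σ) (hC : 1 ≤ 4 * σ * C)
    (h : ‖Y‖ ≤ |T'|) : TriV σ 0 C X Y T T' := by
  unfold TriV
  have h1 := neg_le_inner X Y
  have hy := norm_nonneg Y
  have hx := norm_nonneg X
  have h2 : ‖Y‖ ^ 2 ≤ T' ^ 2 := by rw [← sq_abs T']; gcongr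
  have hC0 : 0 < C := by
    by_contra hc
    push Not at hc
    nlinarith
  have h3 : C * ‖Y‖ ^ 2 ≤ C * T' ^ 2 := by gcongr
  have h4 : ‖X‖ * ‖Y‖ ≤ σ * ‖X‖ ^ 2 + C * ‖Y‖ ^ 2 := by
    have : 4 * σ * (‖X‖ * ‖Y‖) ≤ 4 * σ * (σ * ‖X‖ ^ 2 + C * ‖Y‖ ^ 2) := by
      nlinarith [sq_nonneg (2 * σ * ‖X‖ - ‖Y‖), mul_nonneg (sub_nonneg.2 hC) (sq_nonneg ‖Y‖)]
    exact le_of_mul_le_mul_left this (by positivity)
  have a5 : 0 ≤ σ * ‖Y‖ ^ 2 := by positivity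
  nlinarith

/-! ### Gains -/

variable {E : Type*} [NormedAddCommGroup E] [InnerProductSpace ℝ E]

theorem gain_three {s₁ s₂ s₃ φ : E} {l₁ l₂ l₃ δ : ℝ} (h₁ : 0 ≤ l₁) (h₂ : 0 ≤ l₂) (h₃ : 0 ≤ l₃)
    (hφ : (l₁ + l₂ + l₃) • φ = l₁ • s₁ + l₂ • s₂ + l₃ • s₃)
    (g₁ : ‖s₁‖ ^ 2 ≤ ‖φ‖ ^ 2 + δ) (g₂ : ‖s₂‖ ^ 2 ≤ ‖φ‖ ^ 2 + δ) (g₃ : ‖s₃‖ ^ 2 ≤ ‖φ‖ ^ 2 + δ) :
    l₂ * ‖s₂ - φ‖ ^ 2 ≤ δ * (l₁ + l₂ + l₃) := by
  have e : (l₁ + l₂ + l₃) * ‖φ‖ ^ 2 = l₁ * ⟪s₁, φ⟫ + l₂ * ⟪s₂, φ⟫ + l₃ * ⟪s₃, φ⟫ := by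
    have := congrArg (fun z => ⟪z, φ⟫) hφ
    simp only [inner_add_left, real_inner_smul_left, real_inner_self_eq_norm_sq] at this
    exact this
  have n₁ := norm_sub_sq_real s₁ φ
  have n₂ := norm_sub_sq_real s₂ φ
  have n₃ := norm_sub_sq_real s₃ φ
  have p₁ := mul_nonneg h₁ (sq_nonneg ‖s₁ - φ‖)
  have p₃ := mul_nonneg h₃ (sq_nonneg ‖s₃ - φ‖)
  have q₁ := mul_le_mul_of_nonneg_left g₁ h₁
  have q₂ := mul_le_mul_of_nonneg_left g₂ h₂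
  have q₃ := mul_le_mul_of_nonneg_left g₃ h₃
  rw [n₁] at p₁
  rw [n₃] at p₃
  rw [n₂]
  nlinarith

theorem gain_two {s₁ s₂ φ : E} {l₁ l₂ δ : ℝ} (h₁ : 0 ≤ l₁) (h₂ : 0 ≤ l₂) (hδ : 0 ≤ δ)
    (hφ : (l₁ + l₂) • φ = l₁ • s₁ + l₂ • s₂)
    (g₁ : ‖s₁‖ ^ 2 ≤ ‖φ‖ ^ 2 + δ) (g₂ : ‖s₂‖ ^ 2 ≤ ‖φ‖ ^ 2 + δ) :
    |⟪φ, l₁ • s₁ - l₁ • φ⟫| ≤ δ * (l₁ + l₂) / 2 := by
  have e : (l₁ + l₂) * ‖φ‖ ^ 2 = l₁ * ⟪s₁, φ⟫ + l₂ * ⟪s₂, φ⟫ := by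
    have := congrArg (fun z => ⟪z, φ⟫) hφ
    simp only [inner_add_left, real_inner_smul_left, real_inner_self_eq_norm_sq] at this
    exact this
  have n₁ := norm_sub_sq_real s₁ φ
  have n₂ := norm_sub_sq_real s₂ φ
  have p₁ := mul_nonneg h₁ (sq_nonneg ‖s₁ - φ‖)
  have p₂ := mul_nonneg h₂ (sq_nonneg ‖s₂ - φ‖)
  have q₁ := mul_le_mul_of_nonneg_left g₁ h₁
  have q₂ := mul_le_mul_of_nonneg_left g₂ h₂
  rw [n₁] at p₁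
  rw [n₂] at p₂
  rw [inner_sub_right, real_inner_smul_right, real_inner_smul_right, real_inner_self_eq_norm_sq,
    real_inner_comm, abs_le]
  have r₁ := mul_nonneg h₁ hδ
  have r₂ := mul_nonneg h₂ hδ
  constructor <;> nlinarith

end Vale.Agent.P208
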