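import Mathlib

/-! Elementary lemmas on sums over ranges and on finite minima. -/

namespace Vale.Agent.P208.Aux37

open Finset

theorem sum_three (f : ℕ → ℝ) (a b c : ℕ) :
    ∑ i ∈ range (a + b + c), f i =
      ∑ i ∈ range a, f i + ∑ i ∈ range b, f (a + i) + ∑ i ∈ range c, f (a + b + i) := by
  rw [sum_range_add, sum_range_add]

theorem sub_le (f : ℕ → ℝ) (hf : ∀ i, 0 ≤ f i) (a b c : ℕ) :
    ∑ i ∈ range b, f (a + i) ≤ ∑ i ∈ range (a + b + c), f i := by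
  rw [sum_three]
  have h1 : 0 ≤ ∑ i ∈ range a, f i := sum_nonneg fun i _ => hf i
  have h2 : 0 ≤ ∑ i ∈ range c, f (a + b + i) := sum_nonneg fun i _ => hf _
  linarith

theorem le_sub (f : ℕ → ℝ) (a b c : ℕ) (e : ℝ) (h1 : ∀ i < a, f i ≤ e)
    (h2 : ∀ i < c, f (a + b + i) ≤ e) :
    ∑ i ∈ range (a + b + c), f i ≤ ∑ i ∈ range b, f (a + i) + (a + c) * e := by
  rw [sum_three]
  have h3 : ∑ i ∈ range a, f i ≤ ∑ _i ∈ range a, e :=
    sum_le_sum fun i hi => h1 i (mem_range.1 hi)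
  have h4 : ∑ i ∈ range c, f (a + b + i) ≤ ∑ _i ∈ range c, e :=
    sum_le_sum fun i hi => h2 i (mem_range.1 hi)
  simp only [sum_const, card_range, nsmul_eq_mul] at h3 h4
  linarith

theorem tele {E : Type*} [NormedAddCommGroup E] (a : ℕ → E) (M i : ℕ) (hi : i ≤ M) :
    ‖a i - a 0‖ ^ 2 ≤ M * ∑ j ∈ range M, ‖a (j + 1) - a j‖ ^ 2 := by
  have h1 : ‖a i - a 0‖ ≤ ∑ j ∈ range M, ‖a (j + 1) - a j‖ := by
    rw [← sum_range_sub a i]
    refine (norm_sum_le _ _).trans ?_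
    exact sum_le_sum_of_subset_of_nonneg (range_mono hi) fun _ _ _ => norm_nonneg _
  have h2 := sq_sum_le_card_mul_sum_sq (s := range M) (f := fun j => ‖a (j + 1) - a j‖)
  rw [card_range] at h2
  exact (pow_le_pow_left₀ (norm_nonneg _) h1 2).trans h2

theorem tele_le {E : Type*} [NormedAddCommGroup E] (a : ℕ → E) (M i : ℕ) (hi : i ≤ M)
    {η β : ℝ} (hη : 0 < η) (hβ : β ≤ η ^ 2 / (M + 1))
    (h : ∑ j ∈ range M, ‖a (j + 1) - a j‖ ^ 2 ≤ β) : ‖a i - a 0‖ ≤ η := by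
  have h1 := tele a M i hi
  have hM : (0 : ℝ) ≤ M := Nat.cast_nonneg _
  have h2 : (M : ℝ) * ∑ j ∈ range M, ‖a (j + 1) - a j‖ ^ 2 ≤ M * (η ^ 2 / (M + 1)) :=
    mul_le_mul_of_nonneg_left (h.trans hβ) hM
  have h3 : (M : ℝ) * (η ^ 2 / (M + 1)) ≤ η ^ 2 := by
    rw [← mul_div_assoc, div_le_iff₀ (by linarith)]
    nlinarith [sq_nonneg η]
  exact (pow_le_pow_iff_left₀ (norm_nonneg _) hη.le two_ne_zero).1 (h1.trans (h2.trans h3))

theorem fin_min {ι : Type*} {S : Set ι} (hS : S.Finite) (p : ι → ℝ → Prop)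
    (hm : ∀ s c c', p s c → 0 < c' → c' ≤ c → p s c') (h : ∀ s ∈ S, ∃ c, 0 < c ∧ p s c) :
    ∃ c, 0 < c ∧ ∀ s ∈ S, p s c := by
  induction S, hS using Set.Finite.induction_on with
  | empty => exact ⟨1, one_pos, fun s hs => absurd hs (Set.notMem_empty s)⟩
  | @insert a s _ _ ih =>
    obtain ⟨c, hc, hp⟩ := ih fun t ht => h t (Set.mem_insert_of_mem _ ht)
    obtain ⟨c', hc', hp'⟩ := h a (Set.mem_insert _ _)
    refine ⟨min c c', lt_min hc hc', fun t ht => ?_⟩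
    rcases ht with rfl | ht
    · exact hm _ _ _ hp' (lt_min hc hc') (min_le_right _ _)
    · exact hm _ _ _ (hp t ht) (lt_min hc hc') (min_le_left _ _)

end Vale.Agent.P208.Aux37
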