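import Mathlib

/-! Internal definitions for the Lang-Plaut counterexample (not used in the statement). -/

namespace Vale.Agent.P208

open Finset

/-- Packing form of the doubling property, ratio `C`. -/
def Pack {V : Type*} [NormedAddCommGroup V] (C : ℝ) (Λ : ℕ) (X : Set V) : Prop :=
  ∀ r : ℝ, 0 < r → ∀ S : Finset V, (∀ x ∈ S, x ∈ X) →
    (∀ x ∈ S, ∀ y ∈ S, x ≠ y → r ≤ ‖x - y‖) → (∀ x ∈ S, ∀ y ∈ S, ‖x - y‖ ≤ C * r) → S.card ≤ Λ

/-- No normalized embedding with distortion `D`. -/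
def NoEmb {W : Type*} [NormedAddCommGroup W] (E : Type*) [NormedAddCommGroup E] (D : ℝ)
    (X : Set W) : Prop :=
  ∀ f : W → E, ¬ ∀ x ∈ X, ∀ y ∈ X, ‖x - y‖ ≤ ‖f x - f y‖ ∧ ‖f x - f y‖ ≤ D * ‖x - y‖

/-- `α` is `(1/2, L)`-bi-Lipschitz on the points of `K`. -/
def BiLip {V E : Type*} [NormedAddCommGroup V] [NormedAddCommGroup E] (L : ℝ) (K : List V)
    (α : V → E) : Prop :=
  ∀ x ∈ K, ∀ y ∈ K, ‖x - y‖ / 2 ≤ ‖α x - α y‖ ∧ ‖α x - α y‖ ≤ L * ‖x - y‖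

/-- The online game.  `Forces Λ L K Q`: the prover, who has shown the points `K`, has a finite
adaptive strategy of showing further points (always keeping the shown set a `Pack 8 Λ` set)
that beats every adversary answer `α` satisfying `Q`. -/
inductive Forces {V E : Type*} [NormedAddCommGroup V] [NormedAddCommGroup E] (Λ : ℕ) (L : ℝ) :
    List V → ((V → E) → Prop) → Prop
  | leaf (K : List V) (Q : (V → E) → Prop) :
      (∀ α, BiLip L K α → ¬ Q α) → Forces Λ L K Q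
  | split (K : List V) (Q P₁ P₂ : (V → E) → Prop) :
      (∀ α, BiLip L K α → Q α → P₁ α ∨ P₂ α) → Forces Λ L K P₁ → Forces Λ L K P₂ →
        Forces Λ L K Q
  | add (K : List V) (Q P : (V → E) → Prop) (q : V) :
      Pack 8 Λ {x | x ∈ K ++ [q]} →
      (∀ α α' : V → E, Q α → (∀ x ∈ K, α x = α' x) → P α') → Forces Λ L (K ++ [q]) P →
        Forces Λ L K Q

/-- A configuration of piecewise linear curves on the grid `0, 1, ..., M`. -/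
structure IsCfg {V : Type*} [NormedAddCommGroup V] [InnerProductSpace ℝ V]
    (E : Type*) [NormedAddCommGroup E] (Λ : ℕ) (D : ℝ) (M : ℕ) (Γ : Set (ℕ → V)) (δ : ℝ) :
    Prop where
  fin : Γ.Finite
  zero_mem : (fun _ => (0 : V)) ∈ Γ
  start : ∀ γ ∈ Γ, γ 0 = 0
  stop : ∀ γ ∈ Γ, ∀ i, M ≤ i → γ i = 0
  pos : 0 < δ
  cells : ∀ i < M, ∃ (K : List V) (P Q : V), Pack 8 Λ {x | x ∈ K} ∧ ∀ γ ∈ Γ,
    (γ i ∈ K ∧ γ (i + 1) = γ i) ∨
      (γ i = P ∧ γ (i + 1) = Q ∧ ∀ θ : ℝ, 0 < θ → θ < 1 → P + θ • (Q - P) ∉ K)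
  rigid : ∀ F : ℕ → V → E,
    (∀ i ≤ M, ∀ γ ∈ Γ, ∀ γ' ∈ Γ, ‖γ i - γ' i‖ ≤ ‖F i (γ i) - F i (γ' i)‖ ∧
      ‖F i (γ i) - F i (γ' i)‖ ≤ D * ‖γ i - γ' i‖) →
    (∀ γ ∈ Γ, ∑ i ∈ range M, ‖F (i + 1) (γ (i + 1)) - F i (γ i)‖ ^ 2 ≤
      D ^ 2 * ∑ i ∈ range M, ‖γ (i + 1) - γ i‖ ^ 2 + δ) → False

/-- Quantitative form of a configuration, after padding with `P` trivial cells on each side. -/
structure IsPadded {V : Type*} [NormedAddCommGroup V] [InnerProductSpace ℝ V]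
    (M : ℕ) (Γ : Set (ℕ → V)) (B c : ℝ) (P : ℕ) : Prop where
  two_le : 2 ≤ M
  one_le : 1 ≤ B
  cpos : 0 < c
  bound : ∀ γ ∈ Γ, ∀ i, ‖γ i‖ ≤ B
  sep : ∀ i < M, ∀ γ ∈ Γ, ∀ γ' ∈ Γ, (γ i ≠ γ' i ∨ γ (i + 1) ≠ γ' (i + 1)) →
    ∀ θ : ℝ, 0 ≤ θ → θ ≤ 1 → c * min θ (1 - θ) ≤
      ‖(1 - θ) • (γ i - γ' i) + θ • (γ (i + 1) - γ' (i + 1))‖
  sepc : ∀ i < M, ∀ γ ∈ Γ, ∀ γ' ∈ Γ, γ (i + 1) = γ i → γ' (i + 1) = γ' i → γ i ≠ γ' i →
    c ≤ ‖γ i - γ' i‖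
  pad : ∀ γ ∈ Γ, ∀ i, (i ≤ P ∨ M ≤ i + P) → γ i = 0
  bigP : 64 * B / c + 1 ≤ P
  bigM : 64 * B ≤ c * M

/-- Level-`l` coordinate at integer time `n` of the curve `γ` (linear interpolation, period
`M ^ (l + 1)`, amplitude `s * M ^ l`). -/
noncomputable def comp {V : Type*} [NormedAddCommGroup V] [InnerProductSpace ℝ V]
    (s : ℝ) (M l n : ℕ) (γ : ℕ → V) : V :=
  s • (((M ^ l - n % M ^ l : ℕ) : ℝ) • γ (n / M ^ l % M) +
    ((n % M ^ l : ℕ) : ℝ) • γ (n / M ^ l % M + 1))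

/-- The point with time `n` and level coordinates `c`. -/
noncomputable def mk {V : Type*} [NormedAddCommGroup V] [InnerProductSpace ℝ V]
    (u : V) (N n : ℕ) (c : ℕ → V) : PiLp 2 (fun _ : Fin (N + 1) => V) :=
  WithLp.toLp 2 (Fin.cons ((n : ℝ) • u) (fun l : Fin N => c l))

/-- The tower set. -/
def tower {V : Type*} [NormedAddCommGroup V] [InnerProductSpace ℝ V]
    (u : V) (s : ℝ) (M N : ℕ) (Γ : Set (ℕ → V)) : Set (PiLp 2 (fun _ : Fin (N + 1) => V)) :=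
  {x | ∃ n ≤ M ^ N, ∃ g : ℕ → ℕ → V, (∀ l, g l ∈ Γ) ∧ x = mk u N n (fun l => comp s M l n (g l))}

theorem norm_mk_sub_sq {V : Type*} [NormedAddCommGroup V] [InnerProductSpace ℝ V]
    {u : V} (hu : ‖u‖ = 1) (N n n' : ℕ) (c c' : ℕ → V) :
    ‖mk u N n c - mk u N n' c'‖ ^ 2 =
      ((n : ℝ) - n') ^ 2 + ∑ l ∈ range N, ‖c l - c' l‖ ^ 2 := by
  rw [PiLp.norm_sq_eq_of_L2, Fin.sum_univ_succ, ← Fin.sum_univ_eq_sum_range (fun l => ‖c l - c' l‖ ^ 2)]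
  simp [mk, ← sub_smul, norm_smul, hu]

theorem Pack.mono {V : Type*} [NormedAddCommGroup V] {C : ℝ} {Λ : ℕ} {X Y : Set V}
    (h : Pack C Λ Y) (hXY : X ⊆ Y) : Pack C Λ X :=
  fun r hr S hS h1 h2 => h r hr S (fun x hx => hXY (hS x hx)) h1 h2

theorem Pack.mono_card {V : Type*} [NormedAddCommGroup V] {C : ℝ} {Λ Λ' : ℕ} {X : Set V}
    (h : Pack C Λ X) (hΛ : Λ ≤ Λ') : Pack C Λ' X :=
  fun r hr S hS h1 h2 => (h r hr S hS h1 h2).trans hΛ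

theorem Pack.insert {V : Type*} [NormedAddCommGroup V] {C : ℝ} {Λ : ℕ} {X : Set V}
    (h : Pack C Λ X) (q : V) : Pack C (Λ + 1) (insert q X) := by
  classical
  intro r hr S hS h1 h2
  have := h r hr (S.erase q) (fun x hx => by
      have hx' := Finset.mem_erase.1 hx
      rcases hS x hx'.2 with h | h
      · exact absurd h hx'.1
      · exact h)
    (fun x hx y hy => h1 x (Finset.mem_of_mem_erase hx) y (Finset.mem_of_mem_erase hy))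
    (fun x hx y hy => h2 x (Finset.mem_of_mem_erase hx) y (Finset.mem_of_mem_erase hy))
  have h3 := Finset.pred_card_le_card_erase (s := S) (a := q)
  omega

/-- The projection along `d` onto the orthogonal complement of `u`. -/
noncomputable def prj {V : Type*} [NormedAddCommGroup V] [InnerProductSpace ℝ V]
    (u d x : V) : V := x - (inner ℝ u x) • d

/-- The three point inequality. -/
def Tri {V : Type*} [NormedAddCommGroup V] [InnerProductSpace ℝ V]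
    (u d : V) (σ e C : ℝ) (y₁ y₂ y₃ : V) : Prop :=
  -σ * (‖prj u d (y₃ - y₂)‖ ^ 2 + ‖prj u d (y₂ - y₁)‖ ^ 2) - e * (inner ℝ u (y₃ - y₂)) ^ 2
      - C * (inner ℝ u (y₂ - y₁)) ^ 2 ≤ inner ℝ (prj u d (y₃ - y₂)) (prj u d (y₂ - y₁))

end Vale.Agent.P208
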