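import Vale.Agent.P208.Basic
import Vale.Agent.P208.Aux37

/-! From a winning strategy to a configuration of curves. -/

namespace Vale.Agent.P208

open Finset Aux37

namespace ConfigAux

variable {V E : Type*} [NormedAddCommGroup V] [InnerProductSpace ℝ V] [NormedAddCommGroup E]

/-- The induction invariant. -/
structure Good (Λ : ℕ) (D : ℝ) (K : List V) (Q : (V → E) → Prop) (M : ℕ) (G : Set (ℕ → V))
    (η δ : ℝ) : Prop where
  fin : G.Finite
  ηpos : 0 < η
  δpos : 0 < δ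
  start : ∀ g ∈ G, g 0 ∈ K
  stop : ∀ g ∈ G, ∀ i, M ≤ i → g i = g 0
  cells : ∀ i < M, ∃ (K' : List V) (P Q' : V), (∀ x ∈ K, x ∈ K') ∧ Pack 8 Λ {x | x ∈ K'} ∧
    ∀ g ∈ G, (g i ∈ K' ∧ g (i + 1) = g i) ∨
      (g i = P ∧ g (i + 1) = Q' ∧ ∀ θ : ℝ, 0 < θ → θ < 1 → P + θ • (Q' - P) ∉ K')
  rigid : ∀ (F : ℕ → V → E) (α : V → E), Q α →
    (∀ i ≤ M, ∀ x y, (x ∈ K ∨ ∃ g ∈ G, g i = x) → (y ∈ K ∨ ∃ g ∈ G, g i = y) →
      ‖x - y‖ ≤ ‖F i x - F i y‖ ∧ ‖F i x - F i y‖ ≤ D * ‖x - y‖) →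
    (∀ i ≤ M, ∀ x ∈ K, ‖F i x - α x‖ ≤ η) →
    (∀ g ∈ G, ∑ i ∈ range M, ‖F (i + 1) (g (i + 1)) - F i (g i)‖ ^ 2 ≤
      D ^ 2 * ∑ i ∈ range M, ‖g (i + 1) - g i‖ ^ 2 + δ) → False

omit [InnerProductSpace ℝ V] in
theorem exists_rho (K : List V) (D : ℝ) : ∃ ρ : ℝ, 0 < ρ ∧ ∀ (f α : V → E),
    (∀ x ∈ K, ∀ y ∈ K, ‖x - y‖ ≤ ‖f x - f y‖ ∧ ‖f x - f y‖ ≤ D * ‖x - y‖) →
    (∀ x ∈ K, ‖f x - α x‖ ≤ ρ) → BiLip (D + 1) K α := by
  obtain ⟨c, hc, h⟩ := fin_min ((List.finite_toSet K).prod (List.finite_toSet K))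
    (fun s c => s.1 ≠ s.2 → c ≤ ‖s.1 - s.2‖)
    (fun s c c' h1 _ h2 hne => h2.trans (h1 hne))
    (by
      rintro ⟨x, y⟩ _
      by_cases hxy : x = y
      · exact ⟨1, one_pos, fun h => absurd hxy h⟩
      · exact ⟨_, norm_pos_iff.2 (sub_ne_zero.2 hxy), fun _ => le_rfl⟩)
  refine ⟨c / 4, by positivity, fun f α hf hα x hx y hy => ?_⟩
  by_cases hxy : x = y
  · subst hxy; simp
  have h1 : c ≤ ‖x - y‖ := h (x, y) ⟨hx, hy⟩ hxy
  have h2 := hf x hx y hy
  have h3 := hα x hx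
  have h4 := hα y hy
  have e1 : f x - f y = (α x - α y) + (f x - α x) - (f y - α y) := by abel
  have e2 : α x - α y = (f x - f y) - (f x - α x) + (f y - α y) := by abel
  have h5 : ‖f x - f y‖ ≤ ‖α x - α y‖ + ‖f x - α x‖ + ‖f y - α y‖ := by
    rw [e1]
    exact (norm_sub_le _ _).trans (add_le_add (norm_add_le _ _) le_rfl)
  have h6 : ‖α x - α y‖ ≤ ‖f x - f y‖ + ‖f x - α x‖ + ‖f y - α y‖ := by
    rw [e2]
    exact (norm_add_le _ _).trans (add_le_add (norm_sub_le _ _) le_rfl)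
  constructor <;> linarith [h2.1, h2.2]

theorem Good.insert_const {Λ : ℕ} {D : ℝ} {K : List V} {Q : (V → E) → Prop} {M : ℕ}
    {G : Set (ℕ → V)} {η δ : ℝ} (h : Good Λ D K Q M G η δ) {q : V} (hq : q ∈ K) :
    Good Λ D K Q M (insert (fun _ => q) G) η δ := by
  refine ⟨h.fin.insert _, h.ηpos, h.δpos, ?_, ?_, ?_, ?_⟩
  · rintro g (rfl | hg)
    · exact hq
    · exact h.start g hg
  · rintro g (rfl | hg) i hi
    · rfl
    · exact h.stop g hg i hi
  · intro i hi
    obtain ⟨K', P, Q', h1, h2, h3⟩ := h.cells i hi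
    refine ⟨K', P, Q', h1, h2, ?_⟩
    rintro g (rfl | hg)
    · exact Or.inl ⟨h1 q hq, rfl⟩
    · exact h3 g hg
  · intro F α hQ h1 h2 h3
    refine h.rigid F α hQ (fun i hi x y hx hy => h1 i hi x y ?_ ?_) h2
      (fun g hg => h3 g (Set.mem_insert_of_mem _ hg))
    · rcases hx with hx | ⟨g, hg, rfl⟩
      · exact Or.inl hx
      · exact Or.inr ⟨g, Set.mem_insert_of_mem _ hg, rfl⟩
    · rcases hy with hy | ⟨g, hg, rfl⟩
      · exact Or.inl hy
      · exact Or.inr ⟨g, Set.mem_insert_of_mem _ hg, rfl⟩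

theorem good_leaf {Λ : ℕ} {D : ℝ} {K : List V} {Q : (V → E) → Prop}
    (h : ∀ α, BiLip (D + 1) K α → ¬ Q α) : ∃ M G η δ, Good Λ D K Q M G η δ := by
  obtain ⟨ρ, hρ, hb⟩ := exists_rho (E := E) K D
  refine ⟨0, ∅, ρ, 1, Set.finite_empty, hρ, one_pos, by simp, by simp, by simp, ?_⟩
  intro F α hQ h1 h2 _
  exact h α (hb (F 0) α (fun x hx y hy => h1 0 le_rfl x y (Or.inl hx) (Or.inl hy))
    (h2 0 le_rfl)) hQ

theorem good_split {Λ : ℕ} {D : ℝ} {K : List V} {Q P₁ P₂ : (V → E) → Prop}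
    (h : ∀ α, BiLip (D + 1) K α → Q α → P₁ α ∨ P₂ α)
    {M₁ M₂ : ℕ} {G₁ G₂ : Set (ℕ → V)} {η₁ η₂ δ₁ δ₂ : ℝ}
    (h₁ : Good Λ D K P₁ M₁ G₁ η₁ δ₁) (h₂ : Good Λ D K P₂ M₂ G₂ η₂ δ₂) :
    ∃ M G η δ, Good Λ D K Q M G η δ := by
  obtain ⟨ρ, hρ, hb⟩ := exists_rho (E := E) K D
  refine ⟨M₁ + M₂, G₁ ∪ (fun (g : ℕ → V) (i : ℕ) => g (i - M₁)) '' G₂, min ρ (min η₁ η₂),
    min δ₁ δ₂, h₁.fin.union (h₂.fin.image _), lt_min hρ (lt_min h₁.ηpos h₂.ηpos),
    lt_min h₁.δpos h₂.δpos, ?_, ?_, ?_, ?_⟩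
  · rintro g (hg | ⟨g, hg, rfl⟩)
    · exact h₁.start g hg
    · simpa using h₂.start g hg
  · rintro g (hg | ⟨g, hg, rfl⟩) i hi
    · exact h₁.stop g hg i (by omega)
    · simpa using h₂.stop g hg (i - M₁) (by omega)
  · intro i hi
    by_cases hi1 : i < M₁
    · obtain ⟨K', P, Q', c1, c2, c3⟩ := h₁.cells i hi1
      refine ⟨K', P, Q', c1, c2, ?_⟩
      rintro g (hg | ⟨g, hg, rfl⟩)
      · exact c3 g hg
      · have e1 : i - M₁ = 0 := by omega
        have e2 : i + 1 - M₁ = 0 := by omega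
        simp only [e1, e2]
        exact Or.inl ⟨c1 _ (h₂.start g hg), trivial⟩
    · obtain ⟨K', P, Q', c1, c2, c3⟩ := h₂.cells (i - M₁) (by omega)
      refine ⟨K', P, Q', c1, c2, ?_⟩
      rintro g (hg | ⟨g, hg, rfl⟩)
      · rw [h₁.stop g hg i (by omega), h₁.stop g hg (i + 1) (by omega)]
        exact Or.inl ⟨c1 _ (h₁.start g hg), rfl⟩
      · have e2 : i + 1 - M₁ = i - M₁ + 1 := by omega
        simp only [e2]
        exact c3 g hg
  · intro F α hQ c1 c2 c3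
    have hα := hb (F 0) α (fun x hx y hy => c1 0 (Nat.zero_le _) x y (Or.inl hx) (Or.inl hy))
      (fun x hx => (c2 0 (Nat.zero_le _) x hx).trans (min_le_left _ _))
    rcases h α hα hQ with hP | hP
    · refine h₁.rigid F α hP (fun i hi x y hx hy => c1 i (by omega) x y ?_ ?_)
        (fun i hi x hx => (c2 i (by omega) x hx).trans
          ((min_le_right _ _).trans (min_le_left _ _))) (fun g hg => ?_)
      · rcases hx with hx | ⟨g, hg, rfl⟩
        · exact Or.inl hx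
        · exact Or.inr ⟨g, Or.inl hg, rfl⟩
      · rcases hy with hy | ⟨g, hg, rfl⟩
        · exact Or.inl hy
        · exact Or.inr ⟨g, Or.inl hg, rfl⟩
      · have h3 := c3 g (Or.inl hg)
        have h4 := sub_le (fun i => ‖F (i + 1) (g (i + 1)) - F i (g i)‖ ^ 2)
          (fun _ => sq_nonneg _) 0 M₁ M₂
        have h5 := le_sub (fun i => ‖g (i + 1) - g i‖ ^ 2) 0 M₁ M₂ 0 (by simp)
          (fun i hi => by
            rw [h₁.stop g hg (0 + M₁ + i + 1) (by omega), h₁.stop g hg (0 + M₁ + i) (by omega)]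
            simp)
        simp only [zero_add, mul_zero, add_zero] at h4 h5
        have h6 := mul_le_mul_of_nonneg_left h5 (sq_nonneg D)
        have h7 := min_le_left δ₁ δ₂
        linarith
    · refine h₂.rigid (fun i => F (M₁ + i)) α hP
        (fun i hi x y hx hy => c1 (M₁ + i) (by omega) x y ?_ ?_)
        (fun i hi x hx => (c2 (M₁ + i) (by omega) x hx).trans
          ((min_le_right _ _).trans (min_le_right _ _))) (fun g hg => ?_)
      · rcases hx with hx | ⟨g, hg, rfl⟩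
        · exact Or.inl hx
        · exact Or.inr ⟨_, Or.inr ⟨g, hg, rfl⟩, by simp⟩
      · rcases hy with hy | ⟨g, hg, rfl⟩
        · exact Or.inl hy
        · exact Or.inr ⟨_, Or.inr ⟨g, hg, rfl⟩, by simp⟩
      · have h3 := c3 _ (Or.inr ⟨g, hg, rfl⟩)
        have h4 := sub_le (fun i => ‖F (i + 1) (g (i + 1 - M₁)) - F i (g (i - M₁))‖ ^ 2)
          (fun _ => sq_nonneg _) M₁ M₂ 0
        have h5 := le_sub (fun i => ‖g (i + 1 - M₁) - g (i - M₁)‖ ^ 2) M₁ M₂ 0 0
          (fun i hi => by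
            have e1 : i - M₁ = 0 := by omega
            have e2 : i + 1 - M₁ = 0 := by omega
            rw [e1, e2]; simp) (by simp)
        simp only [add_assoc M₁, Nat.add_sub_cancel_left, mul_zero, add_zero] at h3 h4 h5
        have h6 := mul_le_mul_of_nonneg_left h5 (sq_nonneg D)
        have h7 := min_le_right δ₁ δ₂
        linarith

theorem good_add_mem {Λ : ℕ} {D : ℝ} {K : List V} {Q P : (V → E) → Prop} {q : V}
    (hq : q ∈ K) (h : ∀ α α' : V → E, Q α → (∀ x ∈ K, α x = α' x) → P α')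
    {M : ℕ} {G : Set (ℕ → V)} {η δ : ℝ} (h₁ : Good Λ D (K ++ [q]) P M G η δ) :
    Good Λ D K Q M G η δ := by
  have hm : ∀ x ∈ K ++ [q], x ∈ K := by
    intro x hx
    rcases List.mem_append.1 hx with hx | hx
    · exact hx
    · rwa [List.mem_singleton.1 hx]
  refine ⟨h₁.fin, h₁.ηpos, h₁.δpos, fun g hg => hm _ (h₁.start g hg), h₁.stop, ?_, ?_⟩
  · intro i hi
    obtain ⟨K', P', Q', c1, c2, c3⟩ := h₁.cells i hi
    exact ⟨K', P', Q', fun x hx => c1 x (List.mem_append_left _ hx), c2, c3⟩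
  · intro F α hQ c1 c2 c3
    refine h₁.rigid F α (h α α hQ fun _ _ => rfl) (fun i hi x y hx hy => c1 i hi x y ?_ ?_)
      (fun i hi x hx => c2 i hi x (hm x hx)) c3
    · exact hx.imp_left (hm x)
    · exact hy.imp_left (hm y)

/-- The curve moving from `p` to `q` and back. -/
noncomputable def path (p q : V) (m M i : ℕ) : V :=
  p + (((min (min i m) (m + M + m - i) : ℕ) : ℝ) / m) • (q - p)

theorem path_mid (p q : V) {m M i : ℕ} (hm : 0 < m) (h1 : m ≤ i) (h2 : i ≤ m + M) :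
    path p q m M i = q := by
  have e : min (min i m) (m + M + m - i) = m := by omega
  have : (m : ℝ) ≠ 0 := by positivity
  simp [path, e, div_self this]

theorem path_end (p q : V) {m M i : ℕ} (h : i = 0 ∨ m + M + m ≤ i) : path p q m M i = p := by
  have e : min (min i m) (m + M + m - i) = 0 := by omega
  simp [path, e]

theorem path_step (p q : V) {m : ℕ} (M i : ℕ) (hm : 0 < m) :
    ‖path p q m M (i + 1) - path p q m M i‖ ^ 2 ≤ (‖q - p‖ / m) ^ 2 := by
  refine pow_le_pow_left₀ (norm_nonneg _) ?_ 2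
  have hm' : (0 : ℝ) < m := by positivity
  set a := min (min (i + 1) m) (m + M + m - (i + 1)) with ha
  set b := min (min i m) (m + M + m - i) with hb
  have e : path p q m M (i + 1) - path p q m M i = (((a : ℝ) - b) / m) • (q - p) := by
    simp only [path, ← ha, ← hb, sub_div, sub_smul]
    abel
  have h1 : |(a : ℝ) - b| ≤ 1 := by
    have h2 : a ≤ b + 1 := by omega
    have h3 : b ≤ a + 1 := by omega
    have h2' : (a : ℝ) ≤ b + 1 := by exact_mod_cast h2
    have h3' : (b : ℝ) ≤ a + 1 := by exact_mod_cast h3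
    rw [abs_le]; constructor <;> linarith
  rw [e, norm_smul, Real.norm_eq_abs, abs_div, abs_of_pos hm', div_mul_eq_mul_div]
  gcongr
  exact mul_le_of_le_one_left (norm_nonneg _) h1

theorem path_avoid {K : List V} {p q : V} (hq : q ≠ p) (hp : ∀ x ∈ K, ‖q - p‖ ≤ ‖q - x‖)
    {m M i : ℕ} (hm : 0 < m) (hi : i < m + M + m) (θ : ℝ) (h0 : 0 < θ) (h1 : θ < 1) :
    path p q m M i + θ • (path p q m M (i + 1) - path p q m M i) ∉ K := by
  intro hx
  have hm' : (0 : ℝ) < m := by positivity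
  set a := min (min (i + 1) m) (m + M + m - (i + 1)) with ha
  set b := min (min i m) (m + M + m - i) with hb
  have e : q - (path p q m M i + θ • (path p q m M (i + 1) - path p q m M i)) =
      (1 - ((1 - θ) * b + θ * a) / m) • (q - p) := by
    simp only [path, ← ha, ← hb]
    have : ((1 - θ) * b + θ * a) / (m : ℝ) = (1 - θ) * (b / m) + θ * (a / m) := by ring
    rw [this]
    module
  have h2 := hp _ hx
  have ham : (a : ℝ) ≤ m := by exact_mod_cast (by omega : a ≤ m)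
  have hbm : (b : ℝ) ≤ m := by exact_mod_cast (by omega : b ≤ m)
  have ha0 : (0 : ℝ) ≤ a := Nat.cast_nonneg _
  have hb0 : (0 : ℝ) ≤ b := Nat.cast_nonneg _
  have hpos : 0 < (1 - θ) * b + θ * a := by
    rcases (by omega : 1 ≤ a ∨ 1 ≤ b) with h | h
    · have : (1 : ℝ) ≤ a := by exact_mod_cast h
      nlinarith
    · have : (1 : ℝ) ≤ b := by exact_mod_cast h
      nlinarith
  have hle : ((1 - θ) * b + θ * a) / m ≤ 1 := by
    rw [div_le_one hm']; nlinarith
  have hpos' : 0 < ((1 - θ) * b + θ * a) / m := by positivity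
  have hd : 0 < ‖q - p‖ := norm_pos_iff.2 (sub_ne_zero.2 hq)
  rw [e, norm_smul, Real.norm_of_nonneg (by linarith)] at h2
  nlinarith

open Classical in
/-- Extension of a curve to the two margins. -/
noncomputable def extend (p q : V) (m M : ℕ) (g : ℕ → V) (i : ℕ) : V :=
  if g 0 = q ∧ (i ≤ m ∨ m + M ≤ i) then path p q m M i else g (i - m)

theorem extend_mid (p q : V) {m M : ℕ} (hm : 0 < m) {g : ℕ → V}
    (hg : ∀ i, M ≤ i → g i = g 0) {i : ℕ} (hi : i ≤ M) : extend p q m M g (m + i) = g i := by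
  unfold extend
  split_ifs with h
  · rw [path_mid p q hm (by omega) (by omega)]
    rcases h.2 with h2 | h2
    · rw [show i = 0 by omega, h.1]
    · rw [hg i (by omega), h.1]
  · rw [Nat.add_sub_cancel_left]

theorem extend_q (p q : V) {m M : ℕ} {g : ℕ → V} (hg : g 0 = q) {i : ℕ}
    (hi : i ≤ m ∨ m + M ≤ i) : extend p q m M g i = path p q m M i := by
  unfold extend
  rw [if_pos ⟨hg, hi⟩]

theorem extend_ne (p q : V) {m M : ℕ} {g : ℕ → V} (hg : g 0 ≠ q)
    (hg' : ∀ i, M ≤ i → g i = g 0) {i : ℕ} (hi : i ≤ m ∨ m + M ≤ i) :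
    extend p q m M g i = g 0 := by
  unfold extend
  rw [if_neg fun h => hg h.1]
  rcases hi with hi | hi
  · rw [Nat.sub_eq_zero_of_le hi]
  · exact hg' _ (by omega)

theorem good_add_new {Λ : ℕ} {D : ℝ} {K : List V} {Q P : (V → E) → Prop} {q : V}
    (hK : K ≠ []) (hq : q ∉ K) (hpack : Pack 8 Λ {x | x ∈ K ++ [q]})
    (h : ∀ α α' : V → E, Q α → (∀ x ∈ K, α x = α' x) → P α')
    {M : ℕ} {G : Set (ℕ → V)} {η δ : ℝ} (h₁ : Good Λ D (K ++ [q]) P M G η δ)
    (hc : (fun _ => q) ∈ G) : ∃ M G η δ, Good Λ D K Q M G η δ := by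
  classical
  obtain ⟨p, hpK, hp⟩ : ∃ p ∈ K, ∀ x ∈ K, ‖q - p‖ ≤ ‖q - x‖ := by
    obtain ⟨p, h1, h2⟩ := exists_min_image K.toFinset (fun x => ‖q - x‖)
      (by simpa using hK)
    exact ⟨p, by simpa using h1, fun x hx => h2 x (by simpa using hx)⟩
  have hqp : q ≠ p := fun e => hq (e ▸ hpK)
  have hη := h₁.ηpos
  obtain ⟨β, hβ, hβ1, hβ2⟩ : ∃ β : ℝ, 0 < β ∧ β ≤ δ ∧ β ≤ η ^ 2 / (M + 1) :=
    ⟨min δ (η ^ 2 / (M + 1)), lt_min h₁.δpos (by positivity), min_le_left _ _, min_le_right _ _⟩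
  obtain ⟨m, hm, hmβ⟩ : ∃ m : ℕ, 0 < m ∧ D ^ 2 * (((m : ℝ) + m) * (‖q - p‖ / m) ^ 2) ≤ β / 2 := by
    obtain ⟨n, hn⟩ := exists_nat_ge (4 * D ^ 2 * ‖q - p‖ ^ 2 / β)
    refine ⟨n + 1, Nat.succ_pos _, ?_⟩
    have h1 : (0 : ℝ) < ((n + 1 : ℕ) : ℝ) := by positivity
    have h2 : 4 * D ^ 2 * ‖q - p‖ ^ 2 / β ≤ ((n + 1 : ℕ) : ℝ) := by push_cast; linarith
    generalize ((n + 1 : ℕ) : ℝ) = t at h1 h2
    rw [div_le_iff₀ hβ] at h2
    have e : D ^ 2 * ((t + t) * (‖q - p‖ / t) ^ 2) = 2 * D ^ 2 * ‖q - p‖ ^ 2 / t := by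
      field_simp; ring
    rw [e, div_le_iff₀ h1]
    linarith
  have hst : ∀ g ∈ G, g 0 ≠ q → g 0 ∈ K := by
    intro g hg hne
    rcases List.mem_append.1 (h₁.start g hg) with hx | hx
    · exact hx
    · exact absurd (List.mem_singleton.1 hx) hne
  refine ⟨m + M + m, extend p q m M '' G, η, β / 2, h₁.fin.image _, hη, by positivity,
    ?_, ?_, ?_, ?_⟩
  · rintro _ ⟨g, hg, rfl⟩
    by_cases h0 : g 0 = q
    · rw [extend_q p q h0 (Or.inl (Nat.zero_le _)), path_end p q (Or.inl rfl)]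
      exact hpK
    · rw [extend_ne p q h0 (h₁.stop g hg) (Or.inl (Nat.zero_le _))]
      exact hst g hg h0
  · rintro _ ⟨g, hg, rfl⟩ i hi
    by_cases h0 : g 0 = q
    · rw [extend_q p q h0 (Or.inl (Nat.zero_le _)), path_end p q (Or.inl rfl),
        extend_q p q h0 (Or.inr (by omega)), path_end p q (Or.inr hi)]
    · rw [extend_ne p q h0 (h₁.stop g hg) (Or.inl (Nat.zero_le _)),
        extend_ne p q h0 (h₁.stop g hg) (Or.inr (by omega))]
  · intro i hi
    by_cases hmid : m ≤ i ∧ i < m + M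
    · obtain ⟨j, rfl⟩ : ∃ j, i = m + j := ⟨i - m, by omega⟩
      obtain ⟨K', P', Q', c1, c2, c3⟩ := h₁.cells j (by omega)
      refine ⟨K', P', Q', fun x hx => c1 x (List.mem_append_left _ hx), c2, ?_⟩
      rintro _ ⟨g, hg, rfl⟩
      rw [add_assoc, extend_mid p q hm (h₁.stop g hg) (by omega : j ≤ M),
        extend_mid p q hm (h₁.stop g hg) (by omega : j + 1 ≤ M)]
      exact c3 g hg
    · refine ⟨K, path p q m M i, path p q m M (i + 1), fun x hx => hx,
        hpack.mono fun x hx => List.mem_append_left _ hx, ?_⟩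
      rintro _ ⟨g, hg, rfl⟩
      by_cases h0 : g 0 = q
      · exact Or.inr ⟨extend_q p q h0 (by omega), extend_q p q h0 (by omega),
          path_avoid hqp hp hm hi⟩
      · rw [extend_ne p q h0 (h₁.stop g hg) (by omega : i ≤ m ∨ m + M ≤ i),
          extend_ne p q h0 (h₁.stop g hg) (by omega : i + 1 ≤ m ∨ m + M ≤ i + 1)]
        exact Or.inl ⟨hst g hg h0, rfl⟩
  · intro F α hQ c1 c2 c3
    have hen : ∀ g ∈ G, ∑ i ∈ range M, ‖F (m + (i + 1)) (g (i + 1)) - F (m + i) (g i)‖ ^ 2 ≤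
        D ^ 2 * ∑ i ∈ range M, ‖g (i + 1) - g i‖ ^ 2 + β := by
      intro g hg
      have h3 := c3 _ ⟨g, hg, rfl⟩
      have h4 := sub_le (fun i => ‖F (i + 1) (extend p q m M g (i + 1)) -
        F i (extend p q m M g i)‖ ^ 2) (fun _ => sq_nonneg _) m M m
      have hmar : ∀ i, (i < m ∨ m + M ≤ i) →
          ‖extend p q m M g (i + 1) - extend p q m M g i‖ ^ 2 ≤ (‖q - p‖ / m) ^ 2 := by
        intro i hi
        by_cases h0 : g 0 = q
        · rw [extend_q p q h0 (by omega), extend_q p q h0 (by omega)]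
          exact path_step p q M i hm
        · rw [extend_ne p q h0 (h₁.stop g hg) (by omega : i ≤ m ∨ m + M ≤ i),
            extend_ne p q h0 (h₁.stop g hg) (by omega : i + 1 ≤ m ∨ m + M ≤ i + 1), sub_self,
            norm_zero, zero_pow two_ne_zero]
          positivity
      have h5 := le_sub (fun i => ‖extend p q m M g (i + 1) - extend p q m M g i‖ ^ 2) m M m _
        (fun i hi => hmar i (Or.inl hi)) (fun i _ => hmar _ (Or.inr (by omega)))
      have e1 : ∑ i ∈ range M, ‖F (m + i + 1) (extend p q m M g (m + i + 1)) -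
          F (m + i) (extend p q m M g (m + i))‖ ^ 2 =
          ∑ i ∈ range M, ‖F (m + (i + 1)) (g (i + 1)) - F (m + i) (g i)‖ ^ 2 := by
        refine sum_congr rfl fun i hi => ?_
        have hi' := mem_range.1 hi
        rw [add_assoc, extend_mid p q hm (h₁.stop g hg) (by omega : i ≤ M),
          extend_mid p q hm (h₁.stop g hg) (by omega : i + 1 ≤ M)]
      have e2 : ∑ i ∈ range M, ‖extend p q m M g (m + i + 1) - extend p q m M g (m + i)‖ ^ 2 =
          ∑ i ∈ range M, ‖g (i + 1) - g i‖ ^ 2 := by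
        refine sum_congr rfl fun i hi => ?_
        have hi' := mem_range.1 hi
        rw [add_assoc, extend_mid p q hm (h₁.stop g hg) (by omega : i ≤ M),
          extend_mid p q hm (h₁.stop g hg) (by omega : i + 1 ≤ M)]
      simp only [e1] at h4
      simp only [e2] at h5
      have h6 := mul_le_mul_of_nonneg_left h5 (sq_nonneg D)
      rw [mul_add] at h6
      linarith
    have hmem : ∀ i ≤ M, ∀ x, (x ∈ K ++ [q] ∨ ∃ g ∈ G, g i = x) →
        (x ∈ K ∨ ∃ g ∈ extend p q m M '' G, g (m + i) = x) := by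
      intro i hi x hx
      rcases hx with hx | ⟨g, hg, rfl⟩
      · rcases List.mem_append.1 hx with hx | hx
        · exact Or.inl hx
        · refine Or.inr ⟨_, ⟨_, hc, rfl⟩, ?_⟩
          rw [extend_mid p q hm (h₁.stop _ hc) hi, List.mem_singleton.1 hx]
      · exact Or.inr ⟨_, ⟨g, hg, rfl⟩, extend_mid p q hm (h₁.stop g hg) hi⟩
    refine h₁.rigid (fun i => F (m + i)) (Function.update α q (F m q))
      (h α _ hQ fun x hx => ?_)
      (fun i hi x y hx hy => c1 (m + i) (by omega) x y (hmem i hi x hx) (hmem i hi y hy))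
      (fun i hi x hx => ?_) (fun g hg => (hen g hg).trans (by linarith))
    · rw [Function.update_of_ne (fun e : x = q => hq (e ▸ hx))]
    · rcases List.mem_append.1 hx with hx | hx
      · rw [Function.update_of_ne (fun e : x = q => hq (e ▸ hx))]
        exact c2 (m + i) (by omega) x hx
      · rw [List.mem_singleton.1 hx, Function.update_self]
        have h7 := hen _ hc
        simp only [sub_self, norm_zero, ne_eq, OfNat.ofNat_ne_zero, not_false_eq_true, zero_pow,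
          sum_const_zero, mul_zero, zero_add] at h7
        exact tele_le (fun i => F (m + i) q) M i hi hη hβ2 h7

theorem good_of_forces {Λ : ℕ} {D : ℝ} {K : List V} {Q : (V → E) → Prop}
    (h : Forces Λ (D + 1) K Q) (hK : K ≠ []) : ∃ M G η δ, Good Λ D K Q M G η δ := by
  induction h with
  | leaf K Q h => exact good_leaf h
  | split K Q P₁ P₂ h _ _ ih₁ ih₂ =>
    obtain ⟨_, _, _, _, h₁⟩ := ih₁ hK
    obtain ⟨_, _, _, _, h₂⟩ := ih₂ hK
    exact good_split h h₁ h₂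
  | add K Q P q hp h _ ih =>
    obtain ⟨_, _, _, _, h₁⟩ := ih (by simp)
    by_cases hq : q ∈ K
    · exact ⟨_, _, _, _, good_add_mem hq h h₁⟩
    · exact good_add_new hK hq hp h (h₁.insert_const (q := q) (by simp)) (Set.mem_insert _ _)

end ConfigAux

open ConfigAux

theorem cfg_of_forces {V E : Type*} [NormedAddCommGroup V] [InnerProductSpace ℝ V]
    [NormedAddCommGroup E] {Λ : ℕ} {D : ℝ} (hD : 1 ≤ D)
    (h : Forces (E := E) Λ (D + 1) [(0 : V)] (fun _ => True)) :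
    ∃ (M : ℕ) (Γ : Set (ℕ → V)) (δ : ℝ), IsCfg E Λ D M Γ δ := by
  have _hD := hD
  obtain ⟨M, G₀, η, δ, h₀⟩ := good_of_forces h (by simp)
  have h₁ := h₀.insert_const (q := (0 : V)) (by simp)
  have hz : (fun _ => (0 : V)) ∈ insert (fun _ : ℕ => (0 : V)) G₀ := Set.mem_insert _ _
  generalize insert (fun _ : ℕ => (0 : V)) G₀ = G at h₁ hz
  have hη := h₁.ηpos
  have hs : ∀ g ∈ G, g 0 = 0 := fun g hg => List.mem_singleton.1 (h₁.start g hg)
  refine ⟨M, G, min δ (η ^ 2 / (M + 1)), h₁.fin, hz, hs,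
    fun g hg i hi => (h₁.stop g hg i hi).trans (hs g hg), lt_min h₁.δpos (by positivity), ?_, ?_⟩
  · intro i hi
    obtain ⟨K', P, Q', _, c2, c3⟩ := h₁.cells i hi
    exact ⟨K', P, Q', c2, c3⟩
  · intro F c1 c2
    have hmem : ∀ i x, (x ∈ [(0 : V)] ∨ ∃ g ∈ G, g i = x) → ∃ g ∈ G, g i = x := by
      rintro i x (hx | hx)
      · exact ⟨_, hz, (List.mem_singleton.1 hx).symm⟩
      · exact hx
    refine h₁.rigid F (F 0) trivial (fun i hi x y hx hy => ?_) (fun i hi x hx => ?_)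
      (fun g hg => (c2 g hg).trans (by linarith [min_le_left δ (η ^ 2 / (M + 1))]))
    · obtain ⟨g, hg, rfl⟩ := hmem i x hx
      obtain ⟨g', hg', rfl⟩ := hmem i y hy
      exact c1 i hi g hg g' hg'
    · rw [List.mem_singleton.1 hx]
      have h7 := c2 _ hz
      simp only [sub_self, norm_zero, ne_eq, OfNat.ofNat_ne_zero, not_false_eq_true, zero_pow,
        sum_const_zero, mul_zero, zero_add] at h7
      exact tele_le (fun i => F i 0) M i hi hη (min_le_right _ _) h7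

end Vale.Agent.P208
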