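import Mathlib

namespace Vale.Agent.P208

/-- Doubling metric space: there is `lam` such that every ball is covered by at most `lam`
balls of half the radius with centres in the space.  We cover closed balls by open balls, which
implies the statement for every open/closed convention. -/
def IsDoubling (Y : Type) [MetricSpace Y] : Prop :=
  ∃ lam : ℕ, ∀ (x : Y) (r : ℝ), 0 < r → ∃ S : Finset Y, S.card ≤ lam ∧
    Metric.closedBall x r ⊆ ⋃ y ∈ S, Metric.ball y (r / 2)

/-- `Y` admits a bi-Lipschitz embedding into Euclidean `k`-space with some scale `a > 0` and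
some finite distortion `D`. -/
def BiLipEmbeds (Y : Type) [MetricSpace Y] (k : ℕ) : Prop :=
  ∃ (f : Y → EuclideanSpace ℝ (Fin k)) (a D : ℝ), 0 < a ∧
    ∀ x y : Y, a * dist x y ≤ dist (f x) (f y) ∧ dist (f x) (f y) ≤ D * a * dist x y

end Vale.Agent.P208
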