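import Vale.Agent.P208.Basic

namespace Vale.Agent.P208

open Finset

theorem norm_prj_sq {V : Type*} [NormedAddCommGroup V] [InnerProductSpace ℝ V] {u : V}
    (hu : ‖u‖ = 1) (x : V) : ‖prj u u x‖ ^ 2 = ‖x‖ ^ 2 - (inner ℝ u x) ^ 2 := by
  rw [prj, norm_sub_sq_real, norm_smul, hu, inner_smul_right, real_inner_comm, mul_one,
    Real.norm_eq_abs, sq_abs]
  ring

theorem prj_add {V : Type*} [NormedAddCommGroup V] [InnerProductSpace ℝ V] (u d x y : V) :
    prj u d (x + y) = prj u d x + prj u d y := by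
  simp only [prj, inner_add_right, add_smul]
  abel

theorem pack_of_tri (C : ℝ) : ∃ Λ : ℕ, ∀ (V : Type) [NormedAddCommGroup V]
    [InnerProductSpace ℝ V] (u : V) (σ : ℝ) (l : List V), ‖u‖ = 1 → 0 ≤ σ → σ ≤ 1 / 500 →
      l.Triplewise (Tri u u σ 0 C) → Pack 8 Λ {x | x ∈ l} := by
  classical
  obtain ⟨θ, hθ0, hθ1, hθ2⟩ : ∃ θ : ℝ, 0 < θ ∧ θ ≤ 1 / 8 ∧ C * θ ^ 2 ≤ 1 / 64 := by
    have h1 : 1 ≤ max C 1 := le_max_right _ _
    have h2 : C ≤ max C 1 := le_max_left _ _
    refine ⟨1 / (8 * max C 1), by positivity, ?_, ?_⟩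
    · exact one_div_le_one_div_of_le (by norm_num) (by linarith)
    · rw [div_pow, ← mul_div_assoc, div_le_div_iff₀ (by positivity) (by norm_num)]
      nlinarith
  refine ⟨258 * (2 * ⌈8 / θ⌉₊ + 1), fun V _ _ u σ l hu hσ0 hσ1 hl r hr S hS h1 h2 => ?_⟩
  rcases S.eq_empty_or_nonempty with rfl | ⟨y0, hy0⟩
  · simp
  have hθr : 0 < θ * r := by positivity
  let col : V → ℤ := fun y => ⌊inner ℝ u (y - y0) / (θ * r)⌋
  have hcol : (S.image col).card ≤ 2 * ⌈8 / θ⌉₊ + 1 := by
    have : S.image col ⊆ Finset.Icc (-(⌈8 / θ⌉₊ : ℤ)) ⌈8 / θ⌉₊ := by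
      intro c hc
      obtain ⟨y, hy, rfl⟩ := Finset.mem_image.1 hc
      have a1 := abs_real_inner_le_norm u (y - y0)
      rw [hu, one_mul] at a1
      have a2 := a1.trans (h2 y hy y0 hy0)
      have a3 : 8 / θ ≤ (⌈8 / θ⌉₊ : ℝ) := Nat.le_ceil _
      rw [div_le_iff₀ hθ0] at a3
      have a4 : 8 * r ≤ (⌈8 / θ⌉₊ : ℝ) * (θ * r) := by nlinarith
      rw [abs_le] at a2
      rw [Finset.mem_Icc]
      constructor
      · rw [Int.le_floor, le_div_iff₀ hθr]
        push_cast
        linarith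
      · rw [Int.floor_le_iff, div_lt_iff₀ hθr]
        push_cast
        linarith
    refine (Finset.card_le_card this).trans (le_of_eq ?_)
    rw [Int.card_Icc]
    omega
  refine (Finset.card_le_mul_card_image (f := col) S 258 ?_).trans (Nat.mul_le_mul_left _ hcol)
  intro c _
  set S' := S.filter (fun y => col y = c) with hS'
  have hsub : ∀ y ∈ S', y ∈ S := fun y hy => (Finset.mem_filter.1 hy).1
  have hclose : ∀ y ∈ S', ∀ z ∈ S', (inner ℝ u (y - z)) ^ 2 ≤ (θ * r) ^ 2 := by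
    intro y hy z hz
    have e : col y = col z := by rw [(Finset.mem_filter.1 hy).2, (Finset.mem_filter.1 hz).2]
    have a1 := Int.abs_sub_lt_one_of_floor_eq_floor e
    rw [← sub_div, ← inner_sub_right, sub_sub_sub_cancel_right, abs_div, abs_of_pos hθr,
      div_lt_one hθr] at a1
    exact sq_le_sq' (abs_lt.1 a1).1.le (abs_lt.1 a1).2.le
  rcases S'.eq_empty_or_nonempty with h0 | hne
  · rw [h0]; simp
  let ι : V → ℕ := fun y => l.idxOf y
  have hι : ∀ y ∈ S', ι y < l.length := fun y hy => List.idxOf_lt_length_iff.2 (hS y (hsub y hy))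
  have hι' : ∀ y (hy : y ∈ S'), l[ι y]'(hι y hy) = y := fun y hy => List.getElem_idxOf _
  have hinj : ∀ y ∈ S', ∀ z ∈ S', ι y = ι z → y = z := by
    intro y hy z hz e
    rw [← hι' y hy, ← hι' z hz]
    simp only [e]
  obtain ⟨y1, hy1, hmin⟩ := S'.exists_min_image ι hne
  let a : V → ℝ := fun z => ‖prj u u (z - y1)‖ ^ 2
  have ha : ∀ z ∈ S', a z ≤ 64 * r ^ 2 := by
    intro z hz
    simp only [a, norm_prj_sq hu]
    have := h2 z (hsub z hz) y1 (hsub y1 hy1)
    nlinarith [sq_nonneg (inner ℝ u (z - y1)), norm_nonneg (z - y1)]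
  have hstep : ∀ z ∈ S'.erase y1, ∀ z' ∈ S', ι z < ι z' → a z + r ^ 2 / 4 ≤ a z' := by
    intro z hz z' hz' hlt
    obtain ⟨hz1, hz⟩ := Finset.mem_erase.1 hz
    have b1 : ι y1 < ι z := lt_of_le_of_ne (hmin z hz) fun e => hz1 (hinj y1 hy1 z hz e).symm
    have b2 := List.triplewise_iff_getElem.1 hl (ι y1) (ι z) (ι z') b1 hlt (hι z' hz')
    rw [hι' y1 hy1, hι' z hz, hι' z' hz', Tri] at b2
    have b3 : a z' = ‖prj u u (z' - z)‖ ^ 2 + 2 * inner ℝ (prj u u (z' - z)) (prj u u (z - y1)) +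
        a z := by
      simp only [a]
      rw [← norm_add_sq_real, ← prj_add, sub_add_sub_cancel]
    have b4 : r ≤ ‖z' - z‖ := h1 z' (hsub z' hz') z (hsub z hz) fun e => by rw [e] at hlt; omega
    have b5 := norm_prj_sq hu (z' - z)
    have b6 := hclose z' hz' z hz
    have b7 := hclose z hz y1 hy1
    have b8 := ha z hz
    have b9 : r ^ 2 ≤ ‖z' - z‖ ^ 2 := pow_le_pow_left₀ hr.le b4 2
    have r2 : 0 < r ^ 2 := by positivity
    have c1 : (θ * r) ^ 2 ≤ r ^ 2 / 64 := by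
      have : θ ^ 2 ≤ 1 / 64 := by nlinarith
      rw [mul_pow]; nlinarith
    have c2 : C * (inner ℝ u (z - y1)) ^ 2 ≤ r ^ 2 / 64 := by
      by_cases hC : 0 ≤ C
      · have := mul_le_mul_of_nonneg_left b7 hC
        rw [mul_pow] at this
        nlinarith
      · have := mul_nonpos_of_nonpos_of_nonneg (not_le.1 hC).le (sq_nonneg (inner ℝ u (z - y1)))
        linarith
    change -σ * (‖prj u u (z' - z)‖ ^ 2 + a z) - _ - _ ≤ _ at b2
    have c3 : σ * a z ≤ 1 / 500 * (64 * r ^ 2) :=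
      mul_le_mul hσ1 b8 (sq_nonneg _) (by norm_num)
    have c4 : σ * ‖prj u u (z' - z)‖ ^ 2 ≤ 1 / 500 * ‖prj u u (z' - z)‖ ^ 2 :=
      mul_le_mul_of_nonneg_right hσ1 (sq_nonneg _)
    linarith
  have r2 : 0 < r ^ 2 / 4 := by positivity
  have hcard : (S'.erase y1).card ≤ (range 257).card := by
    refine Finset.card_le_card_of_injOn (fun z => ⌊a z / (r ^ 2 / 4)⌋₊) ?_ ?_
    · intro z hz
      have := ha z (Finset.mem_of_mem_erase hz)
      simp only [coe_range, Set.mem_Iio]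
      rw [Nat.floor_lt' (by norm_num), div_lt_iff₀ r2]
      push_cast
      linarith
    · have key : ∀ z ∈ S'.erase y1, ∀ z' ∈ S'.erase y1, ι z < ι z' →
          ⌊a z / (r ^ 2 / 4)⌋₊ < ⌊a z' / (r ^ 2 / 4)⌋₊ := by
        intro z hz z' hz' hlt
        have d1 := hstep z hz z' (Finset.mem_of_mem_erase hz') hlt
        have d2 : a z / (r ^ 2 / 4) + 1 ≤ a z' / (r ^ 2 / 4) := by
          rw [div_add_one r2.ne']
          exact div_le_div_of_nonneg_right d1 r2.le
        have d3 := Nat.floor_mono d2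
        rw [Nat.floor_add_one (by positivity)] at d3
        exact d3
      intro z hz z' hz' e
      simp only at e
      rcases lt_trichotomy (ι z) (ι z') with h | h | h
      · have := key z hz z' hz' h; omega
      · exact hinj z (Finset.mem_of_mem_erase hz) z' (Finset.mem_of_mem_erase hz') h
      · have := key z' hz' z hz h; omega
  rw [Finset.card_range] at hcard
  have := Finset.pred_card_le_card_erase (s := S') (a := y1)
  omega

theorem not_pairwise_rel {E : Type*} [NormedAddCommGroup E] [InnerProductSpace ℝ E]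
    [FiniteDimensional ℝ E] {η ε : ℝ} (hε : 0 ≤ ε)
    (hηε : 4 * (Module.finrank ℝ E) * η < ε ^ 2) (l : List E)
    (hl : l.length = Module.finrank ℝ E + 2) :
    ¬ l.Pairwise (fun ψ φ => |inner ℝ φ (ψ - φ)| ≤ η ∧ ε ≤ ‖ψ - φ‖) := by
  intro h
  set k := Module.finrank ℝ E with hk
  let φ : ℕ → E := fun i => l.getD i 0
  have hφ : ∀ i j, i < j → j < k + 2 → |inner ℝ (φ j) (φ i - φ j)| ≤ η ∧ ε ≤ ‖φ i - φ j‖ := by
    intro i j hij hj
    have := List.pairwise_iff_getElem.1 h i j (by omega) (by omega) hij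
    simp only [φ]
    rw [List.getD_eq_getElem _ _ (by omega), List.getD_eq_getElem _ _ (by omega)]
    exact this
  have hη : 0 ≤ η := (abs_nonneg _).trans (hφ 0 1 (by omega) (by omega)).1
  have h1 : ∀ i j, i ≤ j → j < k + 2 → |inner ℝ (φ j) (φ i - φ j)| ≤ η := by
    intro i j hij hj
    rcases Nat.eq_or_lt_of_le hij with rfl | h
    · simpa using hη
    · exact (hφ i j h hj).1
  let ψ : Fin (k + 1) → E := fun m => φ m - φ (m + 1)
  have h2 : ∀ m m' : Fin (k + 1), m < m' → |inner ℝ (ψ m') (ψ m)| ≤ 4 * η := by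
    intro m m' hm
    have hm' : (m : ℕ) < m' := hm
    have := m'.2
    have a1 := abs_le.1 (h1 m m' (by omega) (by omega))
    have a2 := abs_le.1 (h1 (m + 1) m' (by omega) (by omega))
    have a3 := abs_le.1 (h1 m (m' + 1) (by omega) (by omega))
    have a4 := abs_le.1 (h1 (m + 1) (m' + 1) (by omega) (by omega))
    simp only [ψ, inner_sub_left, inner_sub_right] at a1 a2 a3 a4 ⊢
    rw [abs_le]
    constructor <;> linarith [a1.1, a1.2, a2.1, a2.2, a3.1, a3.2, a4.1, a4.2]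
  have h3 : ∀ m m' : Fin (k + 1), m' ≠ m → |inner ℝ (ψ m) (ψ m')| ≤ 4 * η := by
    intro m m' hne
    rcases lt_or_gt_of_ne hne with h | h
    · exact h2 m' m h
    · rw [real_inner_comm]; exact h2 m m' h
  have hdep : ¬ LinearIndependent ℝ ψ := fun hli => by
    have := hli.fintype_card_le_finrank
    rw [Fintype.card_fin] at this
    omega
  obtain ⟨g, hg, i0, hi0⟩ := Fintype.not_linearIndependent_iff.1 hdep
  obtain ⟨m, hm⟩ := Finite.exists_max (fun i => |g i|)
  have hgm : 0 < |g m| := (abs_pos.2 hi0).trans_le (hm i0)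
  have e : g m * ‖ψ m‖ ^ 2 = -∑ i ∈ univ.erase m, g i * inner ℝ (ψ m) (ψ i) := by
    have := congrArg (fun v => inner ℝ (ψ m) v) hg
    simp only [inner_sum, inner_smul_right, inner_zero_right] at this
    rw [← Finset.add_sum_erase _ _ (mem_univ m), real_inner_self_eq_norm_sq] at this
    linarith
  have b1 : |g m| * ‖ψ m‖ ^ 2 ≤ k * (|g m| * (4 * η)) := by
    rw [← abs_of_nonneg (sq_nonneg ‖ψ m‖), ← abs_mul, e, abs_neg]
    refine (Finset.abs_sum_le_sum_abs _ _).trans ?_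
    refine (Finset.sum_le_sum (g := fun _ => |g m| * (4 * η)) fun i hi => ?_).trans ?_
    · rw [abs_mul]
      exact mul_le_mul (hm i) (h3 m i (Finset.mem_erase.1 hi).1) (abs_nonneg _) (abs_nonneg _)
    · simp
  have b2 : ε ^ 2 ≤ ‖ψ m‖ ^ 2 :=
    pow_le_pow_left₀ hε (hφ m (m + 1) (by omega) (by have := m.2; omega)).2 2
  nlinarith

end Vale.Agent.P208
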