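import Vale.Agent.P208.Geo4

/-! The prover's strategy in the fibre game. -/

namespace Vale.Agent.P208

open scoped RealInnerProductSpace

variable {V : Type*} [NormedAddCommGroup V] [InnerProductSpace ℝ V]
variable {E : Type*} [NormedAddCommGroup E] [InnerProductSpace ℝ E]

omit [InnerProductSpace ℝ V] [InnerProductSpace ℝ E] in
theorem Forces.mono {Λ : ℕ} {L : ℝ} {K : List V} {P Q : (V → E) → Prop} (h : Forces Λ L K P)
    (hQ : ∀ α, BiLip L K α → Q α → P α) : Forces Λ L K Q :=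
  Forces.split K Q P P (fun α h1 h2 => Or.inl (hQ α h1 h2)) h h

omit [InnerProductSpace ℝ V] [InnerProductSpace ℝ E] in
theorem Forces.or {Λ : ℕ} {L : ℝ} {K : List V} {P Q : (V → E) → Prop} (h : Forces Λ L K P)
    (h' : Forces Λ L K Q) : Forces Λ L K (fun α => P α ∨ Q α) :=
  Forces.split K _ P Q (fun _ _ h2 => h2) h h'

omit [InnerProductSpace ℝ V] in
theorem pack_add {Λ : ℕ} {K : List V} (h : Pack 8 Λ {x | x ∈ K}) (q : V) :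
    Pack 8 (Λ + 1) {x | x ∈ K ++ [q]} :=
  (h.insert q).mono fun x hx => by
    simp only [Set.mem_ofPred_eq, List.mem_append, List.mem_singleton] at hx
    rcases hx with hx | hx
    · exact Or.inr hx
    · exact Or.inl hx

theorem exists_fresh (hV : ¬ FiniteDimensional ℝ V) (U : Submodule ℝ V)
    (hU : FiniteDimensional ℝ U) : ∃ v ∈ Uᗮ, ‖v‖ = 1 := by
  have h1 : Uᗮ ≠ ⊥ := by
    intro h
    rw [Submodule.orthogonal_eq_bot_iff] at h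
    subst h
    exact hV (Module.Finite.equiv Submodule.topEquiv)
  obtain ⟨w, hw, hw0⟩ := Submodule.exists_mem_ne_zero_of_ne_bot h1
  exact ⟨‖w‖⁻¹ • w, Submodule.smul_mem _ _ hw, norm_smul_inv_norm hw0⟩

theorem norm_sub_le_of_dir {u a b : V} (hu : ‖u‖ = 1) (h : ⟪u, a⟫ < ⟪u, b⟫)
    (hd : ‖dir u a b - u‖ ^ 2 ≤ 1) : ‖b - a‖ ≤ 2 * (⟪u, b⟫ - ⟪u, a⟫) := by
  have h1 : ‖dir u a b - u‖ ≤ 1 := (abs_le_of_sq_le_sq' (by simpa using hd) zero_le_one).2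
  have h2 : ‖dir u a b‖ ≤ 2 := by
    have := norm_sub_norm_le (dir u a b) u
    linarith
  rw [← smul_dir h, norm_smul, Real.norm_of_nonneg (by linarith)]
  nlinarith

theorem norm_slp_le {u a b : V} {L : ℝ} {K : List V} {α : V → E} (hα : BiLip L K α) (hL : 0 ≤ L)
    (ha : a ∈ K) (hb : b ∈ K) (h : ⟪u, a⟫ < ⟪u, b⟫) (hd : ‖b - a‖ ≤ 2 * (⟪u, b⟫ - ⟪u, a⟫)) :
    ‖slp u α a b‖ ≤ 2 * L := by
  have h0 := sub_pos.2 h
  rw [slp, norm_smul, Real.norm_of_nonneg (by positivity), inv_mul_le_iff₀ h0]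
  have := (hα b hb a ha).2
  nlinarith

theorem slp_congr {u a b : V} {K : List V} {α α' : V → E} (h : ∀ x ∈ K, α x = α' x) (ha : a ∈ K)
    (hb : b ∈ K) : slp u α a b = slp u α' a b := by
  rw [slp, slp, h a ha, h b hb]

/-- The relation between the slopes of an outer role and an inner role. -/
def Rel (η ε : ℝ) (φ ψ : E) : Prop := |⟪φ, ψ - φ⟫| ≤ η ∧ ε ≤ ‖ψ - φ‖

theorem Rel.trans_near {η ε L : ℝ} {φ ψ ψ' : E} (h : Rel η (ε / 2 - η) φ ψ') (h1 : ‖ψ' - ψ‖ ≤ η)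
    (h2 : ‖φ‖ ≤ 2 * L) (h3 : η ≤ ε / 8) : Rel (η * (1 + 2 * L)) (ε / 4) φ ψ := by
  have e : ψ - φ = (ψ' - φ) - (ψ' - ψ) := by abel
  constructor
  · rw [e, inner_sub_right]
    have k1 := abs_sub ⟪φ, ψ' - φ⟫ ⟪φ, ψ' - ψ⟫
    have k2 := abs_real_inner_le_norm φ (ψ' - ψ)
    have k3 : ‖φ‖ * ‖ψ' - ψ‖ ≤ 2 * L * η :=
      mul_le_mul h2 h1 (norm_nonneg _) (le_trans (norm_nonneg _) h2)
    linarith [h.1]
  · rw [e]
    have := norm_sub_norm_le (ψ' - φ) (ψ' - ψ)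
    linarith [h.2]

theorem exists_params {ε ω η L ρ' : ℝ} (hε : 0 < ε) (hε' : ε ≤ 1) (hω : 0 < ω) (hω' : ω ≤ 1 / 96000)
    (hη : 0 < η) (hL : 1 ≤ L) (hρ : 0 < ρ') (hρ' : ρ' ≤ 1) :
    ∃ (κ : ℝ) (N : ℕ), 0 < κ ∧ 18 * κ ≤ ω * ε ∧ 81 * N * κ ^ 2 ≤ ε ^ 2 / 1000000 ∧
      ρ' * (ω * κ / 2) ≤ 1 / 3 ∧ 4 * L ^ 2 < N * (η ^ 2 * (ρ' * (ω * κ / 2))) := by
  set A := 8 * L ^ 2 / (η ^ 2 * ρ' * ω) + 1 with hA
  have hA0 : 0 < A := by positivity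
  set κ := min (ω * ε / 18) (ε ^ 2 / 1000000 / (81 * A)) with hκ
  have hκ0 : 0 < κ := lt_min (by positivity) (by positivity)
  have hκ1 : κ ≤ ω * ε / 18 := min_le_left _ _
  have hκ2 : κ ≤ ε ^ 2 / 1000000 / (81 * A) := min_le_right _ _
  have hκ3 : κ ≤ 1 := by nlinarith
  have hδ : 0 < η ^ 2 * (ρ' * (ω * κ / 2)) := by positivity
  refine ⟨κ, ⌊4 * L ^ 2 / (η ^ 2 * (ρ' * (ω * κ / 2)))⌋₊ + 1, hκ0, by linarith, ?_, ?_, ?_⟩
  · have k1 : ((⌊4 * L ^ 2 / (η ^ 2 * (ρ' * (ω * κ / 2)))⌋₊ + 1 : ℕ) : ℝ) ≤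
        4 * L ^ 2 / (η ^ 2 * (ρ' * (ω * κ / 2))) + 1 := by
      push_cast
      have := Nat.floor_le (show 0 ≤ 4 * L ^ 2 / (η ^ 2 * (ρ' * (ω * κ / 2))) by positivity)
      linarith
    have k2 : (4 * L ^ 2 / (η ^ 2 * (ρ' * (ω * κ / 2))) + 1) * κ ≤ A := by
      have : 4 * L ^ 2 / (η ^ 2 * (ρ' * (ω * κ / 2))) * κ = 8 * L ^ 2 / (η ^ 2 * ρ' * ω) := by
        field_simp; ring
      rw [add_mul, this, hA]; linarith
    have k3 : 81 * A * κ ≤ ε ^ 2 / 1000000 := by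
      rw [le_div_iff₀ (by positivity)] at hκ2; linarith
    have k4 : ((⌊4 * L ^ 2 / (η ^ 2 * (ρ' * (ω * κ / 2)))⌋₊ + 1 : ℕ) : ℝ) * κ ≤ A :=
      le_trans (mul_le_mul_of_nonneg_right k1 hκ0.le) k2
    have k5 := mul_le_mul_of_nonneg_right k4 hκ0.le
    linarith
  · have : ω * κ ≤ 1 / 3 := by nlinarith
    have : ρ' * (ω * κ / 2) ≤ 1 * (ω * κ / 2) := by gcongr
    linarith
  · rw [← div_lt_iff₀ hδ]
    push_cast
    exact Nat.lt_floor_add_one _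

end Vale.Agent.P208
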