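import Vale.Agent.P208.Game
import Vale.Agent.P208.FlatPack

/-! The nested induction over roles. -/

namespace Vale.Agent.P208

open scoped RealInnerProductSpace

variable {V : Type*} [NormedAddCommGroup V] [InnerProductSpace ℝ V]
variable {E : Type*} [NormedAddCommGroup E] [InnerProductSpace ℝ E]

/-- The statement proved by induction on the number of roles still to be created. -/
def Stage (E : Type*) [NormedAddCommGroup E] [InnerProductSpace ℝ E] (u : V) (ε ω η L : ℝ)
    (Λ k : ℕ) (σ C B ρ' : ℝ) : Prop :=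
  ∀ (fr : Frame V) (K0 : List V) (R : List (V × V)) (Q : (V → E) → Prop),
    FrameOK u fr → ‖fr.d - u‖ ^ 2 + B ≤ 1 → R.length = k →
    (∀ r ∈ R, r.1 ∈ K0 ∧ r.2 ∈ K0 ∧ ⟪u, r.1⟫ < ⟪u, r.2⟫ ∧
      ‖r.2 - r.1‖ ≤ 2 * (⟪u, r.2⟫ - ⟪u, r.1⟫)) →
    (∀ α α' : V → E, Q α → (∀ x ∈ K0, α x = α' x) → Q α') →
    (∀ Cl, ClOK u ε ω σ C fr Cl → Pack 8 Λ {x | x ∈ K0 ++ Cl}) →
    (∀ C0 p τ, ExitOK u ε ω σ C ρ' fr C0 p τ → Forces (Λ + 2) L (K0 ++ (C0 ++ [p]))
      (fun α => Q α ∧ ¬ R.Pairwise (fun rj ri =>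
        Rel (η * (1 + 2 * L)) (ε / 4) (slp u α ri.1 ri.2) (slp u α rj.1 rj.2)))) →
    (∀ C0 p q τ, ExitOK u ε ω σ C ρ' fr C0 p τ → QOK u ε B fr p q τ →
      Forces (Λ + 2) L (K0 ++ (C0 ++ [p] ++ [q]))
        (fun α => Q α ∧ ∃ r ∈ R, ¬ Rel η (ε / 2 - η) (slp u α r.1 r.2) (slp u α p q))) →
    Forces (Λ + 2) L K0 Q

theorem stage_base (hV : ¬ FiniteDimensional ℝ V) {u : V} {ε ω η L : ℝ} {Λ k : ℕ} {σ C B : ℝ}
    (hω : 0 < ω)
    (hdim : ∀ l : List E, l.length = k →
      ¬ l.Pairwise (fun ψ φ => Rel (η * (1 + 2 * L)) (ε / 4) φ ψ)) :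
    Stage E u ε ω η L Λ k σ C B 1 := by
  intro fr K0 R Q hf _ hR _ hQ hG E1 _
  obtain ⟨v, vU, hv⟩ := exists_fresh hV fr.U hf.fd
  have uv : ⟪u, v⟫ = 0 := inner_orth hf.uU vU
  have hh := hf.hpos
  set p := fr.o + (fr.tc - ⟪u, fr.o⟫) • fr.d + fr.h • v with hp
  have tp : ⟪u, p⟫ = fr.tc := by
    rw [hp, inner_add_right, inner_add_right, real_inner_smul_right, real_inner_smul_right, uv,
      hf.ud]; ring
  have Fp : fr.F u p = fr.h • v := by
    rw [Frame.F, prj, inner_sub_right, tp, hp]; module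
  have nF : ‖fr.F u p‖ = fr.h := by rw [Fp, norm_smul, hv, mul_one, Real.norm_of_nonneg hh.le]
  have hw : 0 < ω * fr.h / 2 := by positivity
  have hcl : ClOK u ε ω σ C fr ([] ++ [p]) := by
    refine ⟨?_, ?_, ?_, ?_, ?_, ?_, by simp⟩
    · intro y hy
      rw [List.mem_singleton.1 hy, Fp]; exact Submodule.smul_mem _ _ vU
    · intro y hy
      rw [List.mem_singleton.1 hy, tp, sub_self, abs_zero]; exact hw.le
    · intro y hy
      rw [List.mem_singleton.1 hy, nF]; linarith
    · intro y hy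
      rw [List.mem_singleton.1 hy, nF]; linarith
    · intro y hy y' hy'
      rw [List.mem_singleton.1 hy, List.mem_singleton.1 hy']
      simp only [prj, sub_self, inner_zero_right, zero_smul, norm_zero]; linarith
    · intro y hy y' hy'
      rw [List.mem_singleton.1 hy, List.mem_singleton.1 hy']
      simp [prj]
  have he : ExitOK u ε ω σ C 1 fr [] p (ω * fr.h / 2) :=
    ⟨hcl, hw, by linarith, le_rfl, by rw [tp], by simp⟩
  refine Forces.add K0 Q _ p ((hG _ hcl).mono_card (by omega)) ?_ (E1 [] p _ he)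
  intro α α' h1 h2
  refine ⟨hQ α α' h1 h2, fun hc => ?_⟩
  refine hdim (R.map fun r => slp u α' r.1 r.2) (by simpa using hR) ?_
  rw [List.pairwise_map]
  exact hc

theorem stage_step (hV : ¬ FiniteDimensional ℝ V) {u : V} {ε ω η L : ℝ} {Λ k : ℕ}
    {σ C B ρ' κ : ℝ} {N : ℕ} (hl : Lev ε ω σ C κ (ρ' * (ω * κ / 2)) N) (hL : 1 ≤ L)
    (hη : 0 < η) (hη1 : η ≤ ε / 8) (hB : 0 ≤ B)
    (hN : 4 * L ^ 2 < N * (η ^ 2 * (ρ' * (ω * κ / 2))))
    (IH : Stage E u ε ω η L Λ (k + 1) σ C B ρ') :
    Stage E u ε ω η L Λ k (σ + 48 * ω) (C + 48 * ω + 501 * ε ^ 2) (B + 2 * ε ^ 2)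
      ((ρ' * (ω * κ / 2)) ^ N) := by
  intro fr K0 R Q hf hd hR hRK hQ hG E1 E2
  set ρ := ρ' * (ω * κ / 2) with hρ
  obtain ⟨v, vU, hv⟩ := exists_fresh hV fr.U hf.fd
  have hε := hl.εpos
  have hε1 := hl.εle
  have hL0 : 0 ≤ L := by linarith
  have hB1 : B ≤ 1 := by nlinarith [sq_nonneg ‖fr.d - u‖, sq_nonneg ε]
  have claim : ∀ j m : ℕ, m + j = N → ∀ Ll a b Ur, LayOK u ε ω σ C κ ρ fr v m Ll a b Ur →
      Forces (Λ + 2) L (K0 ++ Ll) (fun α => Q α ∧ m * (η ^ 2 * ρ) ≤ ‖slp u α a b‖ ^ 2) := by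
    intro j
    induction j with
    | zero =>
      intro m hm Ll a b Ur h
      refine Forces.leaf _ _ fun α hα hc => ?_
      have hd' := h.du_norm hf hl (by omega)
      have k1 := norm_slp_le hα hL0 (a := a) (b := b) (by simp [h.ha]) (by simp [h.hb]) h.lt
        (norm_sub_le_of_dir hf.hu h.lt (by linarith))
      have k2 : ‖slp u α a b‖ ^ 2 ≤ (2 * L) ^ 2 := by gcongr
      have k3 := hc.2
      rw [show m = N by omega] at k3
      linarith
    | succ j ih =>
      intro m hm Ll a b Ur h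
      have hm1 : m + 1 ≤ N := by omega
      have hf' := h.inFrameOK hf hl
      have hd' := h.du_norm hf hl (by omega)
      have hab := norm_sub_le_of_dir hf.hu h.lt (by linarith)
      have dep : ∀ α α' : V → E, (Q α ∧ m * (η ^ 2 * ρ) ≤ ‖slp u α a b‖ ^ 2) →
          (∀ x ∈ K0 ++ Ll, α x = α' x) → (Q α' ∧ m * (η ^ 2 * ρ) ≤ ‖slp u α' a b‖ ^ 2) := by
        intro α α' h1 h2
        refine ⟨hQ α α' h1.1 fun x hx => h2 x (by simp [hx]), ?_⟩
        rw [← slp_congr h2 (by simp [h.ha]) (by simp [h.hb])]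
        exact h1.2
      have hG' : ∀ Cl, ClOK u ε ω σ C (inFrame u a b Ur κ) Cl →
          Pack 8 Λ {x | x ∈ K0 ++ Ll ++ Cl} := by
        intro Cl hc
        rw [List.append_assoc]
        exact hG _ (h.merge hf hl hm1 hc)
      have mv : ∀ CT a' b', (∃ Ur', LayOK u ε ω σ C κ ρ fr v (m + 1) (Ll ++ CT) a' b' Ur') →
          Forces (Λ + 2) L (K0 ++ Ll ++ CT) (fun α =>
            (Q α ∧ m * (η ^ 2 * ρ) ≤ ‖slp u α a b‖ ^ 2) ∧
              ‖slp u α a b‖ ^ 2 + η ^ 2 * ρ ≤ ‖slp u α a' b'‖ ^ 2) := by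
        rintro CT a' b' ⟨Ur', h'⟩
        rw [List.append_assoc]
        refine (ih (m + 1) (by omega) _ _ _ _ h').mono fun α _ h1 => ⟨h1.1.1, ?_⟩
        push_cast
        linarith [h1.1.2, h1.2]
      refine IH (inFrame u a b Ur κ) (K0 ++ Ll) ((a, b) :: R) _ hf' ?_ (by simp [hR]) ?_ dep hG'
        ?_ ?_
      · rw [show (inFrame u a b Ur κ).d = dir u a b from rfl]; linarith
      · intro r hr
        rcases List.mem_cons.1 hr with rfl | hr
        · exact ⟨by simp [h.ha], by simp [h.hb], h.lt, hab⟩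
        · have := hRK r hr
          exact ⟨by simp [this.1], by simp [this.2.1], this.2.2⟩
      · intro C0 p τ he
        obtain ⟨he', x1, x2, x3⟩ := h.exit_up hf hl hm1 le_rfl he
        have hτ := he.τpos
        have hn := near_par hf' p hτ
        rw [show (inFrame u a b Ur κ).d = dir u a b from rfl] at hn
        set q := p + τ • dir u a b with hq
        have F1 := E1 _ _ _ he'
        rw [show K0 ++ (Ll ++ C0 ++ [p]) = K0 ++ Ll ++ (C0 ++ [p]) by simp] at F1
        have rp := ready_one hf' hl he hn.1 (x := p) (Or.inl rfl)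
        have rq := ready_one hf' hl he hn.1 (x := q) (Or.inr rfl)
        have M1 := mv _ _ _ (h.move_left hf hl hm1 rp)
        have M2 := mv _ _ _ (h.move_mid hf hl hm1 rp hτ (by simp [hq]) x1)
        have M3 := mv _ _ _ (h.move_right hf hl hm1 rq)
        have hqq : QOK u ε (B + 2 * ε ^ 2) fr p q τ :=
          h.q_up hf hl (by omega) hτ hn.1.time hn.1.fresh (by
            rw [hn.2, norm_zero]; nlinarith [sq_nonneg τ])
        have M4 := E2 _ _ _ _ he' hqq
        rw [show K0 ++ (Ll ++ C0 ++ [p] ++ [q]) = K0 ++ Ll ++ (C0 ++ [p] ++ [q]) by simp] at M4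
        have F2 : Forces (Λ + 2) L (K0 ++ Ll ++ (C0 ++ [p])) (fun α =>
            (Q α ∧ m * (η ^ 2 * ρ) ≤ ‖slp u α a b‖ ^ 2) ∧ ∃ r ∈ R,
              ¬ Rel (η * (1 + 2 * L)) (ε / 4) (slp u α r.1 r.2) (slp u α a b)) := by
          refine Forces.add _ _ (fun α =>
            (Q α ∧ m * (η ^ 2 * ρ) ≤ ‖slp u α a b‖ ^ 2) ∧ ∃ r ∈ R,
              ¬ Rel (η * (1 + 2 * L)) (ε / 4) (slp u α r.1 r.2) (slp u α a b)) q
            ((pack_add (hG' _ he.cl) q).mono_card (by omega)) ?_ ?_
          · rintro α α' ⟨h1, r, hr, h2⟩ h3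
            refine ⟨dep α α' h1 fun x hx => h3 x (List.mem_append_left _ hx), r, hr, ?_⟩
            rw [← slp_congr h3 (a := a) (b := b) (by simp [h.ha]) (by simp [h.hb]),
              ← slp_congr h3 (a := r.1) (b := r.2) (by simp [(hRK r hr).1])
                (by simp [(hRK r hr).2.1])]
            exact h2
          · rw [show K0 ++ Ll ++ (C0 ++ [p]) ++ [q] = K0 ++ Ll ++ (C0 ++ [p] ++ [q]) by simp]
            refine (M1.or (M2.or (M3.or M4))).mono ?_
            rintro α hα ⟨h1, r, hr, h2⟩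
            rcases three_gain α x2 hn.1.time x3 hτ hη.le x1 with g | g | g | g
            · exact Or.inl ⟨h1, g⟩
            · exact Or.inr (Or.inl ⟨h1, g⟩)
            · exact Or.inr (Or.inr (Or.inl ⟨h1, g⟩))
            · refine Or.inr (Or.inr (Or.inr ⟨h1.1, r, hr, fun hc => h2 ?_⟩))
              have := hRK r hr
              exact hc.trans_near g (norm_slp_le hα hL0 (by simp [this.1]) (by simp [this.2.1])
                this.2.2.1 this.2.2.2) hη1
        refine (F1.or F2).mono ?_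
        rintro α _ ⟨h1, h2⟩
        rw [List.pairwise_cons, not_and_or] at h2
        rcases h2 with h2 | h2
        · push Not at h2
          exact Or.inr ⟨h1, h2⟩
        · exact Or.inl ⟨h1.1, h2⟩
      · intro C0 p q τ he hq
        obtain ⟨he', x1, x2, x3⟩ := h.exit_up hf hl hm1 le_rfl he
        have hτ := he.τpos
        have hn := near_par hf' p hτ
        have hqq : QOK u ε (B + 2 * ε ^ 2) fr p q τ :=
          h.q_up hf hl (by omega) hτ hq.time hq.fresh hq.le
        have F1 := E2 _ _ _ _ he' hqq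
        rw [show K0 ++ (Ll ++ C0 ++ [p] ++ [q]) = K0 ++ Ll ++ (C0 ++ [p] ++ [q]) by simp] at F1
        have rp := ready_one hf' hl he (hq.near hτ hB1) (x := p) (Or.inl rfl)
        have rq := ready_one hf' hl he (hq.near hτ hB1) (x := q) (Or.inr rfl)
        have M1 := mv _ _ _ (h.move_left hf hl hm1 rp)
        have M2 := mv _ _ _ (h.move_right hf hl hm1 rp)
        have M3 := mv _ _ _ (h.move_left hf hl hm1 rq)
        have M4 := mv _ _ _ (h.move_right hf hl hm1 rq)
        have sp := ready_two hf' hl he hq hB1 (x := p) (Or.inl rfl)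
        have sq := ready_two hf' hl he hq hB1 (Or.inr rfl)
        rw [show (inFrame u a b Ur κ).d = dir u a b from rfl] at hn sp sq
        set q' := p + τ • dir u a b with hq'
        have N1 := mv _ _ _ (h.move_left hf hl hm1 sp)
        have N2 := mv _ _ _ (h.move_mid hf hl hm1 sp hτ (by simp [hq']) x1)
        have N3 := mv _ _ _ (h.move_right hf hl hm1 sq)
        have F2 : Forces (Λ + 2) L (K0 ++ Ll ++ (C0 ++ [p] ++ [q])) (fun α =>
            (Q α ∧ m * (η ^ 2 * ρ) ≤ ‖slp u α a b‖ ^ 2) ∧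
              ‖slp u α p q - slp u α a b‖ < ε / 2 - η) := by
          refine Forces.add _ _ (fun α =>
            (Q α ∧ m * (η ^ 2 * ρ) ≤ ‖slp u α a b‖ ^ 2) ∧
              ‖slp u α p q - slp u α a b‖ < ε / 2 - η) q' ?_ ?_ ?_
          · have := pack_add (pack_add (hG' _ he.cl) q) q'
            rw [show K0 ++ Ll ++ (C0 ++ [p]) ++ [q] = K0 ++ Ll ++ (C0 ++ [p] ++ [q]) by simp]
              at this
            exact this
          · rintro α α' ⟨h1, h2⟩ h3
            refine ⟨dep α α' h1 fun x hx => h3 x (List.mem_append_left _ hx), ?_⟩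
            rw [← slp_congr h3 (a := a) (b := b) (by simp [h.ha]) (by simp [h.hb]),
              ← slp_congr h3 (a := p) (b := q) (by simp) (by simp)]
            exact h2
          · rw [show K0 ++ Ll ++ (C0 ++ [p] ++ [q]) ++ [q'] =
              K0 ++ Ll ++ (C0 ++ [p] ++ [q] ++ [q']) by simp]
            refine (N1.or (N2.or N3)).mono ?_
            rintro α hα ⟨h1, h2⟩
            rcases three_gain α x2 hn.1.time x3 hτ hη.le x1 with g | g | g | g
            · exact Or.inl ⟨h1, g⟩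
            · exact Or.inr (Or.inl ⟨h1, g⟩)
            · exact Or.inr (Or.inr ⟨h1, g⟩)
            · exfalso
              have k1 : ‖slp u α p q - slp u α p q'‖ < ε / 2 := by
                have := norm_sub_le_norm_sub_add_norm_sub (slp u α p q) (slp u α a b)
                  (slp u α p q')
                rw [norm_sub_rev (slp u α a b)] at this
                linarith
              have s1 := smul_slp (u := u) (a := p) (b := q) α (by rw [hq.time]; linarith)
              have s2 := smul_slp (u := u) (a := p) (b := q') α (by rw [hn.1.time]; linarith)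
              rw [hq.time, add_sub_cancel_left] at s1
              rw [hn.1.time, add_sub_cancel_left] at s2
              have k2 : α q - α q' = τ • (slp u α p q - slp u α p q') := by
                rw [smul_sub, s1, s2]; abel
              have k3 := (hα q (by simp) q' (by simp)).1
              rw [k2, norm_smul, Real.norm_of_nonneg hτ.le] at k3
              have k4 : q - q' = prj u (dir u a b) (q - p) := by
                rw [prj, inner_sub_right, hq.time, add_sub_cancel_left, hq']; abel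
              have k5 := hq.ge
              rw [show (inFrame u a b Ur κ).d = dir u a b from rfl, ← k4] at k5
              have k6 := mul_lt_mul_of_pos_left k1 hτ
              linarith
        refine (F1.or (F2.or (M1.or (M2.or (M3.or M4))))).mono ?_
        rintro α _ ⟨h1, r, hr, h2⟩
        rcases List.mem_cons.1 hr with rfl | hr
        · rw [Rel, not_and_or] at h2
          rcases h2 with h2 | h2
          · rcases four_gain (η := η) α x2 hq.time x3 hτ hl.ρpos.le x1 with g | g | g | g | g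
            · exact Or.inr (Or.inr (Or.inl ⟨h1, g⟩))
            · exact Or.inr (Or.inr (Or.inr (Or.inl ⟨h1, g⟩)))
            · exact Or.inr (Or.inr (Or.inr (Or.inr (Or.inl ⟨h1, g⟩))))
            · exact Or.inr (Or.inr (Or.inr (Or.inr (Or.inr ⟨h1, g⟩))))
            · exact absurd (g.trans (by nlinarith)) h2
          · exact Or.inr (Or.inl ⟨h1, not_le.1 h2⟩)
        · exact Or.inl ⟨h1.1, r, hr, h2⟩
  obtain ⟨a, b, Ur, h⟩ := exists_layer hf hl hv vU
  have P2 := hG _ (h.self hf hl (Nat.zero_le _))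
  have F := claim N 0 (by simp) _ _ _ _ h
  refine Forces.add K0 Q Q a ((P2.mono fun x hx => ?_).mono_card (by omega)) hQ ?_
  · simp only [Set.mem_ofPred_eq, List.mem_append, List.mem_cons] at hx ⊢
    tauto
  · refine Forces.add _ Q _ b ?_ ?_ (by
      rw [show K0 ++ [a] ++ [b] = K0 ++ [a, b] by simp]; exact F)
    · rw [show K0 ++ [a] ++ [b] = K0 ++ [a, b] by simp]
      exact P2.mono_card (by omega)
    · intro α α' h1 h2
      exact ⟨hQ α α' h1 fun x hx => h2 x (by simp [hx]), by simp⟩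

theorem lp_not_finiteDimensional : ¬ FiniteDimensional ℝ (lp (fun _ : ℕ => ℝ) 2) := by
  intro h
  have ho : Orthonormal ℝ (fun i : ℕ => (lp.single 2 i (1 : ℝ) : lp (fun _ : ℕ => ℝ) 2)) := by
    classical
    rw [orthonormal_iff_ite]
    intro i j
    rw [lp.inner_single_left]
    by_cases hij : i = j
    · subst hij; simp
    · simp [lp.single_apply, Pi.single_apply, hij]
  exact Module.Finite.not_linearIndependent_of_infinite _ ho.linearIndependent

theorem forces_main : ∃ Λ : ℕ, ∀ (k : ℕ) (L : ℝ), 1 ≤ L →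
    Forces (E := EuclideanSpace ℝ (Fin k)) Λ L [(0 : lp (fun _ : ℕ => ℝ) 2)] (fun _ => True) := by
  obtain ⟨Λ, hΛ⟩ := pack_of_tri 400
  refine ⟨Λ + 1 + 2, fun k L hL => ?_⟩
  have hV := lp_not_finiteDimensional
  obtain ⟨u, -, hu⟩ := exists_fresh hV ⊥ inferInstance
  have hk : (0 : ℝ) ≤ k := Nat.cast_nonneg k
  set n : ℝ := (k : ℝ) + 2 with hn
  have hn2 : 2 ≤ n := by linarith
  set ε : ℝ := 1 / (2 * n) with hε
  set ω : ℝ := 1 / (48000 * n) with hω
  set η : ℝ := ε ^ 2 / (64 * (k + 1) * (1 + 2 * L)) with hη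
  have ε0 : 0 < ε := by positivity
  have ε1 : ε ≤ 1 := by rw [hε, div_le_one (by positivity)]; linarith
  have ω0 : 0 < ω := by positivity
  have ω1 : ω ≤ 1 / 96000 := by
    rw [hω]; apply one_div_le_one_div_of_le <;> linarith
  have ωn : 48 * ω * n = 1 / 1000 := by rw [hω]; field_simp; norm_num
  have εn : ε ^ 2 * n ≤ 1 / 8 := by
    have : ε ^ 2 * n = 1 / (4 * n) := by rw [hε]; field_simp; norm_num
    rw [this]; apply one_div_le_one_div_of_le <;> linarith
  have η0 : 0 < η := by positivity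
  have η1 : η ≤ ε / 8 := by
    rw [hη, div_le_iff₀ (by positivity)]
    have : 1 ≤ (k + 1 : ℝ) * (1 + 2 * L) := by nlinarith
    nlinarith
  have hdim : ∀ l : List (EuclideanSpace ℝ (Fin k)), l.length = k + 2 →
      ¬ l.Pairwise (fun ψ φ => Rel (η * (1 + 2 * L)) (ε / 4) φ ψ) := by
    intro l hl
    refine not_pairwise_rel (by positivity) ?_ l (by simpa using hl)
    rw [finrank_euclideanSpace_fin]
    have e : 4 * (k : ℝ) * (η * (1 + 2 * L)) = k / (k + 1) * (ε / 4) ^ 2 := by
      rw [hη]; field_simp; ring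
    rw [e]
    have : (k : ℝ) / (k + 1) < 1 := by rw [div_lt_one (by positivity)]; linarith
    have : 0 < (ε / 4) ^ 2 := by positivity
    nlinarith
  have main : ∀ dd j : ℕ, dd + j = k + 2 → ∃ ρ' : ℝ, 0 < ρ' ∧ ρ' ≤ 1 ∧
      Stage (EuclideanSpace ℝ (Fin k)) u ε ω η L (Λ + 1) j (1 / 1000 + 48 * ω * dd)
        (250 + (48 * ω + 501 * ε ^ 2) * dd) (2 * ε ^ 2 * dd) ρ' := by
    intro dd
    induction dd with
    | zero =>
      intro j hj
      exact ⟨1, one_pos, le_rfl, stage_base hV ω0 (by rw [show j = k + 2 by omega]; exact hdim)⟩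
    | succ dd ih =>
      intro j hj
      obtain ⟨ρ', h0, h1, hS⟩ := ih (j + 1) (by omega)
      obtain ⟨κ, N, κ0, κ1, κ2, κ3, κ4⟩ := exists_params ε0 ε1 ω0 ω1 η0 hL h0 h1
      have hdd : (dd : ℝ) + 1 ≤ n := by
        rw [hn]; exact_mod_cast (by omega : dd + 1 ≤ k + 2)
      have hd0 : (0 : ℝ) ≤ dd := Nat.cast_nonneg _
      have hρ : 0 < ρ' * (ω * κ / 2) := by positivity
      have hl : Lev ε ω (1 / 1000 + 48 * ω * dd) (250 + (48 * ω + 501 * ε ^ 2) * dd) κ
          (ρ' * (ω * κ / 2)) N :=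
        ⟨ε0, ε1, ω0, ω1, by nlinarith, by nlinarith, le_add_of_nonneg_right (by positivity), κ0,
          κ1, κ2, hρ, κ3⟩
      refine ⟨_, pow_pos hρ N, pow_le_one₀ hρ.le (by linarith), ?_⟩
      have := stage_step hV hl hL η0 η1 (by positivity) κ4 hS
      convert this using 1 <;> push_cast <;> ring
  obtain ⟨ρ', -, -, hS⟩ := main (k + 2) 0 rfl
  have hc : ((k + 2 : ℕ) : ℝ) = n := by rw [hn]; push_cast; ring
  rw [hc] at hS
  have huu : ⟪u, u⟫ = 1 := by rw [real_inner_self_eq_norm_sq, hu]; norm_num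
  refine hS ⟨0, u, Submodule.span ℝ {u}, 0, 1⟩ [0] [] _
    ⟨hu, Submodule.mem_span_singleton_self u, Submodule.zero_mem _,
      Submodule.mem_span_singleton_self u, huu, inferInstance, one_pos⟩ ?_ rfl (by simp)
    (fun _ _ _ _ => trivial) ?_ ?_ ?_
  · simp only [sub_self, norm_zero]; linarith
  · intro Cl hc
    have := hΛ _ u (1 / 500) Cl hu (by norm_num) le_rfl
      (hc.tri.imp fun h => h.mono (by linarith) le_rfl (by linarith))
    refine (this.insert 0).mono fun x hx => ?_
    simpa using hx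
  · intro C0 p τ _
    exact Forces.leaf _ _ fun α _ hc => hc.2 List.Pairwise.nil
  · intro C0 p q τ _ _
    exact Forces.leaf _ _ fun α _ hc => by simpa using hc.2

end Vale.Agent.P208
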