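import Vale.Agent.P208.Alg

/-! Geometry of clusters and layers in the fibre game. -/

namespace Vale.Agent.P208

open scoped RealInnerProductSpace

variable {V : Type*} [NormedAddCommGroup V] [InnerProductSpace ℝ V]

theorem prj_add (u d x y : V) : prj u d (x + y) = prj u d x + prj u d y := by
  simp only [prj, inner_add_right, add_smul]; abel

theorem prj_sub (u d x y : V) : prj u d (x - y) = prj u d x - prj u d y := by
  simp only [prj, inner_sub_right, sub_smul]; abel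

theorem prj_smul (u d x : V) (c : ℝ) : prj u d (c • x) = c • prj u d x := by
  simp only [prj, real_inner_smul_right, smul_sub, mul_smul]

theorem prj_of_zero {u x : V} (d : V) (h : ⟪u, x⟫ = 0) : prj u d x = x := by
  simp [prj, h]

theorem prj_self {u d : V} (h : ⟪u, d⟫ = 1) : prj u d d = 0 := by
  simp [prj, h]

theorem prj_change (u d d' x : V) : prj u d' x = ⟪u, x⟫ • (d - d') + prj u d x := by
  simp only [prj, smul_sub]; abel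

theorem inner_prj {u d : V} (h : ⟪u, d⟫ = 1) (x : V) : ⟪u, prj u d x⟫ = 0 := by
  simp [prj, inner_sub_right, real_inner_smul_right, h]

theorem prj_mem {U : Submodule ℝ V} {u d x : V} (hd : d ∈ U) (hx : x ∈ U) : prj u d x ∈ U :=
  U.sub_mem hx (U.smul_mem _ hd)

theorem prj_neg_norm (u d x y : V) : ‖prj u d (x - y)‖ = ‖prj u d (y - x)‖ := by
  rw [prj_sub, prj_sub, norm_sub_rev]

/-- A reference line, an old subspace, a centre time and a height. -/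
structure Frame (V : Type*) [NormedAddCommGroup V] [InnerProductSpace ℝ V] where
  o : V
  d : V
  U : Submodule ℝ V
  tc : ℝ
  h : ℝ

/-- Deviation from the reference line. -/
noncomputable def Frame.F (fr : Frame V) (u y : V) : V := prj u fr.d (y - fr.o)

theorem Frame.F_sub (fr : Frame V) (u y y' : V) :
    fr.F u y - fr.F u y' = prj u fr.d (y - y') := by
  rw [Frame.F, Frame.F, ← prj_sub]; congr 1; abel

structure FrameOK (u : V) (fr : Frame V) : Prop where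
  hu : ‖u‖ = 1
  uU : u ∈ fr.U
  oU : fr.o ∈ fr.U
  dU : fr.d ∈ fr.U
  ud : ⟪u, fr.d⟫ = 1
  fd : FiniteDimensional ℝ fr.U
  hpos : 0 < fr.h

structure ClOK (u : V) (ε ω σ C : ℝ) (fr : Frame V) (l : List V) : Prop where
  fresh : ∀ y ∈ l, fr.F u y ∈ fr.Uᗮ
  time : ∀ y ∈ l, |⟪u, y⟫ - fr.tc| ≤ ω * fr.h / 2
  low : ∀ y ∈ l, fr.h / 2 ≤ ‖fr.F u y‖
  high : ∀ y ∈ l, ‖fr.F u y‖ ≤ 2 * fr.h
  tight : ∀ y ∈ l, ∀ y' ∈ l, ‖prj u fr.d (y - y')‖ ≤ 4 * (ω * fr.h / 2)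
  steep : ∀ y ∈ l, ∀ y' ∈ l, ε * |⟪u, y - y'⟫| ≤ ‖prj u fr.d (y - y')‖
  tri : l.Triplewise (Tri u fr.d σ 0 C)

structure ClW (u : V) (ω σ C : ℝ) (fr : Frame V) (l : List V) : Prop where
  fresh : ∀ y ∈ l, fr.F u y ∈ fr.Uᗮ
  time : ∀ y ∈ l, |⟪u, y⟫ - fr.tc| ≤ ω * fr.h / 2
  low : ∀ y ∈ l, fr.h / 4 ≤ ‖fr.F u y‖
  high : ∀ y ∈ l, ‖fr.F u y‖ ≤ 3 * fr.h
  tight : ∀ y ∈ l, ∀ y' ∈ l, ‖prj u fr.d (y - y')‖ ≤ 6 * (ω * fr.h / 2)
  tri : l.Triplewise (Tri u fr.d σ 0 C)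

theorem ClOK.weak {u : V} {ε ω σ C σ' C' : ℝ} {fr : Frame V} {l : List V}
    (h : ClOK u ε ω σ C fr l) (hh : 0 < fr.h) (hω : 0 ≤ ω) (h1 : σ ≤ σ') (h2 : C ≤ C') :
    ClW u ω σ' C' fr l where
  fresh := h.fresh
  time := h.time
  low := fun y hy => by have := h.low y hy; linarith
  high := fun y hy => by have := h.high y hy; linarith
  tight := fun y hy y' hy' => by
    have := h.tight y hy y' hy'
    have : 0 ≤ ω * fr.h := by positivity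
    linarith
  tri := h.tri.imp fun h => h.mono h1 le_rfl h2

/-- Direction of a pair, normalized to unit time. -/
noncomputable def dir (u a b : V) : V := (⟪u, b⟫ - ⟪u, a⟫)⁻¹ • (b - a)

theorem inner_dir {u a b : V} (h : ⟪u, a⟫ < ⟪u, b⟫) : ⟪u, dir u a b⟫ = 1 := by
  rw [dir, real_inner_smul_right, inner_sub_right]
  exact inv_mul_cancel₀ (by linarith)

theorem smul_dir {u a b : V} (h : ⟪u, a⟫ < ⟪u, b⟫) :
    (⟪u, b⟫ - ⟪u, a⟫) • dir u a b = b - a := by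
  rw [dir, smul_smul, mul_inv_cancel₀ (by linarith), one_smul]

/-- Deviation from the initial line of a role. -/
noncomputable def Frame.G (fr : Frame V) (u : V) (ε : ℝ) (v y : V) : V :=
  prj u (fr.d + ε • v) (y - (fr.o + (fr.tc - ⟪u, fr.o⟫) • fr.d + fr.h • v))

theorem Frame.G_sub (fr : Frame V) (u : V) (ε : ℝ) (v y y' : V) :
    fr.G u ε v y - fr.G u ε v y' = prj u (fr.d + ε • v) (y - y') := by
  rw [Frame.G, Frame.G, ← prj_sub]; congr 1; abel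

theorem Frame.F_eq {fr : Frame V} {u : V} (ε : ℝ) {v : V} (hd : ⟪u, fr.d⟫ = 1)
    (hv : ⟪u, v⟫ = 0) (y : V) :
    fr.F u y = fr.G u ε v y + (fr.h + ε * (⟪u, y⟫ - fr.tc)) • v := by
  simp only [Frame.F, Frame.G, prj, inner_sub_right, inner_add_right, real_inner_smul_right, hd,
    hv]
  module

/-- The frame of the cluster placed at the middle of the pair `a, b`. -/
noncomputable def inFrame (u a b : V) (Ur : Submodule ℝ V) (κ : ℝ) : Frame V where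
  o := a
  d := dir u a b
  U := Ur
  tc := (⟪u, a⟫ + ⟪u, b⟫) / 2
  h := κ * (⟪u, b⟫ - ⟪u, a⟫)

structure Lev (ε ω σ C κ ρ : ℝ) (N : ℕ) : Prop where
  εpos : 0 < ε
  εle : ε ≤ 1
  ωpos : 0 < ω
  ωle : ω ≤ 1 / 96000
  σge : 1 / 1000 ≤ σ
  σle : σ + 48 * ω ≤ 1 / 500
  Cge : 250 ≤ C
  κpos : 0 < κ
  κle : 18 * κ ≤ ω * ε
  Nκ : 81 * N * κ ^ 2 ≤ ε ^ 2 / 1000000
  ρpos : 0 < ρ
  ρle : ρ ≤ 1 / 3

/-- The three point inequality in the coordinates of a layer. -/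
def GTri (u : V) (ε ω σ C : ℝ) (fr : Frame V) (v : V) : V → V → V → Prop :=
  Tri u (fr.d + ε • v) (σ + 48 * ω) ((σ + 48 * ω) * ε ^ 2 / 2) (C + 48 * ω + ε ^ 2)

structure LayOK (u : V) (ε ω σ C κ ρ : ℝ) (fr : Frame V) (v : V) (m : ℕ) (L : List V) (a b : V)
    (Ur : Submodule ℝ V) : Prop where
  hv : ‖v‖ = 1
  vU : v ∈ fr.Uᗮ
  le : fr.U ≤ Ur
  vmem : v ∈ Ur
  fd : FiniteDimensional ℝ Ur
  mem : ∀ y ∈ L, y ∈ Ur
  ha : a ∈ L
  hb : b ∈ L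
  lt : ⟪u, a⟫ < ⟪u, b⟫
  Gfresh : ∀ y ∈ L, fr.G u ε v y ∈ fr.Uᗮ ∧ ⟪v, fr.G u ε v y⟫ = 0
  time : ∀ y ∈ L, |⟪u, y⟫ - fr.tc| ≤ ω * fr.h / 2
  Gle : ∀ y ∈ L, ‖fr.G u ε v y‖ ^ 2 ≤ m * (36 * κ ^ 2 * (ω * fr.h / 2) ^ 2)
  drift : ‖dir u a b - (fr.d + ε • v)‖ ^ 2 ≤ m * (81 * κ ^ 2)
  len : ρ ^ m * (2 * (ω * fr.h / 2)) ≤ ⟪u, b⟫ - ⟪u, a⟫
  act : L.Triplewise (GTri u ε ω σ C fr v)
  virt : ∀ t, ⟪u, a⟫ ≤ t → t ≤ ⟪u, b⟫ →
    L.Pairwise (fun y₁ y₂ => GTri u ε ω σ C fr v y₁ y₂ (a + (t - ⟪u, a⟫) • dir u a b))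

section layer

variable {u : V} {ε ω σ C κ ρ : ℝ} {N : ℕ} {fr : Frame V} {v : V} {m : ℕ} {L : List V} {a b : V}
  {Ur : Submodule ℝ V}

theorem LayOK.uv (hf : FrameOK u fr) (h : LayOK u ε ω σ C κ ρ fr v m L a b Ur) : ⟪u, v⟫ = 0 :=
  inner_orth hf.uU h.vU

theorem LayOK.ud0 (hf : FrameOK u fr) (h : LayOK u ε ω σ C κ ρ fr v m L a b Ur) :
    ⟪u, fr.d + ε • v⟫ = 1 := by
  rw [inner_add_right, real_inner_smul_right, h.uv hf, hf.ud]; ring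

theorem LayOK.d0mem (hf : FrameOK u fr) (h : LayOK u ε ω σ C κ ρ fr v m L a b Ur) :
    fr.d + ε • v ∈ Ur := Ur.add_mem (h.le hf.dU) (Ur.smul_mem _ h.vmem)

theorem LayOK.dirmem (h : LayOK u ε ω σ C κ ρ fr v m L a b Ur) : dir u a b ∈ Ur :=
  Ur.smul_mem _ (Ur.sub_mem (h.mem b h.hb) (h.mem a h.ha))

theorem LayOK.rmem (hf : FrameOK u fr) (h : LayOK u ε ω σ C κ ρ fr v m L a b Ur) :
    dir u a b - (fr.d + ε • v) ∈ Ur := Ur.sub_mem h.dirmem (h.d0mem hf)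

theorem LayOK.inFrameOK (hf : FrameOK u fr) (hl : Lev ε ω σ C κ ρ N)
    (h : LayOK u ε ω σ C κ ρ fr v m L a b Ur) : FrameOK u (inFrame u a b Ur κ) where
  hu := hf.hu
  uU := h.le hf.uU
  oU := h.mem a h.ha
  dU := h.dirmem
  ud := inner_dir h.lt
  fd := h.fd
  hpos := mul_pos hl.κpos (sub_pos.2 h.lt)

theorem LayOK.r_le (hl : Lev ε ω σ C κ ρ N) (hm : m ≤ N)
    (h : LayOK u ε ω σ C κ ρ fr v m L a b Ur) :
    ‖dir u a b - (fr.d + ε • v)‖ ≤ ε / 1000 := by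
  have h1 := h.drift
  have h2 := hl.Nκ
  have h3 : (m : ℝ) ≤ N := by exact_mod_cast hm
  have h4 : (m : ℝ) * (81 * κ ^ 2) ≤ N * (81 * κ ^ 2) := by gcongr
  have := hl.εpos
  apply abs_le_of_sq_le_sq' _ (by positivity) |>.2
  nlinarith

theorem LayOK.r_eq (h : LayOK u ε ω σ C κ ρ fr v m L a b Ur) (hf : FrameOK u fr) :
    (⟪u, b⟫ - ⟪u, a⟫) • (dir u a b - (fr.d + ε • v)) = fr.G u ε v b - fr.G u ε v a := by
  rw [Frame.G_sub, prj_change u (dir u a b), inner_sub_right]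
  have : prj u (dir u a b) (b - a) = 0 := by
    rw [← smul_dir h.lt, prj_smul, prj_self (inner_dir h.lt), smul_zero]
  rw [this, add_zero]

theorem LayOK.r_fresh (h : LayOK u ε ω σ C κ ρ fr v m L a b Ur) (hf : FrameOK u fr) :
    dir u a b - (fr.d + ε • v) ∈ fr.Uᗮ ∧ ⟪v, dir u a b - (fr.d + ε • v)⟫ = 0 := by
  have e := h.r_eq hf
  have hl : ⟪u, b⟫ - ⟪u, a⟫ ≠ 0 := by have := h.lt; linarith
  have e' : dir u a b - (fr.d + ε • v) =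
      (⟪u, b⟫ - ⟪u, a⟫)⁻¹ • (fr.G u ε v b - fr.G u ε v a) := by
    rw [← e, smul_smul, inv_mul_cancel₀ hl, one_smul]
  rw [e']
  refine ⟨Submodule.smul_mem _ _ (Submodule.sub_mem _ (h.Gfresh b h.hb).1 (h.Gfresh a h.ha).1), ?_⟩
  rw [real_inner_smul_right, inner_sub_right, (h.Gfresh b h.hb).2, (h.Gfresh a h.ha).2]; ring

theorem LayOK.len_le (h : LayOK u ε ω σ C κ ρ fr v m L a b Ur) :
    ⟪u, b⟫ - ⟪u, a⟫ ≤ 2 * (ω * fr.h / 2) := by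
  have h1 := abs_le.1 (h.time a h.ha)
  have h2 := abs_le.1 (h.time b h.hb)
  linarith [h1.1, h2.2]

theorem split_pt (u a b y : V) (Ur : Submodule ℝ V) (κ : ℝ) :
    y = (a + (⟪u, y⟫ - ⟪u, a⟫) • dir u a b) + (inFrame u a b Ur κ).F u y := by
  simp only [Frame.F, inFrame, prj, inner_sub_right]; abel

theorem inner_line {u a b : V} (h : ⟪u, a⟫ < ⟪u, b⟫) (t : ℝ) :
    ⟪u, a + (t - ⟪u, a⟫) • dir u a b⟫ = t := by
  rw [inner_add_right, real_inner_smul_right, inner_dir h]; ring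

theorem LayOK.linemem (h : LayOK u ε ω σ C κ ρ fr v m L a b Ur) (t : ℝ) :
    a + (t - ⟪u, a⟫) • dir u a b ∈ Ur :=
  Ur.add_mem (h.mem a h.ha) (Ur.smul_mem _ h.dirmem)

/-- Decomposition of a difference with an old point. -/
theorem LayOK.prj_old (hf : FrameOK u fr) (h : LayOK u ε ω σ C κ ρ fr v m L a b Ur) (y z : V) :
    prj u (fr.d + ε • v) (z - y) =
      prj u (fr.d + ε • v) (a + (⟪u, z⟫ - ⟪u, a⟫) • dir u a b - y) +
        (inFrame u a b Ur κ).F u z := by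
  have h0 : ⟪u, (inFrame u a b Ur κ).F u z⟫ = 0 := inner_prj (inner_dir h.lt) _
  rw [← prj_of_zero (fr.d + ε • v) h0, ← prj_add]
  congr 1
  have := split_pt u a b z Ur κ
  rw [sub_add_eq_add_sub, ← this]

theorem LayOK.ext_LL (hf : FrameOK u fr) (hl : Lev ε ω σ C κ ρ N)
    (h : LayOK u ε ω σ C κ ρ fr v m L a b Ur) {z : V}
    (hz : (inFrame u a b Ur κ).F u z ∈ Urᗮ) (h1 : ⟪u, a⟫ ≤ ⟪u, z⟫) (h2 : ⟪u, z⟫ ≤ ⟪u, b⟫) :
    L.Pairwise (fun y₁ y₂ => GTri u ε ω σ C fr v y₁ y₂ z) := by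
  refine (h.virt _ h1 h2).imp_of_mem fun {y₁ y₂} hy₁ hy₂ hT => ?_
  unfold GTri at *
  rw [tri_iff] at *
  rw [h.prj_old hf y₂ z]
  have e : ⟪u, z - y₂⟫ = ⟪u, a + (⟪u, z⟫ - ⟪u, a⟫) • dir u a b - y₂⟫ := by
    rw [inner_sub_right, inner_sub_right, inner_line h.lt]
  rw [e]
  have hσ : 0 ≤ σ + 48 * ω := by have := hl.σge; have := hl.ωpos; linarith
  exact TriV.addL hσ
    (prj_mem (h.d0mem hf) (Ur.sub_mem (h.linemem _) (h.mem _ hy₂)))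
    (prj_mem (h.d0mem hf) (Ur.sub_mem (h.mem _ hy₂) (h.mem _ hy₁))) hz hT

theorem LayOK.r_le' (hl : Lev ε ω σ C κ ρ N) (hm : m ≤ N)
    (h : LayOK u ε ω σ C κ ρ fr v m L a b Ur) :
    ‖dir u a b - (fr.d + ε • v)‖ ≤ (σ + 48 * ω) * ε := by
  have := h.r_le hl hm
  have h1 := hl.σge
  have h2 := hl.ωpos
  have h3 := hl.εpos
  nlinarith

theorem LayOK.ext_LC (hf : FrameOK u fr) (hl : Lev ε ω σ C κ ρ N) (hm : m ≤ N)
    (h : LayOK u ε ω σ C κ ρ fr v m L a b Ur) {y₁ y₂ z : V} (hy₁ : y₁ ∈ L)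
    (hy₂ : (inFrame u a b Ur κ).F u y₂ ∈ Urᗮ) (hz : (inFrame u a b Ur κ).F u z ∈ Urᗮ)
    (hX : ‖prj u (dir u a b) (z - y₂)‖ ≤ 9 * κ * |⟪u, z - y₂⟫| +
      (σ + 48 * ω) / 2 * ‖(inFrame u a b Ur κ).F u y₂‖) :
    GTri u ε ω σ C fr v y₁ y₂ z := by
  unfold GTri
  rw [tri_iff, h.prj_old hf y₁ y₂, prj_change u (dir u a b) (fr.d + ε • v) (z - y₂)]
  have h1 := hl.σge
  have h2 := hl.ωpos
  have h3 := hl.εpos
  have h4 := hl.Cge
  have h5 := hl.κle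
  have hfr : prj u (dir u a b) (z - y₂) ∈ Urᗮ := by
    have := (inFrame u a b Ur κ).F_sub u z y₂
    rw [show (inFrame u a b Ur κ).d = dir u a b from rfl] at this
    rw [← this]
    exact Submodule.sub_mem _ hz hy₂
  refine TriV.lc (by linarith) (by positivity) (h.rmem hf)
    (prj_mem (h.d0mem hf) (Ur.sub_mem (h.linemem _) (h.mem _ hy₁))) hfr hy₂ (h.r_le' hl hm)
    ?_ hX
  nlinarith

theorem LayOK.ext_CC (hf : FrameOK u fr) (hl : Lev ε ω σ C κ ρ N) (hm : m ≤ N)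
    (h : LayOK u ε ω σ C κ ρ fr v m L a b Ur) {y₁ y₂ z : V}
    (hy₁ : (inFrame u a b Ur κ).F u y₁ ∈ Urᗮ)
    (hy₂ : (inFrame u a b Ur κ).F u y₂ ∈ Urᗮ) (hz : (inFrame u a b Ur κ).F u z ∈ Urᗮ)
    (hT : Tri u (dir u a b) (σ + 48 * ω) ((σ + 48 * ω) * ε ^ 2 / 4) (C + 48 * ω) y₁ y₂ z) :
    GTri u ε ω σ C fr v y₁ y₂ z := by
  unfold GTri
  rw [tri_iff] at *
  rw [prj_change u (dir u a b) (fr.d + ε • v) (z - y₂),
    prj_change u (dir u a b) (fr.d + ε • v) (y₂ - y₁)]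
  have h1 := hl.σge
  have h2 := hl.ωpos
  have h3 := hl.σle
  have hfr : ∀ y y', (inFrame u a b Ur κ).F u y ∈ Urᗮ → (inFrame u a b Ur κ).F u y' ∈ Urᗮ →
      prj u (dir u a b) (y - y') ∈ Urᗮ := by
    intro y y' hy hy'
    have := (inFrame u a b Ur κ).F_sub u y y'
    rw [show (inFrame u a b Ur κ).d = dir u a b from rfl] at this
    rw [← this]
    exact Submodule.sub_mem _ hy hy'
  exact TriV.cc (by linarith) (by linarith) (h.rmem hf) (hfr _ _ hz hy₂) (hfr _ _ hy₂ hy₁)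
    (h.r_le' hl hm) hT

end layer

end Vale.Agent.P208
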