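import Vale.Agent.P208.Geo

/-! Merging clusters into layers. -/

namespace Vale.Agent.P208

open scoped RealInnerProductSpace

variable {V : Type*} [NormedAddCommGroup V] [InnerProductSpace ℝ V]

theorem triplewise_imp_of_mem {α : Type*} {p q : α → α → α → Prop} {l : List α}
    (hl : l.Triplewise p) (h : ∀ a ∈ l, ∀ b ∈ l, ∀ c ∈ l, p a b c → q a b c) :
    l.Triplewise q := by
  induction hl with
  | nil => exact .nil
  | cons head tail ih =>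
    refine .cons (head.imp_of_mem fun {b c} hb hc hp => h _ (by simp) _ (by simp [hb]) _
      (by simp [hc]) hp) (ih fun a ha b hb c hc => h a (by simp [ha]) b (by simp [hb]) c
        (by simp [hc]))

theorem norm_convex_sq {A B : V} {c θ : ℝ} (hA : ‖A‖ ^ 2 ≤ c) (hB : ‖B‖ ^ 2 ≤ c) (h0 : 0 ≤ θ)
    (h1 : θ ≤ 1) : ‖A + θ • (B - A)‖ ^ 2 ≤ c := by
  have e : A + θ • (B - A) = (1 - θ) • A + θ • B := by module
  have h2 : ‖A + θ • (B - A)‖ ≤ (1 - θ) * ‖A‖ + θ * ‖B‖ := by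
    rw [e]
    refine (norm_add_le _ _).trans ?_
    rw [norm_smul, norm_smul, Real.norm_of_nonneg h0, Real.norm_of_nonneg (by linarith)]
  have h3 : ‖A + θ • (B - A)‖ ^ 2 ≤ ((1 - θ) * ‖A‖ + θ * ‖B‖) ^ 2 := by gcongr
  have h4 : 0 ≤ θ * (1 - θ) * (‖A‖ - ‖B‖) ^ 2 := by
    have : 0 ≤ 1 - θ := by linarith
    positivity
  have h5 : (1 - θ) * ‖A‖ ^ 2 ≤ (1 - θ) * c := mul_le_mul_of_nonneg_left hA (by linarith)
  have h6 : θ * ‖B‖ ^ 2 ≤ θ * c := mul_le_mul_of_nonneg_left hB h0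
  nlinarith

section layer

variable {u : V} {ε ω σ C κ ρ : ℝ} {N : ℕ} {fr : Frame V} {v : V} {m : ℕ} {L : List V} {a b : V}
  {Ur : Submodule ℝ V}

theorem LayOK.G_eq (hf : FrameOK u fr) (h : LayOK u ε ω σ C κ ρ fr v m L a b Ur) (y : V) :
    fr.G u ε v y = (fr.G u ε v a + ((⟪u, y⟫ - ⟪u, a⟫) / (⟪u, b⟫ - ⟪u, a⟫)) •
      (fr.G u ε v b - fr.G u ε v a)) + (inFrame u a b Ur κ).F u y := by
  have hl : ⟪u, b⟫ - ⟪u, a⟫ ≠ 0 := by have := h.lt; linarith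
  rw [← h.r_eq hf, smul_smul, div_mul_cancel₀ _ hl]
  have e := fr.G_sub u ε v y a
  rw [prj_change u (dir u a b), inner_sub_right] at e
  rw [show (inFrame u a b Ur κ).F u y = prj u (dir u a b) (y - a) from rfl]
  rw [add_assoc, ← e]; abel

theorem LayOK.G_mem (hf : FrameOK u fr) (h : LayOK u ε ω σ C κ ρ fr v m L a b Ur) {y : V}
    (hy : y ∈ L) : fr.G u ε v y ∈ Ur :=
  prj_mem (h.d0mem hf) (Ur.sub_mem (h.mem y hy) (Ur.add_mem (Ur.add_mem (h.le hf.oU)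
    (Ur.smul_mem _ (h.le hf.dU))) (Ur.smul_mem _ h.vmem)))

theorem LayOK.in_time (hl : Lev ε ω σ C κ ρ N) (h : LayOK u ε ω σ C κ ρ fr v m L a b Ur) {t : ℝ}
    (ht : |t - (inFrame u a b Ur κ).tc| ≤ ω * (inFrame u a b Ur κ).h / 2) :
    ⟪u, a⟫ + (⟪u, b⟫ - ⟪u, a⟫) / 3 ≤ t ∧ t ≤ ⟪u, b⟫ - (⟪u, b⟫ - ⟪u, a⟫) / 3 := by
  simp only [inFrame] at ht
  have h0 := sub_pos.2 h.lt
  have h1 := hl.ωpos
  have h2 := hl.ωle
  have h3 := hl.κle
  have h4 := hl.εle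
  have h5 := hl.κpos
  have h6 : ω * κ ≤ 1 / 3 := by nlinarith
  have h7 : ω * (κ * (⟪u, b⟫ - ⟪u, a⟫)) ≤ 1 / 3 * (⟪u, b⟫ - ⟪u, a⟫) := by
    rw [← mul_assoc]; gcongr
  have := abs_le.1 ht
  constructor <;> linarith [this.1, this.2]

theorem LayOK.out_time (h : LayOK u ε ω σ C κ ρ fr v m L a b Ur) {t : ℝ}
    (h1 : ⟪u, a⟫ ≤ t) (h2 : t ≤ ⟪u, b⟫) : |t - fr.tc| ≤ ω * fr.h / 2 := by
  have a1 := abs_le.1 (h.time a h.ha)
  have a2 := abs_le.1 (h.time b h.hb)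
  rw [abs_le]; constructor <;> linarith [a1.1, a2.2]

theorem LayOK.G_in (hf : FrameOK u fr) (hl : Lev ε ω σ C κ ρ N)
    (h : LayOK u ε ω σ C κ ρ fr v m L a b Ur) {y : V}
    (hy : (inFrame u a b Ur κ).F u y ∈ Urᗮ) (h1 : ⟪u, a⟫ ≤ ⟪u, y⟫) (h2 : ⟪u, y⟫ ≤ ⟪u, b⟫)
    (h3 : ‖(inFrame u a b Ur κ).F u y‖ ≤ 3 * (inFrame u a b Ur κ).h) :
    (fr.G u ε v y ∈ fr.Uᗮ ∧ ⟪v, fr.G u ε v y⟫ = 0) ∧
      ‖fr.G u ε v y‖ ^ 2 ≤ (m + 1 : ℕ) * (36 * κ ^ 2 * (ω * fr.h / 2) ^ 2) := by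
  have h0 := sub_pos.2 h.lt
  have ga := h.Gfresh a h.ha
  have gb := h.Gfresh b h.hb
  rw [h.G_eq hf y]
  refine ⟨⟨?_, ?_⟩, ?_⟩
  · exact Submodule.add_mem _ (Submodule.add_mem _ ga.1 (Submodule.smul_mem _ _
      (Submodule.sub_mem _ gb.1 ga.1))) (Submodule.orthogonal_le h.le hy)
  · rw [inner_add_right, inner_add_right, real_inner_smul_right, inner_sub_right, ga.2, gb.2,
      inner_orth h.vmem hy]; ring
  · have hm : fr.G u ε v a + ((⟪u, y⟫ - ⟪u, a⟫) / (⟪u, b⟫ - ⟪u, a⟫)) •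
        (fr.G u ε v b - fr.G u ε v a) ∈ Ur :=
      Ur.add_mem (h.G_mem hf h.ha) (Ur.smul_mem _ (Ur.sub_mem (h.G_mem hf h.hb) (h.G_mem hf h.ha)))
    rw [norm_add_sq_orth (inner_orth hm hy)]
    have k1 := norm_convex_sq (h.Gle a h.ha) (h.Gle b h.hb)
      (θ := (⟪u, y⟫ - ⟪u, a⟫) / (⟪u, b⟫ - ⟪u, a⟫)) (div_nonneg (by linarith) h0.le)
      ((div_le_one h0).2 (by linarith))
    have k2 : (inFrame u a b Ur κ).h ≤ κ * (2 * (ω * fr.h / 2)) :=
      mul_le_mul_of_nonneg_left h.len_le hl.κpos.le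
    have k3 : ‖(inFrame u a b Ur κ).F u y‖ ≤ 6 * κ * (ω * fr.h / 2) := by linarith
    have k4 : ‖(inFrame u a b Ur κ).F u y‖ ^ 2 ≤ (6 * κ * (ω * fr.h / 2)) ^ 2 := by gcongr
    push_cast
    nlinarith

theorem LayOK.act_ext (hf : FrameOK u fr) (hl : Lev ε ω σ C κ ρ N) (hm : m ≤ N)
    (h : LayOK u ε ω σ C κ ρ fr v m L a b Ur) {CT : List V}
    (hc : ClW u ω (σ + 24 * ω) (C + 24 * ω) (inFrame u a b Ur κ) CT) :
    (L ++ CT).Triplewise (GTri u ε ω σ C fr v) := by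
  have h0 := sub_pos.2 h.lt
  have h1 := hl.σge
  have h2 := hl.ωpos
  have h3 := hl.ωle
  have hh : 0 < (inFrame u a b Ur κ).h := (h.inFrameOK hf hl).hpos
  rw [List.triplewise_append]
  refine ⟨h.act, ?_, ?_, ?_⟩
  · refine triplewise_imp_of_mem hc.tri fun y₁ hy₁ y₂ hy₂ z hz hT => ?_
    refine h.ext_CC hf hl hm (hc.fresh _ hy₁) (hc.fresh _ hy₂) (hc.fresh _ hz)
      (hT.mono (by linarith) (by positivity) (by linarith))
  · intro y₁ hy₁
    refine List.pairwise_of_forall_mem_list fun y₂ hy₂ z hz => ?_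
    refine h.ext_LC hf hl hm hy₁ (hc.fresh _ hy₂) (hc.fresh _ hz) ?_
    have k1 := hc.tight z hz y₂ hy₂
    have k2 := hc.low y₂ hy₂
    have k3 : 0 ≤ 9 * κ * |⟪u, z - y₂⟫| := by have := hl.κpos; positivity
    have k4 : (σ + 48 * ω) / 2 * ((inFrame u a b Ur κ).h / 4) ≤
        (σ + 48 * ω) / 2 * ‖(inFrame u a b Ur κ).F u y₂‖ := by gcongr
    rw [show (inFrame u a b Ur κ).d = dir u a b from rfl] at k1
    nlinarith
  · intro z hz
    have := h.in_time hl (hc.time z hz)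
    exact h.ext_LL hf hl (hc.fresh z hz) (by linarith [this.1]) (by linarith [this.2])

/-- From the layer coordinates to a cluster of the outer frame. -/
theorem clOK_of_G (hf : FrameOK u fr) (hl : Lev ε ω σ C κ ρ N) (hv : ‖v‖ = 1) (vU : v ∈ fr.Uᗮ)
    {l : List V} (h1 : ∀ y ∈ l, fr.G u ε v y ∈ fr.Uᗮ ∧ ⟪v, fr.G u ε v y⟫ = 0)
    (h2 : ∀ y ∈ l, |⟪u, y⟫ - fr.tc| ≤ ω * fr.h / 2)
    (h3 : ∀ y ∈ l, ‖fr.G u ε v y‖ ≤ ω * fr.h / 2)
    (h4 : l.Triplewise (GTri u ε ω σ C fr v)) :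
    ClOK u ε ω (σ + 48 * ω) (C + 48 * ω + 501 * ε ^ 2) fr l := by
  have uv : ⟪u, v⟫ = 0 := inner_orth hf.uU vU
  have hh := hf.hpos
  have a1 := hl.ωpos
  have a2 := hl.ωle
  have a3 := hl.εpos
  have a4 := hl.εle
  have a5 := hl.σge
  have hw : ω * fr.h ≤ fr.h / 4 := by nlinarith
  have hw0 : 0 < ω * fr.h := by positivity
  have key : ∀ y ∈ l, ‖fr.F u y‖ ^ 2 =
      ‖fr.G u ε v y‖ ^ 2 + (fr.h + ε * (⟪u, y⟫ - fr.tc)) ^ 2 := by
    intro y hy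
    rw [Frame.F_eq ε hf.ud uv, norm_add_sq_orth, norm_smul, hv, mul_one, Real.norm_eq_abs, sq_abs]
    rw [real_inner_smul_right, real_inner_comm v, (h1 y hy).2]; ring
  have tb : ∀ y ∈ l, |ε * (⟪u, y⟫ - fr.tc)| ≤ ω * fr.h / 2 := by
    intro y hy
    rw [abs_mul, abs_of_pos a3]
    have := h2 y hy
    have := abs_nonneg (⟪u, y⟫ - fr.tc)
    nlinarith
  have dif : ∀ y y', prj u fr.d (y - y') =
      prj u (fr.d + ε • v) (y - y') + (ε * ⟪u, y - y'⟫) • v := by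
    intro y y'
    rw [prj_change u (fr.d + ε • v) fr.d]; module
  have orth : ∀ y ∈ l, ∀ y' ∈ l, ⟪v, prj u (fr.d + ε • v) (y - y')⟫ = 0 := by
    intro y hy y' hy'
    rw [← Frame.G_sub, inner_sub_right, (h1 y hy).2, (h1 y' hy').2]; ring
  refine ⟨?_, h2, ?_, ?_, ?_, ?_, ?_⟩
  · intro y hy
    rw [Frame.F_eq ε hf.ud uv]
    exact Submodule.add_mem _ (h1 y hy).1 (Submodule.smul_mem _ _ vU)
  · intro y hy
    have := abs_le.1 (tb y hy)
    refine (abs_le_of_sq_le_sq' ?_ (norm_nonneg _)).2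
    rw [key y hy]
    have : fr.h / 2 ≤ fr.h + ε * (⟪u, y⟫ - fr.tc) := by linarith [this.1]
    have : (fr.h / 2) ^ 2 ≤ (fr.h + ε * (⟪u, y⟫ - fr.tc)) ^ 2 := by gcongr
    nlinarith [sq_nonneg ‖fr.G u ε v y‖]
  · intro y hy
    rw [Frame.F_eq ε hf.ud uv]
    refine (norm_add_le _ _).trans ?_
    rw [norm_smul, hv, mul_one, Real.norm_eq_abs]
    have := abs_add_le fr.h (ε * (⟪u, y⟫ - fr.tc))
    rw [abs_of_pos hh] at this
    linarith [tb y hy, h3 y hy]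
  · intro y hy y' hy'
    rw [dif]
    refine (norm_add_le _ _).trans ?_
    rw [norm_smul, hv, mul_one, Real.norm_eq_abs, ← Frame.G_sub]
    have b1 := norm_sub_le (fr.G u ε v y) (fr.G u ε v y')
    have b2 : |ε * ⟪u, y - y'⟫| ≤ ω * fr.h := by
      have e : ε * ⟪u, y - y'⟫ = ε * (⟪u, y⟫ - fr.tc) - ε * (⟪u, y'⟫ - fr.tc) := by
        rw [inner_sub_right]; ring
      rw [e]
      have := abs_sub (ε * (⟪u, y⟫ - fr.tc)) (ε * (⟪u, y'⟫ - fr.tc))
      linarith [tb y hy, tb y' hy']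
    linarith [h3 y hy, h3 y' hy']
  · intro y hy y' hy'
    refine (abs_le_of_sq_le_sq' ?_ (norm_nonneg _)).2
    rw [dif, norm_add_sq_orth, norm_smul, hv, mul_one, Real.norm_eq_abs, sq_abs, mul_pow, sq_abs,
      mul_pow]
    · nlinarith [sq_nonneg ‖prj u (fr.d + ε • v) (y - y')‖]
    · rw [real_inner_smul_right, real_inner_comm v, orth y hy y' hy']; ring
  · refine triplewise_imp_of_mem h4 fun y₁ hy₁ y₂ hy₂ z hz hT => ?_
    unfold GTri at hT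
    rw [tri_iff] at *
    rw [dif, dif]
    refine TriV.conv (by linarith) hv (orth _ hz _ hy₂) (orth _ hy₂ _ hy₁) ?_ hT _
    have : ε ^ 2 / (2 * (σ + 48 * ω)) ≤ 500 * ε ^ 2 := by
      rw [div_le_iff₀ (by linarith)]
      nlinarith [sq_nonneg ε]
    linarith

theorem Lev.G_bound (hl : Lev ε ω σ C κ ρ N) {m : ℕ} (hm : m ≤ N) {w x : ℝ} (hw : 0 ≤ w)
    (hx : x ^ 2 ≤ m * (36 * κ ^ 2 * w ^ 2)) : x ≤ w := by
  refine (abs_le_of_sq_le_sq' ?_ hw).2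
  have h2 := hl.Nκ
  have h3 : (m : ℝ) ≤ N := by exact_mod_cast hm
  have h4 : (m : ℝ) * (36 * κ ^ 2) ≤ N * (36 * κ ^ 2) := by gcongr
  have h5 : ε ^ 2 ≤ 1 := by have := hl.εpos; have := hl.εle; nlinarith
  have h6 : 0 ≤ (N : ℝ) * κ ^ 2 := by positivity
  have h7 : (m : ℝ) * (36 * κ ^ 2) ≤ 1 := by nlinarith
  have h8 : (m : ℝ) * (36 * κ ^ 2) * w ^ 2 ≤ 1 * w ^ 2 := by gcongr
  nlinarith

theorem LayOK.mergeW (hf : FrameOK u fr) (hl : Lev ε ω σ C κ ρ N) (hm : m + 1 ≤ N)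
    (h : LayOK u ε ω σ C κ ρ fr v m L a b Ur) {CT : List V}
    (hc : ClW u ω (σ + 24 * ω) (C + 24 * ω) (inFrame u a b Ur κ) CT) :
    ClOK u ε ω (σ + 48 * ω) (C + 48 * ω + 501 * ε ^ 2) fr (L ++ CT) := by
  have h0 := sub_pos.2 h.lt
  have hw : 0 ≤ ω * fr.h / 2 := by have := hf.hpos; have := hl.ωpos; positivity
  have tm : ∀ y ∈ CT, ⟪u, a⟫ ≤ ⟪u, y⟫ ∧ ⟪u, y⟫ ≤ ⟪u, b⟫ := fun y hy => by
    have := h.in_time hl (hc.time y hy)
    constructor <;> linarith [this.1, this.2]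
  refine clOK_of_G hf hl h.hv h.vU ?_ ?_ ?_ (h.act_ext hf hl (by omega) hc)
  · intro y hy
    rcases List.mem_append.1 hy with hy | hy
    · exact h.Gfresh y hy
    · exact (h.G_in hf hl (hc.fresh y hy) (tm y hy).1 (tm y hy).2 (hc.high y hy)).1
  · intro y hy
    rcases List.mem_append.1 hy with hy | hy
    · exact h.time y hy
    · exact h.out_time (tm y hy).1 (tm y hy).2
  · intro y hy
    rcases List.mem_append.1 hy with hy | hy
    · exact hl.G_bound (by omega) hw (h.Gle y hy)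
    · exact hl.G_bound hm hw
        (h.G_in hf hl (hc.fresh y hy) (tm y hy).1 (tm y hy).2 (hc.high y hy)).2

theorem LayOK.merge (hf : FrameOK u fr) (hl : Lev ε ω σ C κ ρ N) (hm : m + 1 ≤ N)
    (h : LayOK u ε ω σ C κ ρ fr v m L a b Ur) {Cl : List V}
    (hc : ClOK u ε ω σ C (inFrame u a b Ur κ) Cl) :
    ClOK u ε ω (σ + 48 * ω) (C + 48 * ω + 501 * ε ^ 2) fr (L ++ Cl) := by
  have := hl.ωpos
  exact h.mergeW hf hl hm (hc.weak (h.inFrameOK hf hl).hpos this.le (by linarith) (by linarith))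

theorem LayOK.self (hf : FrameOK u fr) (hl : Lev ε ω σ C κ ρ N) (hm : m ≤ N)
    (h : LayOK u ε ω σ C κ ρ fr v m L a b Ur) :
    ClOK u ε ω (σ + 48 * ω) (C + 48 * ω + 501 * ε ^ 2) fr L := by
  have hw : 0 ≤ ω * fr.h / 2 := by have := hf.hpos; have := hl.ωpos; positivity
  exact clOK_of_G hf hl h.hv h.vU h.Gfresh h.time
    (fun y hy => hl.G_bound hm hw (h.Gle y hy)) h.act

/-- Creation of a role. -/
theorem exists_layer (hf : FrameOK u fr) (hl : Lev ε ω σ C κ ρ N) (hv : ‖v‖ = 1)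
    (vU : v ∈ fr.Uᗮ) : ∃ a b Ur, LayOK u ε ω σ C κ ρ fr v 0 [a, b] a b Ur := by
  have uv : ⟪u, v⟫ = 0 := inner_orth hf.uU vU
  have hd : ⟪u, fr.d + ε • v⟫ = 1 := by
    rw [inner_add_right, real_inner_smul_right, uv, hf.ud]; ring
  set o0 := fr.o + (fr.tc - ⟪u, fr.o⟫) • fr.d + fr.h • v with ho0
  have ho : ⟪u, o0⟫ = fr.tc := by
    rw [ho0, inner_add_right, inner_add_right, real_inner_smul_right, real_inner_smul_right, uv,
      hf.ud]; ring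
  set w := ω * fr.h / 2 with hw
  have hw0 : 0 < w := by have := hf.hpos; have := hl.ωpos; positivity
  have hline : ∀ s : ℝ, fr.G u ε v (o0 + s • (fr.d + ε • v)) = 0 := by
    intro s
    rw [Frame.G, ← ho0, add_sub_cancel_left, prj_smul, prj_self hd, smul_zero]
  have htime : ∀ s : ℝ, ⟪u, o0 + s • (fr.d + ε • v)⟫ = fr.tc + s := by
    intro s
    rw [inner_add_right, real_inner_smul_right, hd, ho]; ring
  have hdir : dir u (o0 + (-w) • (fr.d + ε • v)) (o0 + w • (fr.d + ε • v)) = fr.d + ε • v := by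
    rw [dir, htime, htime]
    have e : o0 + w • (fr.d + ε • v) - (o0 + (-w) • (fr.d + ε • v)) = (2 * w) • (fr.d + ε • v) := by
      module
    rw [e, smul_smul, show fr.tc + w - (fr.tc + -w) = 2 * w by ring,
      inv_mul_cancel₀ (by positivity), one_smul]
  have vm : v ∈ fr.U ⊔ Submodule.span ℝ {v} :=
    Submodule.mem_sup_right (Submodule.mem_span_singleton_self v)
  have lm : ∀ s : ℝ, o0 + s • (fr.d + ε • v) ∈ fr.U ⊔ Submodule.span ℝ {v} := by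
    intro s
    have hd' : fr.d ∈ fr.U ⊔ Submodule.span ℝ {v} := Submodule.mem_sup_left hf.dU
    have ho' : fr.o ∈ fr.U ⊔ Submodule.span ℝ {v} := Submodule.mem_sup_left hf.oU
    exact Submodule.add_mem _ (Submodule.add_mem _ (Submodule.add_mem _ ho'
      (Submodule.smul_mem _ _ hd')) (Submodule.smul_mem _ _ vm)) (Submodule.smul_mem _ _
        (Submodule.add_mem _ hd' (Submodule.smul_mem _ _ vm)))
  have := hf.fd
  refine ⟨o0 + (-w) • (fr.d + ε • v), o0 + w • (fr.d + ε • v), fr.U ⊔ Submodule.span ℝ {v},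
    hv, vU, le_sup_left, vm, inferInstance, ?_, by simp, by simp, ?_, ?_, ?_, ?_, ?_, ?_, by simp,
    ?_⟩
  · intro y hy
    simp only [List.mem_cons, List.not_mem_nil, or_false] at hy
    rcases hy with rfl | rfl <;> exact lm _
  · rw [htime, htime]; linarith
  · intro y hy
    simp only [List.mem_cons, List.not_mem_nil, or_false] at hy
    rcases hy with rfl | rfl <;> rw [hline] <;> simp
  · intro y hy
    simp only [List.mem_cons, List.not_mem_nil, or_false] at hy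
    rcases hy with rfl | rfl <;> rw [htime, abs_le] <;> constructor <;> linarith
  · intro y hy
    simp only [List.mem_cons, List.not_mem_nil, or_false] at hy
    rcases hy with rfl | rfl <;> rw [hline] <;> simp
  · rw [hdir]; simp
  · rw [htime, htime]; simp only [pow_zero]; linarith
  · intro t _ _
    rw [List.pairwise_pair]
    unfold GTri
    rw [tri_iff, ← Frame.G_sub (y := o0 + w • (fr.d + ε • v)), hline, hline, sub_zero]
    unfold TriV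
    have h1 := hl.σge
    have h2 := hl.ωpos
    have h4 := hl.Cge
    rw [inner_zero_right]
    have : 0 ≤ σ + 48 * ω := by linarith
    have : 0 ≤ C + 48 * ω + ε ^ 2 := by positivity
    have k : ∀ x y z : ℝ, -(σ + 48 * ω) * (x ^ 2 + ‖(0 : V)‖ ^ 2) -
        (σ + 48 * ω) * ε ^ 2 / 2 * y ^ 2 - (C + 48 * ω + ε ^ 2) * z ^ 2 ≤ 0 := by
      intro x y z
      have : 0 ≤ (σ + 48 * ω) * (x ^ 2 + ‖(0 : V)‖ ^ 2) := by positivity
      have : 0 ≤ (σ + 48 * ω) * ε ^ 2 / 2 * y ^ 2 := by positivity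
      have : 0 ≤ (C + 48 * ω + ε ^ 2) * z ^ 2 := by positivity
      linarith
    exact k _ _ _

end layer

end Vale.Agent.P208
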