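import Vale.Agent.P208.Geo2

/-! Moves, test points and exits. -/

namespace Vale.Agent.P208

open scoped RealInnerProductSpace

variable {V : Type*} [NormedAddCommGroup V] [InnerProductSpace ℝ V]

section layer

variable {u : V} {ε ω σ C κ ρ : ℝ} {N : ℕ} {fr : Frame V} {v : V} {m : ℕ} {L : List V} {a b : V}
  {Ur : Submodule ℝ V}

theorem LayOK.close (hf : FrameOK u fr) (hl : Lev ε ω σ C κ ρ N) (hm : m + 1 ≤ N)
    (h : LayOK u ε ω σ C κ ρ fr v m L a b Ur) {CT : List V}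
    (hc : ClW u ω (σ + 24 * ω) (C + 24 * ω) (inFrame u a b Ur κ) CT) {x g a' b' : V}
    (hx : x ∈ CT)
    (hP : CT.Pairwise fun y₁ y₂ => Tri u (dir u a b) (σ + 24 * ω) 0 (C + 24 * ω) y₁ y₂ x ∧
      ε * |⟪u, y₂⟫ - ⟪u, x⟫| ≤ 2 * (‖prj u (dir u a b) (x - y₂)‖ +
        ‖prj u (dir u a b) (y₂ - y₁)‖ + |⟪u, y₂ - y₁⟫|))
    (hg : g ∈ Urᗮ) (hgn : ‖g‖ ≤ 9 * κ) (ha' : a' ∈ L ++ CT) (hb' : b' ∈ L ++ CT)
    (ea : a' = x + (⟪u, a'⟫ - ⟪u, x⟫) • (dir u a b + g))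
    (eb : b' = x + (⟪u, b'⟫ - ⟪u, x⟫) • (dir u a b + g))
    (h1 : ⟪u, a⟫ ≤ ⟪u, a'⟫) (h2 : ⟪u, a'⟫ < ⟪u, b'⟫) (h3 : ⟪u, b'⟫ ≤ ⟪u, b⟫)
    (hlen : ρ * (⟪u, b⟫ - ⟪u, a⟫) ≤ ⟪u, b'⟫ - ⟪u, a'⟫) :
    ∃ Ur', LayOK u ε ω σ C κ ρ fr v (m + 1) (L ++ CT) a' b' Ur' := by
  have h0 := sub_pos.2 h.lt
  have a1 := hl.ωpos
  have a2 := hl.ωle
  have a3 := hl.εpos
  have a4 := hl.εle
  have a5 := hl.σge
  have a6 := hl.σle
  have a7 := hl.κpos
  have a8 := hl.κle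
  have hh : 0 < (inFrame u a b Ur κ).h := (h.inFrameOK hf hl).hpos
  have ug : ⟪u, g⟫ = 0 := inner_orth (h.le hf.uU) hg
  have tm : ∀ y ∈ CT, ⟪u, a⟫ ≤ ⟪u, y⟫ ∧ ⟪u, y⟫ ≤ ⟪u, b⟫ := fun y hy => by
    have := h.in_time hl (hc.time y hy)
    constructor <;> linarith [this.1, this.2]
  have hdir : dir u a' b' = dir u a b + g := by
    have e : b' - a' = (⟪u, b'⟫ - ⟪u, a'⟫) • (dir u a b + g) := by
      conv_lhs => rw [ea, eb]
      module
    rw [dir, e, smul_smul, inv_mul_cancel₀ (by linarith), one_smul]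
  have := h.fd
  have : FiniteDimensional ℝ (Submodule.span ℝ {y | y ∈ CT}) :=
    FiniteDimensional.span_of_finite ℝ (List.finite_toSet CT)
  refine ⟨Ur ⊔ Submodule.span ℝ {y | y ∈ CT}, h.hv, h.vU, h.le.trans le_sup_left,
    Submodule.mem_sup_left h.vmem, inferInstance, ?_, ha', hb', h2, ?_, ?_, ?_, ?_, ?_,
    h.act_ext hf hl (by omega) hc, ?_⟩
  · intro y hy
    rcases List.mem_append.1 hy with hy | hy
    · exact Submodule.mem_sup_left (h.mem y hy)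
    · exact Submodule.mem_sup_right (Submodule.subset_span hy)
  · intro y hy
    rcases List.mem_append.1 hy with hy | hy
    · exact h.Gfresh y hy
    · exact (h.G_in hf hl (hc.fresh y hy) (tm y hy).1 (tm y hy).2 (hc.high y hy)).1
  · intro y hy
    rcases List.mem_append.1 hy with hy | hy
    · exact h.time y hy
    · exact h.out_time (tm y hy).1 (tm y hy).2
  · intro y hy
    rcases List.mem_append.1 hy with hy | hy
    · refine (h.Gle y hy).trans ?_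
      push_cast
      have : 0 ≤ 36 * κ ^ 2 * (ω * fr.h / 2) ^ 2 := by positivity
      linarith
    · exact (h.G_in hf hl (hc.fresh y hy) (tm y hy).1 (tm y hy).2 (hc.high y hy)).2
  · rw [hdir, add_sub_right_comm, norm_add_sq_orth (inner_orth (h.rmem hf) hg)]
    have k : ‖g‖ ^ 2 ≤ (9 * κ) ^ 2 := by gcongr
    have := h.drift
    push_cast
    linarith
  · have := mul_le_mul_of_nonneg_left h.len hl.ρpos.le
    rw [pow_succ]
    linarith
  · intro t ht1 ht2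
    have ez : a' + (t - ⟪u, a'⟫) • dir u a' b' = x + (t - ⟪u, x⟫) • (dir u a b + g) := by
      rw [hdir]
      conv_lhs => rw [ea]
      rw [inner_add_right, real_inner_smul_right, inner_add_right, inner_dir h.lt, ug]
      module
    rw [ez]
    set z := x + (t - ⟪u, x⟫) • (dir u a b + g) with hz
    have tz : ⟪u, z⟫ = t := by
      rw [hz, inner_add_right, real_inner_smul_right, inner_add_right, inner_dir h.lt, ug]; ring
    have pz : ∀ y, prj u (dir u a b) (z - y) = prj u (dir u a b) (x - y) + (t - ⟪u, x⟫) • g := by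
      intro y
      rw [hz, add_sub_right_comm, prj_add, prj_smul, prj_add, prj_self (inner_dir h.lt),
        prj_of_zero _ ug, zero_add]
    have Fz : (inFrame u a b Ur κ).F u z ∈ Urᗮ := by
      rw [show (inFrame u a b Ur κ).F u z = prj u (dir u a b) (z - a) from rfl, pz]
      exact Submodule.add_mem _ (hc.fresh x hx) (Submodule.smul_mem _ _ hg)
    have ng : ∀ y, ‖(t - ⟪u, x⟫) • g‖ ≤ 9 * κ * |⟪u, z - y⟫| + 9 * κ * |⟪u, y⟫ - ⟪u, x⟫| := by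
      intro y
      rw [norm_smul, Real.norm_eq_abs, inner_sub_right, tz]
      have k1 := abs_sub_le t ⟪u, y⟫ ⟪u, x⟫
      have k2 : |t - ⟪u, x⟫| * ‖g‖ ≤ (|t - ⟪u, y⟫| + |⟪u, y⟫ - ⟪u, x⟫|) * (9 * κ) := by gcongr
      linarith
    rw [List.pairwise_append]
    refine ⟨h.ext_LL hf hl Fz (by linarith) (by linarith), ?_, ?_⟩
    · refine hP.imp_of_mem fun {y₁ y₂} hy₁ hy₂ hT => ?_
      refine h.ext_CC hf hl (by omega) (hc.fresh _ hy₁) (hc.fresh _ hy₂) Fz ?_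
      rw [tri_iff, pz]
      have k := TriV.perturb (ε := ε) (T := ⟪u, z - y₂⟫) (e := (t - ⟪u, x⟫) • g) (by linarith)
        (by linarith) a3.le a1.le (by linarith) ?_ hT.1
      · refine k.mono (by linarith) ?_ (by linarith)
        nlinarith [sq_nonneg ε]
      · have k1 := ng y₂
        have k2 := hT.2
        have k3 : 9 * κ * |⟪u, z - y₂⟫| ≤ ω * ε * |⟪u, z - y₂⟫| :=
          mul_le_mul_of_nonneg_right (by linarith) (abs_nonneg _)
        have k4 : 9 * κ * |⟪u, y₂⟫ - ⟪u, x⟫| ≤ ω * ε / 2 * |⟪u, y₂⟫ - ⟪u, x⟫| :=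
          mul_le_mul_of_nonneg_right (by linarith) (abs_nonneg _)
        have k5 := mul_le_mul_of_nonneg_left k2 a1.le
        linarith
    · intro y₁ hy₁ y₂ hy₂
      refine h.ext_LC hf hl (by omega) hy₁ (hc.fresh _ hy₂) Fz ?_
      rw [pz]
      refine (norm_add_le _ _).trans ?_
      have k1 := ng y₂
      have k2 := hc.tight x hx y₂ hy₂
      rw [show (inFrame u a b Ur κ).d = dir u a b from rfl] at k2
      have k3 := hc.low y₂ hy₂
      have k4 : (σ + 48 * ω) / 2 * ((inFrame u a b Ur κ).h / 4) ≤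
          (σ + 48 * ω) / 2 * ‖(inFrame u a b Ur κ).F u y₂‖ := by gcongr
      have k5 : |⟪u, y₂⟫ - ⟪u, x⟫| ≤ ω * (inFrame u a b Ur κ).h := by
        have b1 := abs_le.1 (hc.time x hx)
        have b2 := abs_le.1 (hc.time y₂ hy₂)
        rw [abs_le]; constructor <;> linarith [b1.1, b1.2, b2.1, b2.2]
      have k6 : 9 * κ * |⟪u, y₂⟫ - ⟪u, x⟫| ≤ 1 * (ω * (inFrame u a b Ur κ).h) := by
        gcongr; nlinarith
      have k7 : 0 < ω * (inFrame u a b Ur κ).h := by positivity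
      have k8 : 0 < σ * (inFrame u a b Ur κ).h := by positivity
      linarith

end layer

structure ExitOK (u : V) (ε ω σ C ρ' : ℝ) (fr : Frame V) (C0 : List V) (p : V) (τ : ℝ) :
    Prop where
  cl : ClOK u ε ω σ C fr (C0 ++ [p])
  τpos : 0 < τ
  τge : ρ' * (ω * fr.h / 2) ≤ τ
  τle : τ ≤ ω * fr.h / 2
  τtime : ⟪u, p⟫ + τ ≤ fr.tc + ω * fr.h / 2
  iso : ∀ y ∈ C0, τ ≤ ω * ‖prj u fr.d (p - y)‖

structure Near (u : V) (fr : Frame V) (p : V) (τ : ℝ) (y : V) : Prop where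
  time : ⟪u, y⟫ = ⟪u, p⟫ + τ
  fresh : prj u fr.d (y - p) ∈ fr.Uᗮ
  le : ‖prj u fr.d (y - p)‖ ≤ τ

theorem prj_tri (u d x y z : V) : prj u d (x - z) = prj u d (y - z) + prj u d (x - y) := by
  rw [← prj_add]; congr 1; abel

theorem tset {u : V} {ε ω σ C κ ρ ρ' : ℝ} {N : ℕ} {fr : Frame V} {C0 T : List V} {p x : V}
    {τ : ℝ} (hf : FrameOK u fr) (hl : Lev ε ω σ C κ ρ N) (he : ExitOK u ε ω σ C ρ' fr C0 p τ)
    (hT : ∀ y ∈ T, Near u fr p τ y)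
    (hT3 : T.Triplewise (Tri u fr.d (σ + 24 * ω) 0 (C + 24 * ω)))
    (hx : x = p ∨ x ∈ T)
    (hT2 : T.Pairwise fun y₁ y₂ => prj u fr.d (x - y₂) = 0 ∧ ε * τ ≤ ‖prj u fr.d (y₂ - y₁)‖) :
    ClW u ω (σ + 24 * ω) (C + 24 * ω) fr (C0 ++ [p] ++ T) ∧
    (C0 ++ [p] ++ T).Pairwise fun y₁ y₂ => Tri u fr.d (σ + 24 * ω) 0 (C + 24 * ω) y₁ y₂ x ∧
      ε * |⟪u, y₂⟫ - ⟪u, x⟫| ≤ 2 * (‖prj u fr.d (x - y₂)‖ +
        ‖prj u fr.d (y₂ - y₁)‖ + |⟪u, y₂ - y₁⟫|) := by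
  have a1 := hl.ωpos
  have a2 := hl.ωle
  have a3 := hl.εpos
  have a4 := hl.εle
  have a5 := hl.σge
  have a6 := hl.σle
  have a7 := hl.Cge
  have hh := hf.hpos
  have hτ := he.τpos
  have hτ' := he.τle
  have pm : p ∈ C0 ++ [p] := by simp
  have nr : ∀ z, (z = p ∨ z ∈ T) → ‖prj u fr.d (z - p)‖ ≤ τ ∧ ⟪u, p⟫ ≤ ⟪u, z⟫ ∧
      ⟪u, z⟫ ≤ ⟪u, p⟫ + τ := by
    rintro z (rfl | hz)
    · simp [prj, hτ.le]
    · exact ⟨(hT z hz).le, by rw [(hT z hz).time]; linarith, by rw [(hT z hz).time]⟩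
  have nt : ∀ z z', (z = p ∨ z ∈ T) → (z' = p ∨ z' ∈ T) → ε * |⟪u, z⟫ - ⟪u, z'⟫| ≤ ε * τ := by
    intro z z' hz hz'
    have b1 := nr z hz
    have b2 := nr z' hz'
    gcongr
    rw [abs_le]; constructor <;> linarith [b1.2.1, b1.2.2, b2.2.1, b2.2.2]
  have hετ : ε * τ ≤ τ := by nlinarith
  have far : ∀ y ∈ C0, ∀ z, (z = p ∨ z ∈ T) →
      ‖prj u fr.d (p - y)‖ ≤ ‖prj u fr.d (z - y)‖ + τ := by
    intro y _ z hz
    have e := prj_tri u fr.d p z y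
    rw [e]
    refine (norm_add_le _ _).trans ?_
    rw [prj_neg_norm u fr.d p z]
    linarith [(nr z hz).1]
  have tri0 := he.cl.tri
  rw [List.triplewise_append] at tri0
  have K1 : ∀ z, (z = p ∨ z ∈ T) →
      C0.Pairwise fun y₁ y₂ => Tri u fr.d (σ + 24 * ω) 0 (C + 24 * ω) y₁ y₂ z := by
    intro z hz
    refine (tri0.2.2.2 p (by simp)).imp_of_mem fun {y₁ y₂} _ hy₂ hT => ?_
    rw [tri_iff, prj_tri u fr.d z p y₂]
    have k := TriV.perturb (ε := 0) (T := ⟪u, z - y₂⟫) (e := prj u fr.d (z - p)) (by linarith)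
      (by linarith) le_rfl a1.le (by linarith) ?_ hT
    · exact k.mono le_rfl (by simp) le_rfl
    · have k1 := (nr z hz).1
      have k2 := he.iso y₂ hy₂
      have k3 : 0 ≤ ω * ‖prj u fr.d (y₂ - y₁)‖ := by positivity
      have k4 : 0 ≤ ω * |⟪u, y₂ - y₁⟫| := by positivity
      linarith
  have K2 : ∀ y₁ ∈ C0, ∀ y₂ z, (y₂ = p ∨ y₂ ∈ T) → (z = p ∨ z ∈ T) →
      Tri u fr.d (σ + 24 * ω) 0 (C + 24 * ω) y₁ y₂ z ∧ τ ≤ ‖prj u fr.d (y₂ - y₁)‖ := by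
    intro y₁ hy₁ y₂ z hy₂ hz
    have k1 := far y₁ hy₁ y₂ hy₂
    have k2 := he.iso y₁ hy₁
    have k0 := norm_nonneg (prj u fr.d (p - y₁))
    have k3 : ω * ‖prj u fr.d (p - y₁)‖ ≤ 1 / 96000 * ‖prj u fr.d (p - y₁)‖ := by gcongr
    refine ⟨TriV.of_small (by linarith) (by linarith) ?_, by linarith⟩
    have k4 : ‖prj u fr.d (z - y₂)‖ ≤ 2 * τ := by
      rw [prj_tri u fr.d z p y₂]
      refine (norm_add_le _ _).trans ?_
      rw [prj_neg_norm u fr.d p y₂]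
      linarith [(nr z hz).1, (nr y₂ hy₂).1]
    have k5 : 1 / 1000 * ‖prj u fr.d (y₂ - y₁)‖ ≤ (σ + 24 * ω) * ‖prj u fr.d (y₂ - y₁)‖ := by
      gcongr; linarith
    linarith
  have K3 : ∀ y₂ ∈ T, ∀ z, Tri u fr.d (σ + 24 * ω) 0 (C + 24 * ω) p y₂ z ∧
      |⟪u, y₂ - p⟫| = τ := by
    intro y₂ hy₂ z
    have e : |⟪u, y₂ - p⟫| = τ := by
      rw [inner_sub_right, (hT y₂ hy₂).time, add_sub_cancel_left, abs_of_pos hτ]
    refine ⟨TriV.of_time (by linarith) (by nlinarith) ?_, e⟩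
    rw [e]; exact (hT y₂ hy₂).le
  have K4 : ∀ z, (z = p ∨ z ∈ T) →
      (C0 ++ [p]).Pairwise fun y₁ y₂ => Tri u fr.d (σ + 24 * ω) 0 (C + 24 * ω) y₁ y₂ z := by
    intro z hz
    rw [List.pairwise_append]
    refine ⟨K1 z hz, by simp, fun y₁ hy₁ y₂ hy₂ => ?_⟩
    exact (K2 y₁ hy₁ y₂ z (Or.inl (by simpa using hy₂)) hz).1
  have FT : ∀ y ∈ T, fr.F u y = fr.F u p + prj u fr.d (y - p) := by
    intro y _
    rw [← fr.F_sub]; abel
  have cls : ∀ y ∈ C0 ++ [p] ++ T, ∃ y' ∈ C0 ++ [p], ‖prj u fr.d (y - y')‖ ≤ τ := by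
    intro y hy
    rcases List.mem_append.1 hy with hy | hy
    · exact ⟨y, hy, by simp [prj, hτ.le]⟩
    · exact ⟨p, pm, (hT y hy).le⟩
  have hw : ω * fr.h ≤ fr.h / 4 := by nlinarith
  refine ⟨⟨?_, ?_, ?_, ?_, ?_, ?_⟩, ?_⟩
  · intro y hy
    rcases List.mem_append.1 hy with hy | hy
    · exact he.cl.fresh y hy
    · rw [FT y hy]
      exact Submodule.add_mem _ (he.cl.fresh p pm) (hT y hy).fresh
  · intro y hy
    rcases List.mem_append.1 hy with hy | hy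
    · exact he.cl.time y hy
    · have b1 := abs_le.1 (he.cl.time p pm)
      have b2 := he.τtime
      rw [(hT y hy).time, abs_le]
      constructor <;> linarith [b1.1]
  · intro y hy
    obtain ⟨y', hy', k⟩ := cls y hy
    have k1 := he.cl.low y' hy'
    rw [← fr.F_sub] at k
    have k2 := norm_sub_norm_le (fr.F u y') (fr.F u y)
    rw [norm_sub_rev] at k2
    linarith
  · intro y hy
    obtain ⟨y', hy', k⟩ := cls y hy
    have k1 := he.cl.high y' hy'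
    rw [← fr.F_sub] at k
    have k2 := norm_sub_norm_le (fr.F u y) (fr.F u y')
    linarith
  · intro y hy z hz
    obtain ⟨y', hy', k⟩ := cls y hy
    obtain ⟨z', hz', k'⟩ := cls z hz
    have k1 := he.cl.tight y' hy' z' hz'
    rw [prj_tri u fr.d y y' z, prj_tri u fr.d y' z' z]
    refine (norm_add_le _ _).trans ?_
    have k2 := norm_add_le (prj u fr.d (z' - z)) (prj u fr.d (y' - z'))
    rw [prj_neg_norm u fr.d z' z] at k2
    linarith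
  · rw [List.triplewise_append]
    refine ⟨he.cl.tri.imp fun h => h.mono (by linarith) le_rfl (by linarith), hT3, ?_,
      fun z hz => K4 z (Or.inr hz)⟩
    intro y₁ hy₁
    refine List.pairwise_of_forall_mem_list fun y₂ hy₂ z hz => ?_
    rcases List.mem_append.1 hy₁ with hy₁ | hy₁
    · exact (K2 y₁ hy₁ y₂ z (Or.inr hy₂) (Or.inr hz)).1
    · rw [List.mem_singleton.1 hy₁]; exact (K3 y₂ hy₂ z).1
  · have nn : ∀ y₁ y₂ : V, 0 ≤ ‖prj u fr.d (x - y₂)‖ ∧ 0 ≤ ‖prj u fr.d (y₂ - y₁)‖ ∧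
        0 ≤ |⟪u, y₂ - y₁⟫| := fun y₁ y₂ => ⟨norm_nonneg _, norm_nonneg _, abs_nonneg _⟩
    have cross : ∀ y₁ ∈ C0, ∀ y₂, (y₂ = p ∨ y₂ ∈ T) →
        Tri u fr.d (σ + 24 * ω) 0 (C + 24 * ω) y₁ y₂ x ∧
        ε * |⟪u, y₂⟫ - ⟪u, x⟫| ≤ 2 * (‖prj u fr.d (x - y₂)‖ +
          ‖prj u fr.d (y₂ - y₁)‖ + |⟪u, y₂ - y₁⟫|) := by
      intro y₁ hy₁ y₂ hy₂
      have k := K2 y₁ hy₁ y₂ x hy₂ hx
      have k1 := nt y₂ x hy₂ hx
      have k2 := nn y₁ y₂
      exact ⟨k.1, by linarith [k.2, k2.1, k2.2.1, k2.2.2]⟩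
    rw [List.pairwise_append, List.pairwise_append]
    refine ⟨⟨(K1 x hx).imp_of_mem fun {y₁ y₂} _ hy₂ hT => ⟨hT, ?_⟩, by simp, ?_⟩, ?_, ?_⟩
    · have k1 := he.cl.steep y₂ (by simp [hy₂]) p pm
      rw [prj_neg_norm, inner_sub_right] at k1
      have k2 := nt p x (Or.inl rfl) hx
      have k3 := far y₂ hy₂ x hx
      have k4 := he.iso y₂ hy₂
      have k0 := norm_nonneg (prj u fr.d (p - y₂))
      have k5 : ω * ‖prj u fr.d (p - y₂)‖ ≤ 1 / 96000 * ‖prj u fr.d (p - y₂)‖ := by gcongr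
      have k6 : ε * |⟪u, y₂⟫ - ⟪u, x⟫| ≤ ε * (|⟪u, y₂⟫ - ⟪u, p⟫| + |⟪u, p⟫ - ⟪u, x⟫|) := by
        gcongr; exact abs_sub_le _ _ _
      have k7 := nn y₁ y₂
      linarith [k7.1, k7.2.1, k7.2.2]
    · intro y₁ hy₁ y₂ hy₂
      exact cross y₁ hy₁ y₂ (Or.inl (by simpa using hy₂))
    · refine hT2.imp_of_mem fun {y₁ y₂} _ hy₂ hT => ⟨?_, ?_⟩
      · refine TriV.of_small (by linarith) (by linarith) ?_
        rw [hT.1, norm_zero]; positivity
      · have k1 := nt y₂ x (Or.inr hy₂) hx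
        have k7 := nn y₁ y₂
        linarith [k7.1, k7.2.1, k7.2.2, hT.2]
    · intro y₁ hy₁ y₂ hy₂
      rcases List.mem_append.1 hy₁ with hy₁ | hy₁
      · exact cross y₁ hy₁ y₂ (Or.inr hy₂)
      · rw [List.mem_singleton.1 hy₁]
        have k := K3 y₂ hy₂ x
        have k1 := nt y₂ x (Or.inr hy₂) hx
        have k7 := nn p y₂
        exact ⟨k.1, by linarith [k7.1, k7.2.1, k.2]⟩

end Vale.Agent.P208
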