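import Vale.Agent.P208.Geo3

/-! Concrete moves, passing exits outwards, gains of slopes. -/

namespace Vale.Agent.P208

open scoped RealInnerProductSpace

variable {V : Type*} [NormedAddCommGroup V] [InnerProductSpace ℝ V]

/-- The closed cluster `CT` is ready for a move with endpoint `x`. -/
structure Ready (u : V) (ε ω σ C : ℝ) (fr : Frame V) (CT : List V) (x : V) : Prop where
  cl : ClW u ω (σ + 24 * ω) (C + 24 * ω) fr CT
  mem : x ∈ CT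
  pw : CT.Pairwise fun y₁ y₂ => Tri u fr.d (σ + 24 * ω) 0 (C + 24 * ω) y₁ y₂ x ∧
      ε * |⟪u, y₂⟫ - ⟪u, x⟫| ≤ 2 * (‖prj u fr.d (x - y₂)‖ +
        ‖prj u fr.d (y₂ - y₁)‖ + |⟪u, y₂ - y₁⟫|)

structure QOK (u : V) (ε B : ℝ) (fr : Frame V) (p q : V) (τ : ℝ) : Prop where
  time : ⟪u, q⟫ = ⟪u, p⟫ + τ
  fresh : prj u fr.d (q - p) ∈ fr.Uᗮ
  ge : ε * τ ≤ ‖prj u fr.d (q - p)‖
  le : ‖prj u fr.d (q - p)‖ ^ 2 ≤ B * τ ^ 2

section layer

variable {u : V} {ε ω σ C κ ρ ρ' : ℝ} {N : ℕ} {fr : Frame V} {v : V} {m : ℕ} {L : List V}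
  {a b : V} {Ur : Submodule ℝ V}

theorem LayOK.move_left (hf : FrameOK u fr) (hl : Lev ε ω σ C κ ρ N) (hm : m + 1 ≤ N)
    (h : LayOK u ε ω σ C κ ρ fr v m L a b Ur) {CT : List V} {x : V}
    (hr : Ready u ε ω σ C (inFrame u a b Ur κ) CT x) :
    ∃ Ur', LayOK u ε ω σ C κ ρ fr v (m + 1) (L ++ CT) a x Ur' := by
  have h0 := sub_pos.2 h.lt
  have ht := h.in_time hl (hr.cl.time x hr.mem)
  have hne : ⟪u, x⟫ - ⟪u, a⟫ ≠ 0 := by linarith [ht.1]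
  have hpos : 0 < ⟪u, x⟫ - ⟪u, a⟫ := by linarith [ht.1]
  refine h.close hf hl hm hr.cl hr.mem hr.pw
    (g := (⟪u, x⟫ - ⟪u, a⟫)⁻¹ • (inFrame u a b Ur κ).F u x)
    (Submodule.smul_mem _ _ (hr.cl.fresh x hr.mem)) ?_ (by simp [h.ha]) (by simp [hr.mem]) ?_
    (by simp) le_rfl (by linarith) (by linarith [ht.2]) ?_
  · rw [norm_smul, Real.norm_of_nonneg (by positivity), inv_mul_le_iff₀ hpos]
    have k := hr.cl.high x hr.mem
    have k2 : κ * ((⟪u, b⟫ - ⟪u, a⟫) / 3) ≤ κ * (⟪u, x⟫ - ⟪u, a⟫) :=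
      mul_le_mul_of_nonneg_left (by linarith [ht.1]) hl.κpos.le
    simp only [inFrame] at k ⊢
    linarith
  · have e := split_pt u a b x Ur κ
    have e2 : (⟪u, a⟫ - ⟪u, x⟫) • ((⟪u, x⟫ - ⟪u, a⟫)⁻¹ • (inFrame u a b Ur κ).F u x) =
        -(inFrame u a b Ur κ).F u x := by
      rw [smul_smul, ← neg_sub ⟪u, x⟫, neg_mul, mul_inv_cancel₀ hne, neg_one_smul]
    rw [smul_add, e2]
    conv_rhs => lhs; rw [e]
    module
  · have := mul_le_mul_of_nonneg_right hl.ρle h0.le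
    linarith [ht.1]

theorem LayOK.move_right (hf : FrameOK u fr) (hl : Lev ε ω σ C κ ρ N) (hm : m + 1 ≤ N)
    (h : LayOK u ε ω σ C κ ρ fr v m L a b Ur) {CT : List V} {x : V}
    (hr : Ready u ε ω σ C (inFrame u a b Ur κ) CT x) :
    ∃ Ur', LayOK u ε ω σ C κ ρ fr v (m + 1) (L ++ CT) x b Ur' := by
  have h0 := sub_pos.2 h.lt
  have ht := h.in_time hl (hr.cl.time x hr.mem)
  have hne : ⟪u, b⟫ - ⟪u, x⟫ ≠ 0 := by linarith [ht.2]
  have hpos : 0 < ⟪u, b⟫ - ⟪u, x⟫ := by linarith [ht.2]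
  refine h.close hf hl hm hr.cl hr.mem hr.pw
    (g := -((⟪u, b⟫ - ⟪u, x⟫)⁻¹ • (inFrame u a b Ur κ).F u x))
    (Submodule.neg_mem _ (Submodule.smul_mem _ _ (hr.cl.fresh x hr.mem))) ?_ (by simp [hr.mem])
    (by simp [h.hb]) (by simp) ?_ (by linarith [ht.1]) (by linarith) le_rfl ?_
  · rw [norm_neg, norm_smul, Real.norm_of_nonneg (by positivity), inv_mul_le_iff₀ hpos]
    have k := hr.cl.high x hr.mem
    have k2 : κ * ((⟪u, b⟫ - ⟪u, a⟫) / 3) ≤ κ * (⟪u, b⟫ - ⟪u, x⟫) :=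
      mul_le_mul_of_nonneg_left (by linarith [ht.2]) hl.κpos.le
    simp only [inFrame] at k ⊢
    linarith
  · have e := split_pt u a b x Ur κ
    have e1 : b = a + (⟪u, b⟫ - ⟪u, a⟫) • dir u a b := by rw [smul_dir h.lt]; abel
    have e2 : (⟪u, b⟫ - ⟪u, x⟫) • (-((⟪u, b⟫ - ⟪u, x⟫)⁻¹ • (inFrame u a b Ur κ).F u x)) =
        -(inFrame u a b Ur κ).F u x := by
      rw [smul_neg, smul_smul, mul_inv_cancel₀ hne, one_smul]
    rw [smul_add, e2]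
    conv_rhs => lhs; rw [e]
    conv_lhs => rw [e1]
    module
  · have := mul_le_mul_of_nonneg_right hl.ρle h0.le
    linarith [ht.2]

theorem LayOK.move_mid (hf : FrameOK u fr) (hl : Lev ε ω σ C κ ρ N) (hm : m + 1 ≤ N)
    (h : LayOK u ε ω σ C κ ρ fr v m L a b Ur) {CT : List V} {x : V} {τ : ℝ}
    (hr : Ready u ε ω σ C (inFrame u a b Ur κ) CT x) (hτ : 0 < τ)
    (hx' : x + τ • dir u a b ∈ CT) (hρ : ρ * (⟪u, b⟫ - ⟪u, a⟫) ≤ τ) :
    ∃ Ur', LayOK u ε ω σ C κ ρ fr v (m + 1) (L ++ CT) x (x + τ • dir u a b) Ur' := by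
  have h0 := sub_pos.2 h.lt
  have ht := h.in_time hl (hr.cl.time x hr.mem)
  have ht' := h.in_time hl (hr.cl.time _ hx')
  have e : ⟪u, x + τ • dir u a b⟫ = ⟪u, x⟫ + τ := by
    rw [inner_add_right, real_inner_smul_right, inner_dir h.lt, mul_one]
  refine h.close hf hl hm hr.cl hr.mem hr.pw (g := 0) (Submodule.zero_mem _)
    (by have := hl.κpos; rw [norm_zero]; positivity) (by simp [hr.mem]) (by simp [hx'])
    (by simp) ?_ (by linarith [ht.1]) (by linarith) (by linarith [ht'.2]) (by linarith)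
  rw [e]; simp

theorem LayOK.dd_fresh (hf : FrameOK u fr) (h : LayOK u ε ω σ C κ ρ fr v m L a b Ur) :
    dir u a b - fr.d ∈ fr.Uᗮ := by
  have e : dir u a b - fr.d = (dir u a b - (fr.d + ε • v)) + ε • v := by abel
  rw [e]
  exact Submodule.add_mem _ (h.r_fresh hf).1 (Submodule.smul_mem _ _ h.vU)

theorem LayOK.dd_mem (hf : FrameOK u fr) (h : LayOK u ε ω σ C κ ρ fr v m L a b Ur) :
    dir u a b - fr.d ∈ Ur := Ur.sub_mem h.dirmem (h.le hf.dU)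

theorem LayOK.dd_norm (hf : FrameOK u fr) (hl : Lev ε ω σ C κ ρ N) (hm : m ≤ N)
    (h : LayOK u ε ω σ C κ ρ fr v m L a b Ur) :
    ε ^ 2 ≤ ‖dir u a b - fr.d‖ ^ 2 ∧ ‖dir u a b - fr.d‖ ^ 2 ≤ 2 * ε ^ 2 := by
  have e : dir u a b - fr.d = (dir u a b - (fr.d + ε • v)) + ε • v := by abel
  have k := h.r_le hl hm
  have k0 := norm_nonneg (dir u a b - (fr.d + ε • v))
  have := hl.εpos
  rw [e, norm_add_sq_orth, norm_smul, h.hv, mul_one, Real.norm_eq_abs, sq_abs]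
  · constructor <;> nlinarith
  · rw [real_inner_smul_right, real_inner_comm, (h.r_fresh hf).2, mul_zero]

theorem LayOK.du_norm (hf : FrameOK u fr) (hl : Lev ε ω σ C κ ρ N) (hm : m ≤ N)
    (h : LayOK u ε ω σ C κ ρ fr v m L a b Ur) :
    ‖dir u a b - u‖ ^ 2 ≤ ‖fr.d - u‖ ^ 2 + 2 * ε ^ 2 := by
  have e : dir u a b - u = (fr.d - u) + (dir u a b - fr.d) := by abel
  rw [e, norm_add_sq_orth (inner_orth (fr.U.sub_mem hf.dU hf.uU) (h.dd_fresh hf))]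
  linarith [(h.dd_norm hf hl hm).2]

theorem LayOK.exit_up (hf : FrameOK u fr) (hl : Lev ε ω σ C κ ρ N) (hm : m + 1 ≤ N)
    (h : LayOK u ε ω σ C κ ρ fr v m L a b Ur) (hρ : ρ ≤ ρ' * (ω * κ / 2)) {C0 : List V} {p : V}
    {τ : ℝ} (he : ExitOK u ε ω σ C ρ' (inFrame u a b Ur κ) C0 p τ) :
    ExitOK u ε ω (σ + 48 * ω) (C + 48 * ω + 501 * ε ^ 2) (ρ ^ N) fr (L ++ C0) p τ ∧
      ρ * (⟪u, b⟫ - ⟪u, a⟫) ≤ τ ∧ ⟪u, a⟫ < ⟪u, p⟫ ∧ ⟪u, p⟫ + τ < ⟪u, b⟫ := by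
  have h0 := sub_pos.2 h.lt
  have a1 := hl.ωpos
  have hw : 0 < ω * fr.h / 2 := by have := hf.hpos; positivity
  have pm : p ∈ C0 ++ [p] := by simp
  have k1 : ρ * (⟪u, b⟫ - ⟪u, a⟫) ≤ τ := by
    have b1 := he.τge
    have b2 := mul_le_mul_of_nonneg_right hρ h0.le
    simp only [inFrame] at b1
    linarith
  have tp := h.in_time hl (he.cl.time p pm)
  have tq : |⟪u, p⟫ + τ - (inFrame u a b Ur κ).tc| ≤ ω * (inFrame u a b Ur κ).h / 2 := by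
    have b1 := abs_le.1 (he.cl.time p pm)
    have b2 := he.τtime
    have b3 := he.τpos
    rw [abs_le]; constructor <;> linarith [b1.1]
  have tq' := h.in_time hl tq
  have hlen := h.len_le
  have hb := abs_le.1 (h.time b h.hb)
  refine ⟨⟨?_, he.τpos, ?_, by linarith [tp.1, tq'.2], by linarith [tq'.2, hb.2], ?_⟩, k1,
    by linarith [tp.1], by linarith [tq'.2]⟩
  · rw [List.append_assoc]; exact h.merge hf hl hm he.cl
  · have b1 : ρ ^ N ≤ ρ ^ (m + 1) :=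
      pow_le_pow_of_le_one hl.ρpos.le (by linarith [hl.ρle]) hm
    have b2 := mul_le_mul_of_nonneg_left h.len hl.ρpos.le
    have b3 : ρ ^ N * (ω * fr.h / 2) ≤ ρ ^ (m + 1) * (ω * fr.h / 2) := by gcongr
    have b4 : 0 < ρ ^ (m + 1) * (ω * fr.h / 2) := by have := hl.ρpos; positivity
    rw [pow_succ] at b3 b4
    linarith
  · intro y hy
    rcases List.mem_append.1 hy with hy | hy
    · have e0 : ⟪u, (inFrame u a b Ur κ).F u p⟫ = 0 := inner_prj (inner_dir h.lt) _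
      have e : prj u fr.d (p - y) = prj u fr.d (a + (⟪u, p⟫ - ⟪u, a⟫) • dir u a b - y) +
          (inFrame u a b Ur κ).F u p := by
        rw [← prj_of_zero fr.d e0, ← prj_add]
        congr 1
        have := split_pt u a b p Ur κ
        rw [sub_add_eq_add_sub, ← this]
      have b1 : ‖(inFrame u a b Ur κ).F u p‖ ≤ ‖prj u fr.d (p - y)‖ := by
        refine (abs_le_of_sq_le_sq' ?_ (norm_nonneg _)).2
        rw [e, norm_add_sq_orth (inner_orth (prj_mem (h.le hf.dU)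
          (Ur.sub_mem (h.linemem _) (h.mem y hy))) (he.cl.fresh p pm))]
        exact le_add_of_nonneg_left (sq_nonneg _)
      have b2 := he.cl.low p pm
      have b3 := he.τle
      have b4 : ω * ((inFrame u a b Ur κ).h / 2) ≤ ω * ‖prj u fr.d (p - y)‖ := by
        gcongr; linarith
      linarith
    · have b0 : prj u (dir u a b) (p - y) ∈ Urᗮ := by
        have := (inFrame u a b Ur κ).F_sub u p y
        rw [show (inFrame u a b Ur κ).d = dir u a b from rfl] at this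
        rw [← this]
        exact Submodule.sub_mem _ (he.cl.fresh p pm) (he.cl.fresh y (by simp [hy]))
      have b1 : ‖prj u (dir u a b) (p - y)‖ ≤ ‖prj u fr.d (p - y)‖ := by
        refine (abs_le_of_sq_le_sq' ?_ (norm_nonneg _)).2
        rw [prj_change u (dir u a b) fr.d,
          norm_add_sq_orth (inner_orth (Ur.smul_mem _ (h.dd_mem hf)) b0)]
        exact le_add_of_nonneg_left (sq_nonneg _)
      refine (he.iso y hy).trans ?_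
      rw [show (inFrame u a b Ur κ).d = dir u a b from rfl]
      gcongr

theorem LayOK.q_up (hf : FrameOK u fr) (hl : Lev ε ω σ C κ ρ N) (hm : m ≤ N)
    (h : LayOK u ε ω σ C κ ρ fr v m L a b Ur) {p q : V} {τ B : ℝ} (hτ : 0 < τ)
    (h1 : ⟪u, q⟫ = ⟪u, p⟫ + τ) (h2 : prj u (dir u a b) (q - p) ∈ Urᗮ)
    (h3 : ‖prj u (dir u a b) (q - p)‖ ^ 2 ≤ B * τ ^ 2) :
    QOK u ε (B + 2 * ε ^ 2) fr p q τ := by
  have e : prj u fr.d (q - p) = τ • (dir u a b - fr.d) + prj u (dir u a b) (q - p) := by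
    rw [prj_change u (dir u a b) fr.d, inner_sub_right, h1, add_sub_cancel_left]
  have k := h.dd_norm hf hl hm
  have e2 : ‖prj u fr.d (q - p)‖ ^ 2 =
      τ ^ 2 * ‖dir u a b - fr.d‖ ^ 2 + ‖prj u (dir u a b) (q - p)‖ ^ 2 := by
    rw [e, norm_add_sq_orth (inner_orth (Ur.smul_mem _ (h.dd_mem hf)) h2), norm_smul,
      Real.norm_eq_abs, mul_pow, sq_abs]
  have k1 := mul_le_mul_of_nonneg_left k.1 (sq_nonneg τ)
  have k2 := mul_le_mul_of_nonneg_left k.2 (sq_nonneg τ)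
  refine ⟨h1, ?_, ?_, ?_⟩
  · rw [e]
    exact Submodule.add_mem _ (Submodule.smul_mem _ _ (h.dd_fresh hf))
      (Submodule.orthogonal_le h.le h2)
  · refine (abs_le_of_sq_le_sq' ?_ (norm_nonneg _)).2
    rw [e2]
    nlinarith [sq_nonneg ‖prj u (dir u a b) (q - p)‖]
  · rw [e2]; linarith

end layer

theorem near_par {u : V} {fr : Frame V} (hf : FrameOK u fr) (p : V) {τ : ℝ} (hτ : 0 < τ) :
    Near u fr p τ (p + τ • fr.d) ∧ prj u fr.d (p + τ • fr.d - p) = 0 := by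
  have e : prj u fr.d (p + τ • fr.d - p) = 0 := by
    rw [add_sub_cancel_left, prj_smul, prj_self hf.ud, smul_zero]
  refine ⟨⟨?_, ?_, ?_⟩, e⟩
  · rw [inner_add_right, real_inner_smul_right, hf.ud, mul_one]
  · rw [e]; exact Submodule.zero_mem _
  · rw [e, norm_zero]; exact hτ.le

theorem QOK.near {u : V} {ε B : ℝ} {fr : Frame V} {p q : V} {τ : ℝ} (h : QOK u ε B fr p q τ)
    (hτ : 0 < τ) (hB : B ≤ 1) : Near u fr p τ q := by
  refine ⟨h.time, h.fresh, (abs_le_of_sq_le_sq' ?_ hτ.le).2⟩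
  have := h.le
  nlinarith [sq_nonneg τ]

section ready

variable {u : V} {ε ω σ C κ ρ ρ' : ℝ} {N : ℕ} {fr : Frame V} {C0 : List V} {p q : V} {τ : ℝ}

theorem ready_one (hf : FrameOK u fr) (hl : Lev ε ω σ C κ ρ N)
    (he : ExitOK u ε ω σ C ρ' fr C0 p τ) (hq : Near u fr p τ q) {x : V} (hx : x = p ∨ x = q) :
    Ready u ε ω σ C fr (C0 ++ [p] ++ [q]) x := by
  have := tset (T := [q]) (x := x) hf hl he (by simpa using hq) (by simp) (by simpa using hx)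
    (by simp)
  exact ⟨this.1, by rcases hx with rfl | rfl <;> simp, this.2⟩

theorem ready_two (hf : FrameOK u fr) (hl : Lev ε ω σ C κ ρ N)
    (he : ExitOK u ε ω σ C ρ' fr C0 p τ) {B : ℝ} (hq : QOK u ε B fr p q τ) (hB : B ≤ 1) {x : V}
    (hx : x = p ∨ x = p + τ • fr.d) :
    Ready u ε ω σ C fr (C0 ++ [p] ++ [q] ++ [p + τ • fr.d]) x := by
  have hn := near_par hf p he.τpos
  have := tset (T := [q, p + τ • fr.d]) (x := x) hf hl he ?_ (by simp) ?_ ?_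
  · have e : C0 ++ [p] ++ [q] ++ [p + τ • fr.d] = C0 ++ [p] ++ [q, p + τ • fr.d] := by simp
    rw [e]
    exact ⟨this.1, by rcases hx with rfl | rfl <;> simp, this.2⟩
  · intro y hy
    simp only [List.mem_cons, List.not_mem_nil, or_false] at hy
    rcases hy with rfl | rfl
    · exact hq.near he.τpos hB
    · exact hn.1
  · rcases hx with rfl | rfl <;> simp
  · rw [List.pairwise_pair]
    constructor
    · rcases hx with rfl | rfl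
      · rw [← norm_eq_zero, prj_neg_norm, hn.2, norm_zero]
      · simp [prj]
    · rw [prj_tri u fr.d _ p q, hn.2, add_zero, prj_neg_norm]
      exact hq.ge

end ready

/-! ### Slopes -/

variable {E : Type*} [NormedAddCommGroup E] [InnerProductSpace ℝ E]

/-- Slope of the answer along a pair. -/
noncomputable def slp (u : V) (α : V → E) (a b : V) : E := (⟪u, b⟫ - ⟪u, a⟫)⁻¹ • (α b - α a)

theorem smul_slp {u a b : V} (α : V → E) (h : ⟪u, a⟫ < ⟪u, b⟫) :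
    (⟪u, b⟫ - ⟪u, a⟫) • slp u α a b = α b - α a := by
  rw [slp, smul_smul, mul_inv_cancel₀ (by linarith), one_smul]

theorem three_gain {u a p q b : V} (α : V → E) {τ ρ η : ℝ} (h1 : ⟪u, a⟫ < ⟪u, p⟫)
    (h2 : ⟪u, q⟫ = ⟪u, p⟫ + τ) (h3 : ⟪u, p⟫ + τ < ⟪u, b⟫) (hτ : 0 < τ) (hη : 0 ≤ η)
    (hρ : ρ * (⟪u, b⟫ - ⟪u, a⟫) ≤ τ) :
    ‖slp u α a b‖ ^ 2 + η ^ 2 * ρ ≤ ‖slp u α a p‖ ^ 2 ∨
    ‖slp u α a b‖ ^ 2 + η ^ 2 * ρ ≤ ‖slp u α p q‖ ^ 2 ∨
    ‖slp u α a b‖ ^ 2 + η ^ 2 * ρ ≤ ‖slp u α q b‖ ^ 2 ∨ ‖slp u α p q - slp u α a b‖ ≤ η := by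
  by_contra hc
  push Not at hc
  obtain ⟨c1, c2, c3, c4⟩ := hc
  have k := gain_three (s₁ := slp u α a p) (s₂ := slp u α p q) (s₃ := slp u α q b)
    (φ := slp u α a b) (l₁ := ⟪u, p⟫ - ⟪u, a⟫) (l₂ := ⟪u, q⟫ - ⟪u, p⟫) (l₃ := ⟪u, b⟫ - ⟪u, q⟫)
    (by linarith) (by linarith) (by linarith) ?_ c1.le c2.le c3.le
  · have e1 : ⟪u, q⟫ - ⟪u, p⟫ = τ := by linarith
    have e2 : ⟪u, p⟫ - ⟪u, a⟫ + (⟪u, q⟫ - ⟪u, p⟫) + (⟪u, b⟫ - ⟪u, q⟫) = ⟪u, b⟫ - ⟪u, a⟫ := by ring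
    rw [e2, e1] at k
    have k1 := mul_le_mul_of_nonneg_left hρ (sq_nonneg η)
    have k2 : η ^ 2 < ‖slp u α p q - slp u α a b‖ ^ 2 := by gcongr
    have k3 := mul_lt_mul_of_pos_left k2 hτ
    linarith
  · rw [smul_slp α h1, smul_slp α (by linarith), smul_slp α (by linarith),
      show ⟪u, p⟫ - ⟪u, a⟫ + (⟪u, q⟫ - ⟪u, p⟫) + (⟪u, b⟫ - ⟪u, q⟫) = ⟪u, b⟫ - ⟪u, a⟫ by ring,
      smul_slp α (by linarith)]
    abel

theorem four_gain {u a p q b : V} (α : V → E) {τ ρ η : ℝ} (h1 : ⟪u, a⟫ < ⟪u, p⟫)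
    (h2 : ⟪u, q⟫ = ⟪u, p⟫ + τ) (h3 : ⟪u, p⟫ + τ < ⟪u, b⟫) (hτ : 0 < τ) (hρ0 : 0 ≤ ρ)
    (hρ : ρ * (⟪u, b⟫ - ⟪u, a⟫) ≤ τ) :
    ‖slp u α a b‖ ^ 2 + η ^ 2 * ρ ≤ ‖slp u α a p‖ ^ 2 ∨
    ‖slp u α a b‖ ^ 2 + η ^ 2 * ρ ≤ ‖slp u α p b‖ ^ 2 ∨
    ‖slp u α a b‖ ^ 2 + η ^ 2 * ρ ≤ ‖slp u α a q‖ ^ 2 ∨
    ‖slp u α a b‖ ^ 2 + η ^ 2 * ρ ≤ ‖slp u α q b‖ ^ 2 ∨
    |⟪slp u α a b, slp u α p q - slp u α a b⟫| ≤ η ^ 2 := by
  by_contra hc
  push Not at hc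
  obtain ⟨c1, c2, c3, c4, c5⟩ := hc
  have key : ∀ x : V, ⟪u, a⟫ < ⟪u, x⟫ → ⟪u, x⟫ < ⟪u, b⟫ →
      ‖slp u α a x‖ ^ 2 < ‖slp u α a b‖ ^ 2 + η ^ 2 * ρ →
      ‖slp u α x b‖ ^ 2 < ‖slp u α a b‖ ^ 2 + η ^ 2 * ρ →
      |⟪slp u α a b, (α x - α a) - (⟪u, x⟫ - ⟪u, a⟫) • slp u α a b⟫| ≤ η ^ 2 * τ / 2 := by
    intro x x1 x2 d1 d2
    have k := gain_two (s₁ := slp u α a x) (s₂ := slp u α x b) (φ := slp u α a b)
      (l₁ := ⟪u, x⟫ - ⟪u, a⟫) (l₂ := ⟪u, b⟫ - ⟪u, x⟫) (by linarith) (by linarith)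
      (by positivity) ?_ d1.le d2.le
    · rw [smul_slp α x1] at k
      have k1 := mul_le_mul_of_nonneg_left hρ (sq_nonneg η)
      linarith
    · rw [smul_slp α x1, smul_slp α x2,
        show ⟪u, x⟫ - ⟪u, a⟫ + (⟪u, b⟫ - ⟪u, x⟫) = ⟪u, b⟫ - ⟪u, a⟫ by ring,
        smul_slp α (by linarith)]
      abel
  have k1 := key p h1 (by linarith) c1 c2
  have k2 := key q (by linarith) (by linarith) c3 c4
  have e : τ • (slp u α p q - slp u α a b) =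
      ((α q - α a) - (⟪u, q⟫ - ⟪u, a⟫) • slp u α a b) -
        ((α p - α a) - (⟪u, p⟫ - ⟪u, a⟫) • slp u α a b) := by
    have := smul_slp (u := u) (a := p) (b := q) α (by linarith)
    rw [h2, add_sub_cancel_left] at this
    rw [smul_sub, this, h2]
    module
  have e2 : τ * |⟪slp u α a b, slp u α p q - slp u α a b⟫| ≤ η ^ 2 * τ := by
    rw [← abs_of_pos hτ, ← abs_mul, ← real_inner_smul_right, e, inner_sub_right, abs_of_pos hτ]
    have := abs_sub ⟪slp u α a b, (α q - α a) - (⟪u, q⟫ - ⟪u, a⟫) • slp u α a b⟫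
      ⟪slp u α a b, (α p - α a) - (⟪u, p⟫ - ⟪u, a⟫) • slp u α a b⟫
    linarith
  have := mul_lt_mul_of_pos_left c5 hτ
  linarith

end Vale.Agent.P208
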