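import Vale.Agent.P208.Basic
import Vale.Agent.P208.Aux37

/-! Padding a configuration. -/

namespace Vale.Agent.P208

open Finset

namespace PadAux

theorem seg_lower {V : Type*} [NormedAddCommGroup V] [InnerProductSpace ℝ V] (A A' : V)
    (h : ∀ t : ℝ, 0 < t → t < 1 → (1 - t) • A + t • A' ≠ 0) :
    ∃ c : ℝ, 0 < c ∧ ∀ t : ℝ, 0 ≤ t → t ≤ 1 → c * min t (1 - t) ≤ ‖(1 - t) • A + t • A'‖ := by
  by_cases hA : A = 0
  · have hA' : A' ≠ 0 := by
      intro h0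
      exact h (1 / 2) (by norm_num) (by norm_num) (by simp [hA, h0])
    refine ⟨‖A'‖, norm_pos_iff.2 hA', fun t h0 _ => ?_⟩
    rw [hA, smul_zero, zero_add, norm_smul, Real.norm_of_nonneg h0, mul_comm]
    exact mul_le_mul_of_nonneg_right (min_le_left _ _) (norm_nonneg _)
  by_cases hA' : A' = 0
  · refine ⟨‖A‖, norm_pos_iff.2 hA, fun t _ h1 => ?_⟩
    rw [hA', smul_zero, add_zero, norm_smul, Real.norm_of_nonneg (by linarith), mul_comm]
    exact mul_le_mul_of_nonneg_right (min_le_right _ _) (norm_nonneg _)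
  have hc : ContinuousOn (fun t : ℝ => ‖(1 - t) • A + t • A'‖) (Set.Icc 0 1) := by
    fun_prop
  obtain ⟨t₀, ht₀, hmin⟩ := isCompact_Icc.exists_isMinOn (Set.nonempty_Icc.2 zero_le_one) hc
  have hne : (1 - t₀) • A + t₀ • A' ≠ 0 := by
    rcases eq_or_lt_of_le ht₀.1 with h0 | h0
    · rw [← h0]; simpa using hA
    rcases eq_or_lt_of_le ht₀.2 with h1 | h1
    · rw [h1]; simpa using hA'
    exact h t₀ h0 h1
  refine ⟨_, norm_pos_iff.2 hne, fun t h0 h1 => ?_⟩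
  have h2 : ‖(1 - t₀) • A + t₀ • A'‖ ≤ ‖(1 - t) • A + t • A'‖ := hmin ⟨h0, h1⟩
  have h3 : min t (1 - t) ≤ 1 := (min_le_left _ _).trans h1
  have h4 := mul_le_mul_of_nonneg_left h3 (norm_nonneg ((1 - t₀) • A + t₀ • A'))
  linarith

theorem cell_ne {V : Type*} [NormedAddCommGroup V] [InnerProductSpace ℝ V]
    {K : List V} {P Q a b a' b' : V}
    (h : (a ∈ K ∧ b = a) ∨ (a = P ∧ b = Q ∧ ∀ θ : ℝ, 0 < θ → θ < 1 → P + θ • (Q - P) ∉ K))
    (h' : (a' ∈ K ∧ b' = a') ∨ (a' = P ∧ b' = Q ∧ ∀ θ : ℝ, 0 < θ → θ < 1 → P + θ • (Q - P) ∉ K))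
    (hne : a ≠ a' ∨ b ≠ b') (t : ℝ) (h0 : 0 < t) (h1 : t < 1) :
    (1 - t) • (a - a') + t • (b - b') ≠ 0 := by
  intro hz
  rcases h with ⟨ha, rfl⟩ | ⟨rfl, rfl, hs⟩
  · rcases h' with ⟨_, rfl⟩ | ⟨rfl, rfl, hs⟩
    · have : b - b' = 0 := by
        rw [← hz]; module
      have h2 := sub_eq_zero.1 this
      rcases hne with h | h <;> exact h h2
    · apply hs t h0 h1
      have : a' + t • (b' - a') = b := by
        have h3 : a' + t • (b' - a') = b - ((1 - t) • (b - a') + t • (b - b')) := by module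
        rw [h3, hz, sub_zero]
      rwa [this]
  · rcases h' with ⟨ha', rfl⟩ | ⟨rfl, rfl, _⟩
    · apply hs t h0 h1
      have : a + t • (b - a) = b' := by
        have h3 : a + t • (b - a) = b' + ((1 - t) • (a - b') + t • (b - b')) := by module
        rw [h3, hz, add_zero]
      rwa [this]
    · rcases hne with h | h <;> exact h rfl

end PadAux

open PadAux Aux37

theorem exists_padded {V E : Type*} [NormedAddCommGroup V] [InnerProductSpace ℝ V]
    [NormedAddCommGroup E] {Λ : ℕ} {D : ℝ} {M : ℕ} {Γ : Set (ℕ → V)} {δ : ℝ}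
    (h : IsCfg E Λ D M Γ δ) :
    ∃ (M' : ℕ) (Γ' : Set (ℕ → V)) (B c : ℝ) (P : ℕ),
      IsCfg E Λ D M' Γ' δ ∧ IsPadded M' Γ' B c P := by
  classical
  -- the bound
  obtain ⟨B, hB1, hB⟩ : ∃ B : ℝ, 1 ≤ B ∧ ∀ γ ∈ Γ, ∀ i, ‖γ i‖ ≤ B := by
    have hfin : ((fun p : (ℕ → V) × ℕ => ‖p.1 p.2‖) '' (Γ ×ˢ Set.Iio M)).Finite :=
      (h.fin.prod (Set.finite_Iio M)).image _
    obtain ⟨b, hb⟩ := hfin.bddAbove
    refine ⟨max 1 b, le_max_left _ _, fun γ hγ i => ?_⟩
    by_cases hi : i < M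
    · exact (hb ⟨(γ, i), ⟨hγ, hi⟩, rfl⟩).trans (le_max_right _ _)
    · rw [h.stop γ hγ i (not_lt.1 hi), norm_zero]
      exact zero_le_one.trans (le_max_left _ _)
  -- the separation constant
  obtain ⟨c, hc, hsep⟩ := fin_min ((Set.finite_Iio M).prod (h.fin.prod h.fin))
    (fun s c => ((s.2.1 s.1 ≠ s.2.2 s.1 ∨ s.2.1 (s.1 + 1) ≠ s.2.2 (s.1 + 1)) →
      ∀ θ : ℝ, 0 ≤ θ → θ ≤ 1 → c * min θ (1 - θ) ≤
        ‖(1 - θ) • (s.2.1 s.1 - s.2.2 s.1) + θ • (s.2.1 (s.1 + 1) - s.2.2 (s.1 + 1))‖) ∧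
      (s.2.1 s.1 ≠ s.2.2 s.1 → c ≤ ‖s.2.1 s.1 - s.2.2 s.1‖))
    (by
      rintro s c c' ⟨h1, h2⟩ _ hle
      refine ⟨fun hne θ h0 h3 => le_trans ?_ (h1 hne θ h0 h3), fun hne => hle.trans (h2 hne)⟩
      exact mul_le_mul_of_nonneg_right hle (le_min h0 (by linarith)))
    (by
      rintro ⟨i, γ, γ'⟩ ⟨hi, hγ, hγ'⟩
      obtain ⟨K, P, Q, _, hK⟩ := h.cells i hi
      by_cases hne : γ i ≠ γ' i ∨ γ (i + 1) ≠ γ' (i + 1)
      · obtain ⟨c, hc, hs⟩ := seg_lower _ _ (cell_ne (hK γ hγ) (hK γ' hγ') hne)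
        by_cases hne' : γ i = γ' i
        · exact ⟨c, hc, fun _ => hs, fun h' => absurd hne' h'⟩
        · have hp : 0 < ‖γ i - γ' i‖ := norm_pos_iff.2 (sub_ne_zero.2 hne')
          refine ⟨min c ‖γ i - γ' i‖, lt_min hc hp, fun _ θ h0 h1 => le_trans ?_ (hs θ h0 h1),
            fun _ => min_le_right _ _⟩
          exact mul_le_mul_of_nonneg_right (min_le_left _ _) (le_min h0 (by linarith))
      · exact ⟨1, one_pos, fun h' => absurd h' hne, fun h' => absurd (Or.inl h') hne⟩)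
  obtain ⟨P, hP⟩ := exists_nat_ge (64 * B / c + 1)
  have hBc : 0 < 64 * B / c := by
    have : 0 < B := by linarith
    positivity
  have hP1 : 1 ≤ P := by
    have : (1 : ℝ) ≤ P := by linarith
    exact_mod_cast this
  have hz : ∀ γ ∈ Γ, ∀ i, (i ≤ P ∨ P + M ≤ i) → γ (i - P) = 0 := by
    intro γ hγ i hi
    rcases hi with hi | hi
    · rw [Nat.sub_eq_zero_of_le hi]; exact h.start γ hγ
    · exact h.stop γ hγ _ (by omega)
  refine ⟨P + M + P, (fun (γ : ℕ → V) (i : ℕ) => γ (i - P)) '' Γ, B, c, P, ?_, ?_⟩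
  · refine ⟨h.fin.image _, ⟨_, h.zero_mem, rfl⟩, ?_, ?_, h.pos, ?_, ?_⟩
    · rintro _ ⟨γ, hγ, rfl⟩
      exact hz γ hγ 0 (Or.inl (Nat.zero_le _))
    · rintro _ ⟨γ, hγ, rfl⟩ i hi
      exact hz γ hγ i (Or.inr (by omega))
    · intro i _
      by_cases hm : P ≤ i ∧ i < P + M
      · obtain ⟨K, P', Q', hK, hc⟩ := h.cells (i - P) (by omega)
        refine ⟨K, P', Q', hK, ?_⟩
        rintro _ ⟨γ, hγ, rfl⟩
        have e : i + 1 - P = i - P + 1 := by omega
        simp only [e]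
        exact hc γ hγ
      · refine ⟨[], 0, 0, ?_, ?_⟩
        · intro r _ S hS _ _
          have : S = ∅ := eq_empty_of_forall_notMem fun x hx => by simpa using hS x hx
          simp [this]
        · rintro _ ⟨γ, hγ, rfl⟩
          exact Or.inr ⟨hz γ hγ i (by omega), hz γ hγ (i + 1) (by omega), by simp⟩
    · intro F h1 h2
      refine h.rigid (fun i => F (P + i)) ?_ ?_
      · intro i hi γ hγ γ' hγ'
        have := h1 (P + i) (by omega) _ ⟨γ, hγ, rfl⟩ _ ⟨γ', hγ', rfl⟩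
        simpa only [Nat.add_sub_cancel_left] using this
      · intro γ hγ
        have h3 := h2 _ ⟨γ, hγ, rfl⟩
        have h4 := sub_le (fun i => ‖F (i + 1) (γ (i + 1 - P)) - F i (γ (i - P))‖ ^ 2)
          (fun _ => sq_nonneg _) P M P
        have h5 := le_sub (fun i => ‖γ (i + 1 - P) - γ (i - P)‖ ^ 2) P M P 0
          (fun i hi => by
            rw [hz γ hγ (i + 1) (by omega), hz γ hγ i (by omega)]; simp)
          (fun i hi => by
            rw [hz γ hγ (P + M + i + 1) (by omega), hz γ hγ (P + M + i) (by omega)]; simp)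
        simp only [add_assoc P, Nat.add_sub_cancel_left, mul_zero, add_zero] at h3 h4 h5
        have h6 := mul_le_mul_of_nonneg_left h5 (sq_nonneg D)
        linarith
  · refine ⟨by omega, hB1, hc, ?_, ?_, ?_, ?_, hP, ?_⟩
    · rintro _ ⟨γ, hγ, rfl⟩ i
      exact hB γ hγ _
    · rintro i _ _ ⟨γ, hγ, rfl⟩ _ ⟨γ', hγ', rfl⟩ hne
      by_cases hm : P ≤ i ∧ i < P + M
      · have e : i + 1 - P = i - P + 1 := by omega
        simp only [e] at hne ⊢
        exact (hsep (i - P, γ, γ') ⟨show i - P < M by omega, hγ, hγ'⟩).1 hne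
      · exfalso
        simp only [hz γ hγ i (by omega), hz γ hγ (i + 1) (by omega), hz γ' hγ' i (by omega),
          hz γ' hγ' (i + 1) (by omega)] at hne
        simp at hne
    · rintro i _ _ ⟨γ, hγ, rfl⟩ _ ⟨γ', hγ', rfl⟩ _ _ hne
      by_cases hm : P ≤ i ∧ i < P + M
      · exact (hsep (i - P, γ, γ') ⟨show i - P < M by omega, hγ, hγ'⟩).2 hne
      · exfalso
        simp only [hz γ hγ i (by omega), hz γ' hγ' i (by omega)] at hne
        simp at hne
    · rintro _ ⟨γ, hγ, rfl⟩ i hi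
      exact hz γ hγ i (by omega)
    · have h1 : 64 * B / c ≤ ((P + M + P : ℕ) : ℝ) := by
        push_cast
        have : (0 : ℝ) ≤ M := Nat.cast_nonneg _
        have : (0 : ℝ) ≤ P := Nat.cast_nonneg _
        linarith
      rw [div_le_iff₀ hc] at h1
      linarith

end Vale.Agent.P208
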