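import Vale.Agent.P208.Basic

namespace Vale.Agent.P208

open Finset

theorem mk_congr {V : Type*} [NormedAddCommGroup V] [InnerProductSpace ℝ V] (u : V) (N n : ℕ)
    {c c' : ℕ → V} (h : ∀ l < N, c l = c' l) : mk u N n c = mk u N n c' := by
  have : (fun l : Fin N => c l) = fun l : Fin N => c' l := funext fun l => h l l.2
  simp only [mk, this]

theorem tower_finite {V : Type*} [NormedAddCommGroup V] [InnerProductSpace ℝ V]
    {Γ : Set (ℕ → V)} (hΓ : Γ.Finite) (u : V) (s : ℝ) (M N : ℕ) :
    (tower u s M N Γ).Finite := by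
  have h1 : ((Set.Iic (M ^ N)) ×ˢ (Set.pi Set.univ (fun _ : Fin N => Γ))).Finite :=
    (Set.finite_Iic _).prod (Set.Finite.pi fun _ => hΓ)
  refine (h1.image (fun p => mk u N p.1
    (fun l => if h : l < N then comp s M l p.1 (p.2 ⟨l, h⟩) else 0))).subset ?_
  rintro x ⟨n, hn, g, hg, rfl⟩
  refine ⟨(n, fun l => g l), ⟨hn, fun l _ => hg l⟩, mk_congr _ _ _ fun l hl => ?_⟩
  simp [hl]

theorem comp_zero {V : Type*} [NormedAddCommGroup V] [InnerProductSpace ℝ V] (s : ℝ)
    (M l n : ℕ) : comp s M l n (fun _ => (0 : V)) = 0 := by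
  simp [comp]

theorem comp_cell {V : Type*} [NormedAddCommGroup V] [InnerProductSpace ℝ V] (s : ℝ) {M : ℕ}
    (hM : 0 < M) (l a r : ℕ) (hr : r ≤ M ^ l) {γ : ℕ → V} (h0 : γ 0 = 0) (h1 : γ M = 0) :
    comp s M l (a * M ^ l + r) γ =
      s • (((M : ℝ) ^ l - r) • γ (a % M) + (r : ℝ) • γ (a % M + 1)) := by
  have hp : 0 < M ^ l := pow_pos hM l
  rcases Nat.eq_or_lt_of_le hr with rfl | hr'
  · have e1 : (a * M ^ l + M ^ l) % M ^ l = 0 := by simp
    have e2 : (a * M ^ l + M ^ l) / M ^ l = a + 1 := by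
      rw [← add_one_mul, Nat.mul_div_cancel _ hp]
    have e3 : γ ((a + 1) % M) = γ (a % M + 1) := by
      have := Nat.mod_lt a hM
      rw [Nat.add_mod]
      rcases Nat.eq_or_lt_of_le (Nat.succ_le_of_lt this) with h | h
      · have h' : a % M + 1 = M := h
        have : (a % M + 1 % M) % M = 0 := by
          rw [← Nat.add_mod, ← Nat.mod_add_mod, h', Nat.mod_self]
        rw [this, h', h0, h1]
      · have h' : a % M + 1 < M := h
        rw [← Nat.add_mod, ← Nat.mod_add_mod, Nat.mod_eq_of_lt h']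
    simp only [comp, e1, e2, e3]
    simp
  · have e1 : (a * M ^ l + r) % M ^ l = r := by
      rw [add_comm, Nat.add_mul_mod_self_right, Nat.mod_eq_of_lt hr']
    have e2 : (a * M ^ l + r) / M ^ l = a := by
      rw [add_comm, Nat.add_mul_div_right _ _ hp, Nat.div_eq_of_lt hr', zero_add]
    simp only [comp, e1, e2]
    rw [Nat.cast_sub hr]
    simp

theorem sum_norm_sub_mean {E : Type*} [NormedAddCommGroup E] [InnerProductSpace ℝ E] (M : ℕ)
    (Δ : ℕ → E) (ω : E) (h : ∑ i ∈ range M, Δ i = (M : ℝ) • ω) :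
    ∑ i ∈ range M, ‖Δ i - ω‖ ^ 2 = ∑ i ∈ range M, ‖Δ i‖ ^ 2 - M * ‖ω‖ ^ 2 := by
  simp only [norm_sub_sq_real, Finset.sum_add_distrib, Finset.sum_sub_distrib, ← Finset.mul_sum]
  rw [← sum_inner, h, inner_smul_left, real_inner_self_eq_norm_sq]
  simp
  ring

theorem tower_noEmb {V E : Type*} [NormedAddCommGroup V] [InnerProductSpace ℝ V]
    [NormedAddCommGroup E] [InnerProductSpace ℝ E] {Λ : ℕ} {D : ℝ} {M : ℕ} {Γ : Set (ℕ → V)}
    {δ : ℝ} (hD : 1 ≤ D) (h : IsCfg E Λ D M Γ δ) (hM : 0 < M) {u : V} (hu : ‖u‖ = 1) {s : ℝ}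
    (hs : 0 < s) {N : ℕ} (hN : D ^ 2 < N * (δ * s ^ 2 / M)) :
    NoEmb E D (tower u s M N Γ) := by
  classical
  intro f hf
  have hM' : (0 : ℝ) < M := by exact_mod_cast hM
  let pt : ℕ → (ℕ → ℕ → V) → PiLp 2 (fun _ : Fin (N + 1) => V) :=
    fun n g => mk u N n (fun l => comp s M l n (g l))
  have hpt : ∀ n g, n ≤ M ^ N → (∀ l, g l ∈ Γ) → pt n g ∈ tower u s M N Γ :=
    fun n g hn hg => ⟨n, hn, g, hg, rfl⟩
  set de := δ * s ^ 2 / M with hde
  have claim : ∀ t j, j + t = N → ∃ (a : ℕ) (g : ℕ → ℕ → V), (a + 1) * M ^ j ≤ M ^ N ∧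
      (∀ l, g l ∈ Γ) ∧ (∀ l < j, g l = fun _ => 0) ∧
      (t * de - D ^ 2) * ((M : ℝ) ^ j) ^ 2 ≤
        ‖f (pt ((a + 1) * M ^ j) g) - f (pt (a * M ^ j) g)‖ ^ 2 -
          D ^ 2 * ‖pt ((a + 1) * M ^ j) g - pt (a * M ^ j) g‖ ^ 2 := by
    intro t
    induction t with
    | zero =>
      intro j hj
      obtain rfl : j = N := by omega
      refine ⟨0, fun _ _ => 0, by simp, fun _ => h.zero_mem, fun _ _ => rfl, ?_⟩
      simp only [pt, norm_mk_sub_sq hu, comp_zero]
      simp
    | succ t ih =>
      intro j hj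
      obtain ⟨a, g, a1, a2, a3, a4⟩ := ih (j + 1) (by omega)
      have hjN : j < N := by omega
      let n : ℕ → ℕ := fun i => (a * M + i) * M ^ j
      let c : ℕ → ℕ → V := fun i l => comp s M l (n i) (g l)
      let q : ℝ := s * (M : ℝ) ^ j
      have hq : 0 < q := by positivity
      let z : ℕ → V → PiLp 2 (fun _ : Fin (N + 1) => V) :=
        fun i v => mk u N (n i) (Function.update (c i) j (q • v))
      have hn : ∀ i ≤ M, n i ≤ M ^ N := by
        intro i hi
        refine le_trans ?_ a1
        simp only [n]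
        rw [pow_succ', ← mul_assoc, add_one_mul a M]
        exact Nat.mul_le_mul_right _ (by omega)
      have hz : ∀ γ ∈ Γ, ∀ i ≤ M, z i (γ i) = pt (n i) (Function.update g j γ) := by
        intro γ hγ i hi
        refine mk_congr _ _ _ fun l _ => ?_
        by_cases hl : l = j
        · subst hl
          simp only [Function.update_self]
          have := comp_cell s hM l (a * M + i) 0 (Nat.zero_le _) (h.start γ hγ)
            (h.stop γ hγ M le_rfl)
          rw [add_zero] at this
          simp only [n]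
          rw [this]
          have e : γ ((a * M + i) % M) = γ i := by
            rw [add_comm, Nat.add_mul_mod_self_right]
            rcases Nat.eq_or_lt_of_le hi with rfl | hi'
            · rw [Nat.mod_self, h.start γ hγ, h.stop γ hγ i le_rfl]
            · rw [Nat.mod_eq_of_lt hi']
          rw [e]
          simp [q, smul_smul]
        · simp only [Function.update_of_ne hl, c]
      have hup : ∀ γ ∈ Γ, ∀ l, Function.update g j γ l ∈ Γ := by
        intro γ hγ l
        by_cases hl : l = j
        · subst hl; simpa using hγ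
        · simpa [Function.update_of_ne hl] using a2 l
      have hzt : ∀ γ ∈ Γ, ∀ i ≤ M, z i (γ i) ∈ tower u s M N Γ := fun γ hγ i hi => by
        rw [hz γ hγ i hi]; exact hpt _ _ (hn i hi) (hup γ hγ)
      have hg0 : Function.update g j (fun _ => 0) = g := by
        rw [← a3 j (by omega)]; simp
      have hx : z 0 0 = pt (a * M ^ (j + 1)) g := by
        have := hz _ h.zero_mem 0 (Nat.zero_le _)
        rw [hg0] at this
        rw [this]
        simp only [n]
        rw [add_zero, pow_succ', mul_assoc]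
      have hy : z M 0 = pt ((a + 1) * M ^ (j + 1)) g := by
        have := hz _ h.zero_mem M le_rfl
        rw [hg0] at this
        rw [this]
        simp only [n]
        rw [pow_succ', ← mul_assoc, add_one_mul a M]
      have hw : ∀ l, ∃ w : V, l ≠ j → ∀ i ≤ M, c i l = c 0 l + (i : ℝ) • w := by
        intro l
        rcases lt_trichotomy l j with hl | hl | hl
        · refine ⟨0, fun _ i _ => ?_⟩
          simp only [c, a3 l (by omega), comp_zero]
          simp
        · exact ⟨0, fun h => absurd hl h⟩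
        · have hp : 0 < M ^ l := pow_pos hM l
          obtain ⟨b, r, hr, hbr⟩ : ∃ b r, r + M ^ (j + 1) ≤ M ^ l ∧
              a * M ^ (j + 1) = b * M ^ l + r := by
            obtain ⟨d, rfl⟩ : ∃ d, l = j + 1 + d := ⟨l - (j + 1), by omega⟩
            have hd : 0 < M ^ d := pow_pos hM d
            refine ⟨a / M ^ d, a % M ^ d * M ^ (j + 1), ?_, ?_⟩
            · rw [← add_one_mul, pow_add M (j + 1) d, mul_comm (M ^ (j + 1))]
              exact Nat.mul_le_mul_right _ (Nat.mod_lt _ hd)
            · conv_lhs => rw [← Nat.div_add_mod a (M ^ d)]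
              rw [pow_add M (j + 1) d]; ring
          refine ⟨q • (g l (b % M + 1) - g l (b % M)), fun _ i hi => ?_⟩
          have e : ∀ i, n i = b * M ^ l + (r + i * M ^ j) := by
            intro i
            simp only [n]
            rw [← add_assoc, ← hbr]; ring
          have hb : ∀ i ≤ M, r + i * M ^ j ≤ M ^ l := by
            intro i hi
            have : i * M ^ j ≤ M ^ (j + 1) := by
              rw [pow_succ']; exact Nat.mul_le_mul_right _ hi
            omega
          simp only [c, e]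
          rw [comp_cell s hM l b _ (hb i hi) (h.start _ (a2 l)) (h.stop _ (a2 l) M le_rfl),
            comp_cell s hM l b _ (hb 0 (Nat.zero_le _)) (h.start _ (a2 l))
              (h.stop _ (a2 l) M le_rfl)]
          simp only [q]
          push_cast
          module
      choose w hw using hw
      let W : ℝ := ((M : ℝ) ^ j) ^ 2 + ∑ l ∈ (range N).erase j, ‖w l‖ ^ 2
      have hnorm : ∀ i ≤ M, ∀ i' ≤ M, ∀ v v', ‖z i' v' - z i v‖ ^ 2 =
          ((i' : ℝ) - i) ^ 2 * W + q ^ 2 * ‖v' - v‖ ^ 2 := by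
        intro i hi i' hi' v v'
        simp only [z, norm_mk_sub_sq hu]
        rw [← Finset.add_sum_erase _ _ (mem_range.2 hjN)]
        simp only [Function.update_self]
        rw [← smul_sub, norm_smul, Real.norm_of_nonneg hq.le]
        have : ∑ l ∈ (range N).erase j, ‖Function.update (c i') j (q • v') l -
            Function.update (c i) j (q • v) l‖ ^ 2 =
            ((i' : ℝ) - i) ^ 2 * ∑ l ∈ (range N).erase j, ‖w l‖ ^ 2 := by
          rw [Finset.mul_sum]
          refine Finset.sum_congr rfl fun l hl => ?_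
          have hl' := (Finset.mem_erase.1 hl).1
          rw [Function.update_of_ne hl', Function.update_of_ne hl', hw l hl' i hi,
            hw l hl' i' hi', add_sub_add_left_eq_sub, ← sub_smul, norm_smul, mul_pow,
            Real.norm_eq_abs, sq_abs]
        rw [this]
        simp only [W, n]
        push_cast
        ring
      by_contra hc
      push Not at hc
      have hc' : ∀ γ ∈ Γ, ∀ i < M, ‖f (z (i + 1) (γ (i + 1))) - f (z i (γ i))‖ ^ 2 ≤
          D ^ 2 * (W + q ^ 2 * ‖γ (i + 1) - γ i‖ ^ 2) +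
            (((t + 1 : ℕ) : ℝ) * de - D ^ 2) * ((M : ℝ) ^ j) ^ 2 := by
        intro γ hγ i hi
        have := hc (a * M + i) (Function.update g j γ) (hn (i + 1) hi) (hup γ hγ) (by
          intro l hl
          rw [Function.update_of_ne (by omega)]
          exact a3 l (by omega))
        change ‖f (pt (n (i + 1)) _) - f (pt (n i) _)‖ ^ 2 -
          D ^ 2 * ‖pt (n (i + 1)) _ - pt (n i) _‖ ^ 2 < _ at this
        rw [← hz γ hγ i hi.le, ← hz γ hγ (i + 1) hi, hnorm i hi.le (i + 1) hi] at this
        push_cast at this ⊢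
        rw [add_sub_cancel_left, one_pow, one_mul] at this
        linarith
      rw [← hx, ← hy, hnorm 0 (Nat.zero_le _) M le_rfl] at a4
      let ω : E := (M : ℝ)⁻¹ • (f (z M 0) - f (z 0 0))
      have hω : (M : ℝ) • ω = f (z M 0) - f (z 0 0) := by
        simp only [ω, smul_smul]; rw [mul_inv_cancel₀ hM'.ne', one_smul]
      refine h.rigid (fun i v => q⁻¹ • (f (z i v) - (i : ℝ) • ω)) ?_ ?_
      · intro i hi γ hγ γ' hγ'
        obtain ⟨b1, b2⟩ := hf _ (hzt γ hγ i hi) _ (hzt γ' hγ' i hi)
        have b3 : ‖z i (γ i) - z i (γ' i)‖ = q * ‖γ i - γ' i‖ := by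
          have := hnorm i hi i hi (γ' i) (γ i)
          rw [sub_self, ← mul_pow] at this
          simp only [ne_eq, OfNat.ofNat_ne_zero, not_false_eq_true, zero_pow, zero_mul,
            zero_add] at this
          exact (pow_left_inj₀ (norm_nonneg _) (by positivity) two_ne_zero).1 this
        rw [b3] at b1 b2
        rw [← smul_sub, sub_sub_sub_cancel_right, norm_smul, norm_inv, Real.norm_of_nonneg hq.le,
          le_inv_mul_iff₀ hq, inv_mul_le_iff₀ hq]
        exact ⟨b1, by linarith⟩
      · intro γ hγ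
        have e1 : ∀ i : ℕ, ‖q⁻¹ • (f (z (i + 1) (γ (i + 1))) - ((i + 1 : ℕ) : ℝ) • ω) -
            q⁻¹ • (f (z i (γ i)) - (i : ℝ) • ω)‖ ^ 2 =
            (q ^ 2)⁻¹ * ‖(f (z (i + 1) (γ (i + 1))) - f (z i (γ i))) - ω‖ ^ 2 := by
          intro i
          rw [← smul_sub, norm_smul, norm_inv, Real.norm_of_nonneg hq.le, mul_pow, inv_pow]
          congr 3
          push_cast
          rw [add_smul, one_smul]; abel
        simp only [e1]
        rw [← Finset.mul_sum, sum_norm_sub_mean M _ ω (by
          rw [Finset.sum_range_sub (fun i => f (z i (γ i))), hω, h.start γ hγ,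
            h.stop γ hγ M le_rfl]), inv_mul_le_iff₀ (by positivity)]
        have e2 := Finset.sum_le_sum fun i (hi : i ∈ range M) => hc' γ hγ i (mem_range.1 hi)
        simp only [mul_add, Finset.sum_add_distrib, sum_const, card_range, nsmul_eq_mul,
          ← Finset.mul_sum] at e2
        rw [← hω, norm_smul, mul_pow, Real.norm_of_nonneg hM'.le] at a4
        simp only [sub_self, norm_zero, Nat.cast_zero, sub_zero] at a4
        have e3 : (t * de - D ^ 2) * (M * ((M : ℝ) ^ j) ^ 2) ≤ M * ‖ω‖ ^ 2 - D ^ 2 * (M * W) := by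
          refine le_of_mul_le_mul_left ?_ hM'
          rw [pow_succ (M : ℝ) j] at a4
          nlinarith
        have e4 : M * de * ((M : ℝ) ^ j) ^ 2 = q ^ 2 * δ := by
          simp only [hde, q]; field_simp
        push_cast at e2
        nlinarith
  obtain ⟨a, g, a1, a2, -, a4⟩ := claim N 0 (by simp)
  have b := (hf _ (hpt _ g a1 a2) _ (hpt (a * M ^ 0) g
    (le_trans (Nat.mul_le_mul_right _ (Nat.le_succ a)) a1) a2)).2
  have b' := pow_le_pow_left₀ (norm_nonneg _) b 2
  rw [mul_pow] at b'
  simp only [pow_zero, one_pow, mul_one] at a4 b'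
  linarith

end Vale.Agent.P208
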