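import Vale.Agent.P208.Basic

/-! The tower is a packing set. -/

namespace Vale.Agent.P208

open Finset

namespace PackAux

variable {V : Type*} [NormedAddCommGroup V] [InnerProductSpace ℝ V]

theorem comp_eq (s : ℝ) {M : ℕ} (hM : 0 < M) (l n : ℕ) (γ : ℕ → V) :
    comp s M l n γ = (s * (M : ℝ) ^ l) • γ (n / M ^ l % M) +
      (s * ((n % M ^ l : ℕ) : ℝ)) • (γ (n / M ^ l % M + 1) - γ (n / M ^ l % M)) := by
  unfold comp
  rw [Nat.cast_sub (Nat.mod_lt _ (pow_pos hM l)).le, Nat.cast_pow]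
  module

theorem norm_comp_le {s B : ℝ} (hs : 0 < s) {M : ℕ} (hM : 0 < M) (l n : ℕ) {γ : ℕ → V}
    (hγ : ∀ i, ‖γ i‖ ≤ B) : ‖comp s M l n γ‖ ≤ s * B * (M : ℝ) ^ l := by
  unfold comp
  rw [norm_smul, Real.norm_of_nonneg hs.le, mul_assoc]
  refine mul_le_mul_of_nonneg_left ((norm_add_le _ _).trans ?_) hs.le
  rw [norm_smul, norm_smul, Real.norm_of_nonneg (Nat.cast_nonneg _),
    Real.norm_of_nonneg (Nat.cast_nonneg _)]
  have h1 := mul_le_mul_of_nonneg_left (hγ (n / M ^ l % M))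
    (Nat.cast_nonneg (α := ℝ) (M ^ l - n % M ^ l))
  have h2 := mul_le_mul_of_nonneg_left (hγ (n / M ^ l % M + 1))
    (Nat.cast_nonneg (α := ℝ) (n % M ^ l))
  rw [Nat.cast_sub (Nat.mod_lt _ (pow_pos hM l)).le, Nat.cast_pow] at h1 ⊢
  linarith

theorem div_pow_eq {M J l n : ℕ} (h : J ≤ l) : n / M ^ l = n / M ^ J / M ^ (l - J) := by
  rw [Nat.div_div_eq_div_mul, ← pow_add, Nat.add_sub_cancel' h]

theorem mod_sub {m n n' : ℕ} (h : n / m = n' / m) :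
    ((n % m : ℕ) : ℝ) - ((n' % m : ℕ) : ℝ) = (n : ℝ) - n' := by
  have h1 : ((m * (n / m) + n % m : ℕ) : ℝ) = n := by rw [Nat.div_add_mod]
  have h2 : ((m * (n' / m) + n' % m : ℕ) : ℝ) = n' := by rw [Nat.div_add_mod]
  rw [h] at h1
  rw [Nat.cast_add] at h1 h2
  linarith

theorem comp_sub_same (s : ℝ) {M : ℕ} (hM : 0 < M) {l n n' i : ℕ} {γ γ' : ℕ → V}
    (h : n / M ^ l = n' / M ^ l) (hi : n / M ^ l % M = i) (h1 : γ i = γ' i)
    (h2 : γ (i + 1) = γ' (i + 1)) :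
    comp s M l n γ - comp s M l n' γ' = (s * ((n : ℝ) - n')) • (γ (i + 1) - γ i) := by
  rw [comp_eq s hM, comp_eq s hM, ← h, hi, ← h1, ← h2, ← mod_sub h]
  module

theorem comp_const (s : ℝ) {M : ℕ} (hM : 0 < M) {l n i : ℕ} {γ : ℕ → V}
    (hi : n / M ^ l % M = i) (h : γ (i + 1) = γ i) :
    comp s M l n γ = (s * (M : ℝ) ^ l) • γ i := by
  rw [comp_eq s hM, hi, h]
  simp

theorem arith {M P l l' n : ℕ} (hM : 0 < M) (hl : l < l') (h1 : P ≤ n / M ^ l % M)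
    (h2 : n / M ^ l % M + P < M) :
    P * M ^ l ≤ n % M ^ l' ∧ n % M ^ l' + P * M ^ l ≤ M ^ l' := by
  have hd : M ^ (l + 1) ∣ M ^ l' := pow_dvd_pow M hl
  have e1 : n % M ^ l' % M ^ (l + 1) = n % M ^ l + M ^ l * (n / M ^ l % M) := by
    rw [Nat.mod_mod_of_dvd _ hd, Nat.mod_pow_succ]
  have hlt : n % M ^ l < M ^ l := Nat.mod_lt _ (pow_pos hM l)
  have hx : n % M ^ l' < M ^ l' := Nat.mod_lt _ (pow_pos hM l')
  generalize n % M ^ l' = x at e1 hx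
  generalize n / M ^ l % M = i at e1 h1 h2
  generalize n % M ^ l = ρ at e1 hlt
  have e2 := Nat.div_add_mod x (M ^ (l + 1))
  obtain ⟨k, hk⟩ := hd
  have hq : x / M ^ (l + 1) < k := by
    rw [Nat.div_lt_iff_lt_mul (pow_pos hM _), mul_comm, ← hk]
    exact hx
  have h3 : M ^ (l + 1) * (x / M ^ (l + 1) + 1) ≤ M ^ (l + 1) * k := Nat.mul_le_mul_left _ hq
  have h4 : M ^ l * P ≤ M ^ l * i := Nat.mul_le_mul_left _ h1
  have h5 : M ^ l * (i + P + 1) ≤ M ^ l * M := Nat.mul_le_mul_left _ h2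
  rw [← pow_succ] at h5
  rw [hk, mul_comm P]
  rw [e1] at e2
  rw [mul_add, mul_one] at h3
  rw [mul_add, mul_add, mul_one] at h5
  constructor <;> omega

theorem diff_mid {M P : ℕ} {Γ : Set (ℕ → V)} {B c : ℝ} (hp : IsPadded M Γ B c P) {i : ℕ}
    {γ γ' : ℕ → V} (hγ : γ ∈ Γ) (hγ' : γ' ∈ Γ)
    (hne : γ i ≠ γ' i ∨ γ (i + 1) ≠ γ' (i + 1)) : P ≤ i ∧ i + P < M := by
  by_contra hc
  rw [hp.pad γ hγ i (by omega), hp.pad γ' hγ' i (by omega), hp.pad γ hγ (i + 1) (by omega),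
    hp.pad γ' hγ' (i + 1) (by omega)] at hne
  simp at hne

theorem diff_near {M P : ℕ} {Γ : Set (ℕ → V)} {B c : ℝ} (hp : IsPadded M Γ B c P) {s r R : ℝ}
    (hs : 0 < s) (hsB : 32 * s * B ≤ 1) (hR : r < 8 * s * B * R) {l n n' i : ℕ}
    {γ γ' : ℕ → V} (hγ : γ ∈ Γ) (hγ' : γ' ∈ Γ) (h : n / M ^ l = n' / M ^ l)
    (hi : n / M ^ l % M = i) (hne : γ i ≠ γ' i ∨ γ (i + 1) ≠ γ' (i + 1))
    (h1 : ‖comp s M l n γ - comp s M l n' γ'‖ ≤ 4 * r) (h2 : |(n : ℝ) - n'| ≤ 4 * r) :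
    c * min ((n % M ^ l : ℕ) : ℝ) ((M : ℝ) ^ l - (n % M ^ l : ℕ)) < 64 * B * R := by
  have hM : 0 < M := lt_of_lt_of_le two_pos hp.two_le
  have hMl : (0 : ℝ) < (M : ℝ) ^ l := by positivity
  have hr : 0 ≤ r := by linarith [abs_nonneg ((n : ℝ) - n')]
  have hB : 0 < B := lt_of_lt_of_le one_pos hp.one_le
  have h3 : ‖comp s M l n γ' - comp s M l n' γ'‖ ≤ 4 * r := by
    rw [comp_sub_same s hM h hi rfl rfl, norm_smul, Real.norm_eq_abs, abs_mul, abs_of_pos hs]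
    have h4 : ‖γ' (i + 1) - γ' i‖ ≤ 2 * B :=
      (norm_sub_le _ _).trans (by linarith [hp.bound γ' hγ' (i + 1), hp.bound γ' hγ' i])
    calc s * |(n : ℝ) - n'| * ‖γ' (i + 1) - γ' i‖ ≤ s * (4 * r) * (2 * B) := by gcongr
      _ = (32 * s * B) * (r / 4) := by ring
      _ ≤ 1 * (r / 4) := by gcongr
      _ ≤ 4 * r := by linarith
  have h5 : ‖comp s M l n γ - comp s M l n γ'‖ ≤ 8 * r := by
    have e : comp s M l n γ - comp s M l n γ' =
        (comp s M l n γ - comp s M l n' γ') - (comp s M l n γ' - comp s M l n' γ') := by abel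
    rw [e]
    exact (norm_sub_le _ _).trans (by linarith)
  have hlt : ((n % M ^ l : ℕ) : ℝ) ≤ (M : ℝ) ^ l := by
    exact_mod_cast (Nat.mod_lt _ (pow_pos hM l)).le
  have hρ0 : (0 : ℝ) ≤ ((n % M ^ l : ℕ) : ℝ) := Nat.cast_nonneg _
  have hiM : i < M := hi ▸ Nat.mod_lt _ hM
  have e : comp s M l n γ - comp s M l n γ' = (s * (M : ℝ) ^ l) •
      ((1 - ((n % M ^ l : ℕ) : ℝ) / (M : ℝ) ^ l) • (γ i - γ' i) +
        (((n % M ^ l : ℕ) : ℝ) / (M : ℝ) ^ l) • (γ (i + 1) - γ' (i + 1))) := by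
    rw [comp_eq s hM, comp_eq s hM, hi]
    have e2 : s * ((n % M ^ l : ℕ) : ℝ) =
        (s * (M : ℝ) ^ l) * (((n % M ^ l : ℕ) : ℝ) / (M : ℝ) ^ l) := by
      field_simp
    rw [e2]
    module
  generalize ((n % M ^ l : ℕ) : ℝ) = ρ at *
  have h6 := hp.sep i hiM γ hγ γ' hγ' hne (ρ / (M : ℝ) ^ l) (by positivity)
    ((div_le_one hMl).2 hlt)
  rw [e, norm_smul, Real.norm_of_nonneg (by positivity)] at h5
  have h7 : min ρ ((M : ℝ) ^ l - ρ) = (M : ℝ) ^ l * min (ρ / (M : ℝ) ^ l) (1 - ρ / (M : ℝ) ^ l) := by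
    rw [mul_min_of_nonneg _ _ hMl.le]
    congr 1 <;> field_simp
  have h8 := mul_le_mul_of_nonneg_left h6 (by positivity : 0 ≤ s * (M : ℝ) ^ l)
  have h9 : s * (c * min ρ ((M : ℝ) ^ l - ρ)) < s * (64 * B * R) := by
    rw [h7]
    linarith
  exact lt_of_mul_lt_mul_left h9 hs.le

omit [InnerProductSpace ℝ V] in
theorem line_fibre {ι : Type*} {Λ : ℕ} {X : Set V} (hX : Pack 8 Λ X) (T : Finset ι)
    (t : ι → ℝ) (v : ι → V) {r ρ : ℝ} (hr : 0 < r) (hρ : 0 < ρ) (hv : ∀ y ∈ T, v y ∈ X)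
    (lo : ∀ y ∈ T, ∀ y' ∈ T, y ≠ y' → 7 / 8 * r ^ 2 ≤ (t y - t y') ^ 2 + (ρ * ‖v y - v y'‖) ^ 2)
    (hi : ∀ y ∈ T, ∀ y' ∈ T, (t y - t y') ^ 2 + (ρ * ‖v y - v y'‖) ^ 2 ≤ 16 * r ^ 2) :
    T.card ≤ 9 * Λ := by
  classical
  rcases T.eq_empty_or_nonempty with rfl | hne
  · simp
  obtain ⟨y₀, hy₀, hmin⟩ := exists_min_image T t hne
  have hcol : ∀ y ∈ T, ⌊(t y - t y₀) / (r / 2)⌋₊ ∈ range 9 := by
    intro y hy
    have h1 := hi y hy y₀ hy₀
    have h2 : t y - t y₀ ≤ 4 * r := by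
      refine abs_le_of_sq_le_sq' ?_ (by positivity) |>.2
      nlinarith [sq_nonneg (ρ * ‖v y - v y₀‖)]
    rw [mem_range, Nat.floor_lt' (by norm_num), div_lt_iff₀ (by positivity)]
    push_cast
    linarith
  have := card_le_mul_card_image_of_maps_to hcol Λ (fun b _ => ?_)
  · rw [card_range] at this
    omega
  set T' := T.filter (fun y => ⌊(t y - t y₀) / (r / 2)⌋₊ = b) with hT'
  have hclose : ∀ y ∈ T', ∀ y' ∈ T', t y - t y' < r / 2 := by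
    intro y hy y' hy'
    obtain ⟨hy1, hy2⟩ := mem_filter.1 hy
    obtain ⟨hy1', hy2'⟩ := mem_filter.1 hy'
    have h1 := Nat.lt_floor_add_one ((t y - t y₀) / (r / 2))
    have h2 := Nat.floor_le (a := (t y' - t y₀) / (r / 2))
      (div_nonneg (sub_nonneg.2 (hmin y' hy1')) (by positivity))
    rw [hy2, div_lt_iff₀ (by positivity)] at h1
    rw [hy2', le_div_iff₀ (by positivity)] at h2
    linarith
  have hsep : ∀ y ∈ T', ∀ y' ∈ T', y ≠ y' → r / (2 * ρ) ≤ ‖v y - v y'‖ := by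
    intro y hy y' hy' hyy
    have h1 := lo y (mem_filter.1 hy).1 y' (mem_filter.1 hy').1 hyy
    have h2 := hclose y hy y' hy'
    have h3 := hclose y' hy' y hy
    have h4 : (t y - t y') ^ 2 ≤ (r / 2) ^ 2 := sq_le_sq' (by linarith) h2.le
    have h5 : r / 2 ≤ ρ * ‖v y - v y'‖ := by
      refine (pow_le_pow_iff_left₀ (by positivity) (by positivity) two_ne_zero).1 ?_
      nlinarith
    rw [div_le_iff₀ (by positivity)]
    linarith
  have hinj : Set.InjOn v T' := by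
    intro y hy y' hy' e
    by_contra hyy
    have h1 := hsep y hy y' hy' hyy
    rw [e, sub_self, norm_zero] at h1
    have : 0 < r / (2 * ρ) := by positivity
    linarith
  rw [← card_image_of_injOn hinj]
  refine hX (r / (2 * ρ)) (by positivity) _ ?_ ?_ ?_
  · intro x hx
    obtain ⟨y, hy, rfl⟩ := mem_image.1 hx
    exact hv y (mem_filter.1 hy).1
  · intro x hx x' hx' hxx
    obtain ⟨y, hy, rfl⟩ := mem_image.1 hx
    obtain ⟨y', hy', rfl⟩ := mem_image.1 hx'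
    exact hsep y hy y' hy' fun e => hxx (e ▸ rfl)
  · intro x hx x' hx'
    obtain ⟨y, hy, rfl⟩ := mem_image.1 hx
    obtain ⟨y', hy', rfl⟩ := mem_image.1 hx'
    have h1 := hi y (mem_filter.1 hy).1 y' (mem_filter.1 hy').1
    have h5 : ρ * ‖v y - v y'‖ ≤ 4 * r := by
      refine (pow_le_pow_iff_left₀ (by positivity) (by positivity) two_ne_zero).1 ?_
      nlinarith [sq_nonneg (t y - t y')]
    have e : 8 * (r / (2 * ρ)) = 4 * r / ρ := by field_simp; ring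
    rw [e, le_div_iff₀ hρ]
    linarith

omit [InnerProductSpace ℝ V] in
theorem pack_zero : Pack 8 1 ({0} : Set V) := by
  intro r _ S hS _ _
  exact card_le_one.2 fun a ha b hb => (hS a ha).trans (hS b hb).symm

theorem lin {ι : Type*} (s : ℝ) {M : ℕ} (hM : 0 < M) (T : Finset ι) (n : ι → ℕ)
    (g : ι → ℕ → ℕ → V) (L : Finset ℕ) (I : ℕ → ℕ)
    (hc : ∀ l ∈ L, ∀ y ∈ T, ∀ y' ∈ T, n y / M ^ l = n y' / M ^ l)
    (hI : ∀ l ∈ L, ∀ y ∈ T, n y / M ^ l % M = I l)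
    (hag : ∀ l ∈ L, ∀ y ∈ T, ∀ y' ∈ T,
      g y l (I l) = g y' l (I l) ∧ g y l (I l + 1) = g y' l (I l + 1)) :
    ∃ t : ι → ℝ, ∀ y ∈ T, ∀ y' ∈ T, ((n y : ℝ) - n y') ^ 2 +
      ∑ l ∈ L, ‖comp s M l (n y) (g y l) - comp s M l (n y') (g y' l)‖ ^ 2 = (t y - t y') ^ 2 := by
  rcases T.eq_empty_or_nonempty with rfl | ⟨y₀, hy₀⟩
  · exact ⟨fun _ => 0, by simp⟩
  refine ⟨fun y => n y * √(1 + ∑ l ∈ L, (s * ‖g y₀ l (I l + 1) - g y₀ l (I l)‖) ^ 2),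
    fun y hy y' hy' => ?_⟩
  rw [← sub_mul, mul_pow, Real.sq_sqrt (by positivity), mul_add, mul_one, mul_sum]
  congr 1
  refine sum_congr rfl fun l hl => ?_
  rw [comp_sub_same s hM (hc l hl y hy y' hy') (hI l hl y hy) (hag l hl y hy y' hy').1
    (hag l hl y hy y' hy').2, (hag l hl y hy y₀ hy₀).1, (hag l hl y hy y₀ hy₀).2, norm_smul,
    mul_pow, Real.norm_eq_abs, sq_abs]
  ring

theorem cell_bound {E ι : Type*} [NormedAddCommGroup E] {Λ : ℕ} {D : ℝ} {M : ℕ}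
    {Γ : Set (ℕ → V)} {δ B c : ℝ} {P : ℕ} (h : IsCfg E Λ D M Γ δ) (hp : IsPadded M Γ B c P)
    {s : ℝ} (hs : 0 < s) (hsB : 32 * s * B ≤ 1) (T : Finset ι) (n : ι → ℕ) (g : ι → ℕ → ℕ → V)
    (L : Finset ℕ) {J a : ℕ} {r : ℝ} (hr : 0 < r) (hJ : r < 8 * s * B * (M : ℝ) ^ J)
    (hL : ∀ l ∈ L, J ≤ l) (hg : ∀ y ∈ T, ∀ l, g y l ∈ Γ) (ha : ∀ y ∈ T, n y / M ^ J = a)
    (lo : ∀ y ∈ T, ∀ y' ∈ T, y ≠ y' → 7 / 8 * r ^ 2 ≤ ((n y : ℝ) - n y') ^ 2 +
      ∑ l ∈ L, ‖comp s M l (n y) (g y l) - comp s M l (n y') (g y' l)‖ ^ 2)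
    (hi : ∀ y ∈ T, ∀ y' ∈ T, ((n y : ℝ) - n y') ^ 2 +
      ∑ l ∈ L, ‖comp s M l (n y) (g y l) - comp s M l (n y') (g y' l)‖ ^ 2 ≤ 16 * r ^ 2) :
    T.card ≤ 9 * (Λ + 1) := by
  classical
  have hM : 0 < M := lt_of_lt_of_le two_pos hp.two_le
  have hc : ∀ l ∈ L, ∀ y ∈ T, ∀ y' ∈ T, n y / M ^ l = n y' / M ^ l := by
    intro l hl y hy y' hy'
    rw [div_pow_eq (hL l hl), div_pow_eq (n := n y') (hL l hl), ha y hy, ha y' hy']
  obtain ⟨I, hIM, hI⟩ : ∃ I : ℕ → ℕ, (∀ l, I l < M) ∧ ∀ l ∈ L, ∀ y ∈ T, n y / M ^ l % M = I l :=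
    ⟨fun l => a / M ^ (l - J) % M, fun l => Nat.mod_lt _ hM, fun l hl y hy => by
      rw [div_pow_eq (hL l hl), ha y hy]⟩
  -- all options agree
  have hall : ∀ T' ⊆ T, (∀ l ∈ L, ∀ y ∈ T', ∀ y' ∈ T',
      g y l (I l) = g y' l (I l) ∧ g y l (I l + 1) = g y' l (I l + 1)) → T'.card ≤ 9 := by
    intro T' hT' hag
    obtain ⟨t, ht⟩ := lin s hM T' n g L I (fun l hl y hy y' hy' => hc l hl y (hT' hy) y' (hT' hy'))
      (fun l hl y hy => hI l hl y (hT' hy)) hag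
    refine line_fibre (pack_zero (V := V)) T' t (fun _ => 0) hr one_pos (fun _ _ => rfl) ?_ ?_
    · intro y hy y' hy' hne
      have := lo y (hT' hy) y' (hT' hy') hne
      rw [ht y hy y' hy'] at this
      simpa using this
    · intro y hy y' hy'
      have := hi y (hT' hy) y' (hT' hy')
      rw [ht y hy y' hy'] at this
      simpa using this
  -- two different levels with several options are impossible
  have htwo : ∀ l ∈ L, ∀ l' ∈ L, l < l' → ∀ y ∈ T, ∀ y' ∈ T, ∀ z ∈ T, ∀ z' ∈ T,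
      (g y l (I l) ≠ g y' l (I l) ∨ g y l (I l + 1) ≠ g y' l (I l + 1)) →
      (g z l' (I l') ≠ g z' l' (I l') ∨ g z l' (I l' + 1) ≠ g z' l' (I l' + 1)) → False := by
    intro l hl l' hl' hll y hy y' hy' z hz z' hz' h1 h2
    have h3 := diff_mid hp (hg y hy l) (hg y' hy' l) h1
    rw [← hI l hl z hz] at h3
    obtain ⟨h4, h5⟩ := arith hM hll h3.1 h3.2
    have h6 := hi z hz z' hz'
    have h7 : ‖comp s M l' (n z) (g z l') - comp s M l' (n z') (g z' l')‖ ^ 2 ≤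
        ∑ l ∈ L, ‖comp s M l (n z) (g z l) - comp s M l (n z') (g z' l)‖ ^ 2 :=
      single_le_sum (f := fun l => ‖comp s M l (n z) (g z l) - comp s M l (n z') (g z' l)‖ ^ 2)
        (fun _ _ => sq_nonneg _) hl'
    have h8 := diff_near hp hs hsB hJ (hg z hz l') (hg z' hz' l') (hc l' hl' z hz z' hz')
      (hI l' hl' z hz) h2
      ((pow_le_pow_iff_left₀ (by positivity) (by positivity) two_ne_zero).1
        (by nlinarith [sq_nonneg ((n z : ℝ) - n z')]))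
      (abs_le_of_sq_le_sq (by
        nlinarith [sq_nonneg ‖comp s M l' (n z) (g z l') - comp s M l' (n z') (g z' l')‖])
        (by positivity))
    have h4' : (P : ℝ) * (M : ℝ) ^ l ≤ ((n z % M ^ l' : ℕ) : ℝ) := by exact_mod_cast h4
    have h5' : ((n z % M ^ l' : ℕ) : ℝ) + (P : ℝ) * (M : ℝ) ^ l ≤ (M : ℝ) ^ l' := by
      exact_mod_cast h5
    have h9 : (P : ℝ) * (M : ℝ) ^ l ≤
        min ((n z % M ^ l' : ℕ) : ℝ) ((M : ℝ) ^ l' - (n z % M ^ l' : ℕ)) :=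
      le_min h4' (by linarith)
    have h10 : (M : ℝ) ^ J ≤ (M : ℝ) ^ l :=
      pow_le_pow_right₀ (by exact_mod_cast hM) (hL l hl)
    have h11 : 64 * B ≤ c * P := by
      have h12 : 64 * B / c ≤ P := by linarith [hp.bigP]
      rw [div_le_iff₀ hp.cpos] at h12
      linarith
    have hB : 0 < B := lt_of_lt_of_le one_pos hp.one_le
    have hc0 := hp.cpos
    have h13 : 64 * B * (M : ℝ) ^ J ≤ c * P * (M : ℝ) ^ l := by gcongr
    have h14 := mul_le_mul_of_nonneg_left h9 hc0.le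
    linarith
  by_cases hex : ∃ l ∈ L, ∃ y ∈ T, ∃ y' ∈ T,
      (g y l (I l) ≠ g y' l (I l) ∨ g y l (I l + 1) ≠ g y' l (I l + 1))
  swap
  · have := hall T Subset.rfl fun l hl y hy y' hy' => by
      by_contra hcon
      exact hex ⟨l, hl, y, hy, y', hy', not_and_or.1 hcon⟩
    omega
  obtain ⟨l₀, hl₀, y₀, hy₀, y₁, hy₁, hne⟩ := hex
  have hag : ∀ l ∈ L.erase l₀, ∀ y ∈ T, ∀ y' ∈ T,
      g y l (I l) = g y' l (I l) ∧ g y l (I l + 1) = g y' l (I l + 1) := by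
    intro l hl y hy y' hy'
    obtain ⟨hl1, hl2⟩ := mem_erase.1 hl
    by_contra hcon
    rcases lt_or_gt_of_ne hl1 with hlt | hlt
    · exact htwo l hl2 l₀ hl₀ hlt y hy y' hy' y₀ hy₀ y₁ hy₁ (not_and_or.1 hcon) hne
    · exact htwo l₀ hl₀ l hl2 hlt y₀ hy₀ y₁ hy₁ y hy y' hy' hne (not_and_or.1 hcon)
  obtain ⟨K, P', Q', hK, hcell⟩ := h.cells (I l₀) (hIM l₀)
  have hsplit := card_filter_add_card_filter_not (s := T)
    (fun y => g y l₀ (I l₀) ∈ K ∧ g y l₀ (I l₀ + 1) = g y l₀ (I l₀))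
  have hA : (T.filter (fun y => ¬ (g y l₀ (I l₀) ∈ K ∧ g y l₀ (I l₀ + 1) = g y l₀ (I l₀)))).card
      ≤ 9 := by
    refine hall _ (filter_subset _ _) fun l hl y hy y' hy' => ?_
    obtain ⟨hy1, hy2⟩ := mem_filter.1 hy
    obtain ⟨hy1', hy2'⟩ := mem_filter.1 hy'
    by_cases hl' : l = l₀
    · subst hl'
      have e1 := (hcell _ (hg y hy1 l)).resolve_left hy2
      have e2 := (hcell _ (hg y' hy1' l)).resolve_left hy2'
      exact ⟨e1.1.trans e2.1.symm, e1.2.1.trans e2.2.1.symm⟩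
    · exact hag l (mem_erase.2 ⟨hl', hl⟩) y hy1 y' hy1'
  have hB : (T.filter (fun y => g y l₀ (I l₀) ∈ K ∧ g y l₀ (I l₀ + 1) = g y l₀ (I l₀))).card
      ≤ 9 * Λ := by
    obtain ⟨t, ht⟩ := lin s hM T n g (L.erase l₀) I (fun l hl => hc l (mem_of_mem_erase hl))
      (fun l hl => hI l (mem_of_mem_erase hl)) hag
    have hρ : 0 < s * (M : ℝ) ^ l₀ := by positivity
    have key : ∀ y ∈ T.filter (fun y => g y l₀ (I l₀) ∈ K ∧ g y l₀ (I l₀ + 1) = g y l₀ (I l₀)),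
        ∀ y' ∈ T.filter (fun y => g y l₀ (I l₀) ∈ K ∧ g y l₀ (I l₀ + 1) = g y l₀ (I l₀)),
        (t y - t y') ^ 2 + (s * (M : ℝ) ^ l₀ * ‖g y l₀ (I l₀) - g y' l₀ (I l₀)‖) ^ 2 =
        ((n y : ℝ) - n y') ^ 2 +
          ∑ l ∈ L, ‖comp s M l (n y) (g y l) - comp s M l (n y') (g y' l)‖ ^ 2 := by
      intro y hy y' hy'
      obtain ⟨hy1, hy2⟩ := mem_filter.1 hy
      obtain ⟨hy1', hy2'⟩ := mem_filter.1 hy'
      rw [← ht y hy1 y' hy1', ← sum_erase_add _ _ hl₀, comp_const s hM (hI l₀ hl₀ y hy1) hy2.2,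
        comp_const s hM (hI l₀ hl₀ y' hy1') hy2'.2, ← smul_sub, norm_smul,
        Real.norm_of_nonneg hρ.le, add_assoc]
    refine line_fibre hK _ t (fun y => g y l₀ (I l₀)) hr hρ (fun y hy => (mem_filter.1 hy).2.1)
      ?_ ?_
    · intro y hy y' hy' hne
      rw [key y hy y' hy']
      exact lo y (mem_filter.1 hy).1 y' (mem_filter.1 hy').1 hne
    · intro y hy y' hy'
      rw [key y hy y' hy']
      exact hi y (mem_filter.1 hy).1 y' (mem_filter.1 hy').1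
  omega

theorem geom {x : ℝ} (hx : 2 ≤ x) (J : ℕ) :
    ∑ l ∈ range (J + 1), (x ^ l) ^ 2 ≤ 2 * (x ^ J) ^ 2 := by
  induction J with
  | zero => simp
  | succ J ih =>
    rw [sum_range_succ, pow_succ x J, mul_pow]
    have h1 : 0 ≤ (x ^ J) ^ 2 := sq_nonneg _
    have h2 : 2 ≤ x ^ 2 := by nlinarith
    nlinarith

theorem parity {m n n' : ℕ} (hm : 0 < m) (h1 : n < n' + m) (h2 : n' < n + m)
    (h : n / m % 2 = n' / m % 2) : n / m = n' / m := by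
  have h3 : n / m ≤ n' / m + 1 := by
    rw [← Nat.add_div_right n' hm]
    exact Nat.div_le_div_right h1.le
  have h4 : n' / m ≤ n / m + 1 := by
    rw [← Nat.add_div_right n hm]
    exact Nat.div_le_div_right h2.le
  omega

end PackAux

open PackAux

theorem tower_pack {V E : Type*} [NormedAddCommGroup V] [InnerProductSpace ℝ V]
    [NormedAddCommGroup E] {Λ : ℕ} {D : ℝ} {M : ℕ} {Γ : Set (ℕ → V)} {δ B c : ℝ} {P : ℕ}
    (h : IsCfg E Λ D M Γ δ) (hp : IsPadded M Γ B c P) {u : V} (hu : ‖u‖ = 1) {s : ℝ}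
    (hs : 0 < s) (hsB : 32 * s * B ≤ 1) (N : ℕ) :
    Pack 4 (72 * (Λ + 1)) (tower u s M N Γ) := by
  classical
  intro r hr S hS hlo hhi
  have hM : 0 < M := lt_of_lt_of_le two_pos hp.two_le
  have hM2 : (2 : ℝ) ≤ M := by exact_mod_cast hp.two_le
  have hB : 0 < B := lt_of_lt_of_le one_pos hp.one_le
  have hex : ∀ y : PiLp 2 (fun _ : Fin (N + 1) => V), ∃ (n : ℕ) (g : ℕ → ℕ → V), y ∈ S →
      (∀ l, g l ∈ Γ) ∧ y = mk u N n (fun l => comp s M l n (g l)) := by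
    intro y
    by_cases hy : y ∈ S
    · obtain ⟨n, _, g, h1, h2⟩ := hS y hy
      exact ⟨n, g, fun _ => ⟨h1, h2⟩⟩
    · exact ⟨0, 0, fun h' => absurd h' hy⟩
  choose n g hng using hex
  have hd : ∀ y ∈ S, ∀ y' ∈ S, ‖y - y'‖ ^ 2 = ((n y : ℝ) - n y') ^ 2 +
      ∑ l ∈ range N, ‖comp s M l (n y) (g y l) - comp s M l (n y') (g y' l)‖ ^ 2 := by
    intro y hy y' hy'
    conv_lhs => rw [(hng y hy).2, (hng y' hy').2]
    exact norm_mk_sub_sq hu N _ _ _ _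
  have hexJ : ∃ l : ℕ, r < 8 * s * B * (M : ℝ) ^ l := by
    obtain ⟨l, hl⟩ := pow_unbounded_of_one_lt (r / (8 * s * B)) (by linarith : (1 : ℝ) < M)
    rw [div_lt_iff₀ (by positivity)] at hl
    exact ⟨l, by linarith⟩
  obtain ⟨J, hJ, hJmin⟩ : ∃ J : ℕ, r < 8 * s * B * (M : ℝ) ^ J ∧
      ∀ l < J, 8 * s * B * (M : ℝ) ^ l ≤ r :=
    ⟨Nat.find hexJ, Nat.find_spec hexJ, fun l hl => not_lt.1 (Nat.find_min hexJ hl)⟩
  have hsmall : ∑ l ∈ range J, (2 * (s * B * (M : ℝ) ^ l)) ^ 2 ≤ r ^ 2 / 8 := by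
    rcases J with _ | J
    · simp only [range_zero, sum_empty]; positivity
    have h1 := geom hM2 J
    have h2 := hJmin J (Nat.lt_succ_self _)
    have h3 : (8 * s * B * (M : ℝ) ^ J) ^ 2 ≤ r ^ 2 := pow_le_pow_left₀ (by positivity) h2 2
    have e : ∑ l ∈ range (J + 1), (2 * (s * B * (M : ℝ) ^ l)) ^ 2 =
        4 * (s * B) ^ 2 * ∑ l ∈ range (J + 1), ((M : ℝ) ^ l) ^ 2 := by
      rw [mul_sum]
      exact sum_congr rfl fun l _ => by ring
    have h4 := mul_le_mul_of_nonneg_left h1 (by positivity : 0 ≤ 4 * (s * B) ^ 2)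
    rw [e]
    nlinarith
  have hsplit : ∀ f : ℕ → ℝ, ∑ l ∈ range N, f l =
      ∑ l ∈ (range N).filter (fun l => J ≤ l), f l +
        ∑ l ∈ (range N).filter (fun l => ¬ J ≤ l), f l :=
    fun f => (sum_filter_add_sum_filter_not _ _ _).symm
  have hlow : ∀ y ∈ S, ∀ y' ∈ S, ∑ l ∈ (range N).filter (fun l => ¬ J ≤ l),
      ‖comp s M l (n y) (g y l) - comp s M l (n y') (g y' l)‖ ^ 2 ≤ r ^ 2 / 8 := by
    intro y hy y' hy'
    refine le_trans ?_ hsmall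
    refine (sum_le_sum fun l _ => ?_).trans (sum_le_sum_of_subset_of_nonneg
      (fun l hl => mem_range.2 (not_le.1 (mem_filter.1 hl).2)) fun _ _ _ => sq_nonneg _)
    refine pow_le_pow_left₀ (norm_nonneg _) ((norm_sub_le _ _).trans ?_) 2
    have h1 := norm_comp_le hs hM l (n y) (hp.bound _ ((hng y hy).1 l))
    have h2 := norm_comp_le hs hM l (n y') (hp.bound _ ((hng y' hy').1 l))
    linarith
  have hhi2 : ∀ y ∈ S, ∀ y' ∈ S, ((n y : ℝ) - n y') ^ 2 +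
      ∑ l ∈ (range N).filter (fun l => J ≤ l),
        ‖comp s M l (n y) (g y l) - comp s M l (n y') (g y' l)‖ ^ 2 ≤ 16 * r ^ 2 := by
    intro y hy y' hy'
    have h1 := hd y hy y' hy'
    rw [hsplit] at h1
    have h2 : ‖y - y'‖ ^ 2 ≤ (4 * r) ^ 2 := pow_le_pow_left₀ (norm_nonneg _) (hhi y hy y' hy') 2
    have h3 : 0 ≤ ∑ l ∈ (range N).filter (fun l => ¬ J ≤ l),
      ‖comp s M l (n y) (g y l) - comp s M l (n y') (g y' l)‖ ^ 2 :=
      sum_nonneg fun _ _ => sq_nonneg _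
    linarith
  have hlo2 : ∀ y ∈ S, ∀ y' ∈ S, y ≠ y' → 7 / 8 * r ^ 2 ≤ ((n y : ℝ) - n y') ^ 2 +
      ∑ l ∈ (range N).filter (fun l => J ≤ l),
        ‖comp s M l (n y) (g y l) - comp s M l (n y') (g y' l)‖ ^ 2 := by
    intro y hy y' hy' hne
    have h1 := hd y hy y' hy'
    rw [hsplit] at h1
    have h2 : r ^ 2 ≤ ‖y - y'‖ ^ 2 := pow_le_pow_left₀ hr.le (hlo y hy y' hy' hne) 2
    have h3 := hlow y hy y' hy'
    linarith
  have htime : ∀ y ∈ S, ∀ y' ∈ S, n y < n y' + M ^ J := by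
    intro y hy y' hy'
    have h1 := hhi2 y hy y' hy'
    have h3 : 0 ≤ ∑ l ∈ (range N).filter (fun l => J ≤ l),
      ‖comp s M l (n y) (g y l) - comp s M l (n y') (g y' l)‖ ^ 2 :=
      sum_nonneg fun _ _ => sq_nonneg _
    have h2 : (n y : ℝ) - n y' ≤ 4 * r :=
      (abs_le_of_sq_le_sq' (by linarith) (by positivity)).2
    have h4 : 32 * s * B * (M : ℝ) ^ J ≤ 1 * (M : ℝ) ^ J := by gcongr
    have h5 : (n y : ℝ) < n y' + (M : ℝ) ^ J := by linarith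
    exact_mod_cast h5
  have hcol : ∀ y ∈ S, n y / M ^ J % 2 ∈ range 2 := fun y _ =>
    mem_range.2 (Nat.mod_lt _ two_pos)
  have := card_le_mul_card_image_of_maps_to hcol (9 * (Λ + 1)) (fun b _ => ?_)
  · rw [card_range] at this
    omega
  rcases (S.filter (fun y => n y / M ^ J % 2 = b)).eq_empty_or_nonempty with he | ⟨y₀, hy₀⟩
  · rw [he]; simp
  refine cell_bound (a := n y₀ / M ^ J) h hp hs hsB _ n g ((range N).filter (fun l => J ≤ l)) hr hJ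
    (fun l hl => (mem_filter.1 hl).2) (fun y hy => (hng y (mem_filter.1 hy).1).1) ?_
    (fun y hy y' hy' => hlo2 y (mem_filter.1 hy).1 y' (mem_filter.1 hy').1)
    (fun y hy y' hy' => hhi2 y (mem_filter.1 hy).1 y' (mem_filter.1 hy').1)
  intro y hy
  obtain ⟨h1, h2⟩ := mem_filter.1 hy
  obtain ⟨h3, h4⟩ := mem_filter.1 hy₀
  exact parity (pow_pos hM J) (htime y h1 y₀ h3) (htime y₀ h3 y h1) (h2.trans h4.symm)

end Vale.Agent.P208
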