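import Vale.Agent.P208.Basic
import Vale.Agent.P208.Defs

namespace Vale.Agent.P208

open Finset

theorem exists_iso_lp {W : Type*} [NormedAddCommGroup W] [InnerProductSpace ℝ W] (X : Set W)
    (hX : X.Finite) : ∃ φ : W → lp (fun _ : ℕ => ℝ) 2,
      ∀ x ∈ X, ∀ y ∈ X, ‖φ x - φ y‖ = ‖x - y‖ := by
  classical
  let U := Submodule.span ℝ X
  have : FiniteDimensional ℝ U := FiniteDimensional.span_of_finite ℝ hX
  let b := stdOrthonormalBasis ℝ U
  let v : Fin (Module.finrank ℝ U) → lp (fun _ : ℕ => ℝ) 2 := fun i => lp.single 2 (i : ℕ) (1 : ℝ)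
  have hv : Orthonormal ℝ v := by
    rw [orthonormal_iff_ite]
    intro i j
    simp only [v, lp.inner_single_left, lp.single_apply, Pi.single_apply, Fin.val_inj]
    split_ifs <;> simp
  let f : U →ₗ[ℝ] lp (fun _ : ℕ => ℝ) 2 := b.toBasis.constr ℝ v
  have hf : Orthonormal ℝ (f ∘ b.toBasis) := by
    have : f ∘ b.toBasis = v := by
      funext i
      exact b.toBasis.constr_basis ℝ v i
    rw [this]; exact hv
  let L := f.isometryOfOrthonormal (v := b.toBasis) (by simp) hf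
  refine ⟨fun w => if h : w ∈ U then L ⟨w, h⟩ else 0, fun x hx y hy => ?_⟩
  have hx' : x ∈ U := Submodule.subset_span hx
  have hy' : y ∈ U := Submodule.subset_span hy
  simp only [dif_pos hx', dif_pos hy']
  rw [← map_sub, L.norm_map]
  rfl

theorem Pack.image_iso {W H : Type*} [NormedAddCommGroup W] [NormedAddCommGroup H] {C : ℝ} {Λ : ℕ}
    {X : Set W} (h : Pack C Λ X) (φ : W → H) (hφ : ∀ x ∈ X, ∀ y ∈ X, ‖φ x - φ y‖ = ‖x - y‖) :
    Pack C Λ (φ '' X) := by
  classical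
  intro r hr S hS h1 h2
  have : ∀ y : H, ∃ x : W, y ∈ S → x ∈ X ∧ φ x = y := by
    intro y
    by_cases hy : y ∈ S
    · obtain ⟨x, hx, e⟩ := hS y hy
      exact ⟨x, fun _ => ⟨hx, e⟩⟩
    · exact ⟨0, fun h => absurd h hy⟩
  choose g hg using this
  have hd : ∀ y ∈ S, ∀ z ∈ S, ‖g y - g z‖ = ‖y - z‖ := by
    intro y hy z hz
    rw [← hφ _ (hg y hy).1 _ (hg z hz).1, (hg y hy).2, (hg z hz).2]
  have hinj : Set.InjOn g S := by
    intro y hy z hz e
    rw [← (hg y hy).2, ← (hg z hz).2, e]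
  rw [← Finset.card_image_of_injOn hinj]
  refine h r hr _ ?_ ?_ ?_
  · intro x hx
    obtain ⟨y, hy, rfl⟩ := Finset.mem_image.1 hx
    exact (hg y hy).1
  · intro x hx x' hx' hne
    obtain ⟨y, hy, rfl⟩ := Finset.mem_image.1 hx
    obtain ⟨z, hz, rfl⟩ := Finset.mem_image.1 hx'
    rw [hd y hy z hz]
    exact h1 y hy z hz fun e => hne (by rw [e])
  · intro x hx x' hx'
    obtain ⟨y, hy, rfl⟩ := Finset.mem_image.1 hx
    obtain ⟨z, hz, rfl⟩ := Finset.mem_image.1 hx'
    rw [hd y hy z hz]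
    exact h2 y hy z hz

theorem NoEmb.image_iso {W H E : Type*} [NormedAddCommGroup W] [NormedAddCommGroup H]
    [NormedAddCommGroup E] {D : ℝ} {X : Set W} (h : NoEmb E D X) (φ : W → H)
    (hφ : ∀ x ∈ X, ∀ y ∈ X, ‖φ x - φ y‖ = ‖x - y‖) : NoEmb E D (φ '' X) := by
  intro f hf
  refine h (fun w => f (φ w)) fun x hx y hy => ?_
  rw [← hφ x hx y hy]
  exact hf _ ⟨x, hx, rfl⟩ _ ⟨y, hy, rfl⟩

theorem isDoubling_of_pack {H : Type} [NormedAddCommGroup H] {L : ℕ} {X : Set H}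
    (h : Pack 4 L X) : IsDoubling X := by
  classical
  refine ⟨L, fun x r hr => ?_⟩
  let Good : Finset X → Prop := fun T => (∀ y ∈ T, dist y x ≤ r) ∧
    ∀ y ∈ T, ∀ z ∈ T, y ≠ z → r / 2 ≤ dist y z
  have hb : ∀ T, Good T → T.card ≤ L := by
    intro T hT
    rw [← Finset.card_image_of_injective T Subtype.val_injective]
    refine h (r / 2) (by positivity) _ ?_ ?_ ?_
    · intro y hy
      obtain ⟨z, -, rfl⟩ := Finset.mem_image.1 hy
      exact z.2
    · intro y hy y' hy' hne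
      obtain ⟨z, hz, rfl⟩ := Finset.mem_image.1 hy
      obtain ⟨z', hz', rfl⟩ := Finset.mem_image.1 hy'
      rw [← dist_eq_norm]
      exact hT.2 z hz z' hz' fun e => hne (by rw [e])
    · intro y hy y' hy'
      obtain ⟨z, hz, rfl⟩ := Finset.mem_image.1 hy
      obtain ⟨z', hz', rfl⟩ := Finset.mem_image.1 hy'
      rw [← dist_eq_norm]
      have a1 := hT.1 z hz
      have a2 := hT.1 z' hz'
      have a3 := dist_triangle_right z z' x
      change dist z z' ≤ _
      linarith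
  have hbdd : BddAbove {n | ∃ T, Good T ∧ T.card = n} := ⟨L, by
    rintro n ⟨T, hT, rfl⟩; exact hb T hT⟩
  obtain ⟨T, hT, hT'⟩ := Nat.sSup_mem (s := {n | ∃ T, Good T ∧ T.card = n})
    ⟨0, ∅, ⟨by simp, by simp⟩, rfl⟩ hbdd
  refine ⟨T, hb T hT, fun y hy => ?_⟩
  by_contra hc
  simp only [Set.mem_iUnion, Metric.mem_ball, not_exists, not_lt] at hc
  have hyT : y ∉ T := fun hyT => by
    have := hc y hyT
    rw [dist_self] at this
    linarith
  have hG : Good (Insert.insert y T) := by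
    constructor
    · intro z hz
      rcases Finset.mem_insert.1 hz with rfl | hz
      · exact hy
      · exact hT.1 z hz
    · intro z hz z' hz' hne
      rcases Finset.mem_insert.1 hz with rfl | hz1 <;>
        rcases Finset.mem_insert.1 hz' with rfl | hz2
      · exact absurd rfl hne
      · exact hc z' hz2
      · rw [dist_comm]; exact hc z hz1
      · exact hT.2 z hz1 z' hz2 hne
  have := le_csSup hbdd ⟨_, hG, rfl⟩
  rw [Finset.card_insert_of_notMem hyT, ← hT'] at this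
  omega

theorem final_of_pieces (Λ : ℕ)
    (h : ∀ k D : ℕ, ∃ (W : Type) (_ : NormedAddCommGroup W) (_ : InnerProductSpace ℝ W)
      (X : Set W), X.Finite ∧ Pack 4 Λ X ∧ NoEmb (EuclideanSpace ℝ (Fin k)) D X) :
    ∃ X : Set (lp (fun _ : ℕ => ℝ) 2), IsDoubling X ∧ ∀ k, ¬ BiLipEmbeds X k := by
  classical
  have h1 : ∀ b : ℕ, ∃ (Y : Set (lp (fun _ : ℕ => ℝ) 2)) (B : ℝ), 0 ≤ B ∧ (∀ y ∈ Y, ‖y‖ ≤ B) ∧
      Pack 4 Λ Y ∧ NoEmb (EuclideanSpace ℝ (Fin b.unpair.1)) (b.unpair.2 : ℕ) Y := by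
    intro b
    obtain ⟨W, i1, i2, X, a1, a2, a3⟩ := h b.unpair.1 b.unpair.2
    obtain ⟨φ, hφ⟩ := exists_iso_lp X a1
    obtain ⟨B, hB⟩ := (a1.image φ).isBounded.exists_norm_le
    exact ⟨φ '' X, max B 0, le_max_right _ _, fun y hy => (hB y hy).trans (le_max_left _ _),
      a2.image_iso φ hφ, a3.image_iso φ hφ⟩
  choose Y B hB0 hB hP hN using h1
  let R : ℕ → ℝ := fun b => 10 ^ (b + 1) * (1 + ∑ i ∈ range (b + 1), B i)
  have hs : ∀ b, 0 ≤ ∑ i ∈ range b, B i := fun b => Finset.sum_nonneg fun i _ => hB0 i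
  have R0 : ∀ b, 0 < R b := fun b => by
    have := hs (b + 1)
    positivity
  have R1 : ∀ b, 10 * B b ≤ R b := by
    intro b
    simp only [R]
    rw [Finset.sum_range_succ]
    have a1 : (10 : ℝ) ≤ 10 ^ (b + 1) := le_self_pow₀ (by norm_num) (by omega)
    have := hs b
    have := hB0 b
    nlinarith
  have R2 : ∀ b, 10 * R b ≤ R (b + 1) := by
    intro b
    simp only [R]
    rw [Finset.sum_range_succ _ (b + 1), pow_succ _ (b + 1)]
    have := hB0 (b + 1)
    have : (0 : ℝ) < 10 ^ (b + 1) := by positivity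
    nlinarith
  have R3 : ∀ b b', b < b' → 10 * R b ≤ R b' := by
    intro b b' hb
    have : Monotone R := monotone_nat_of_le_succ fun n => by
      have := R2 n; have := R0 n; linarith
    exact (R2 b).trans (this hb)
  let e : lp (fun _ : ℕ => ℝ) 2 := lp.single 2 0 (1 : ℝ)
  have he : ‖e‖ = 1 := by simp [e]
  let Z : ℕ → Set (lp (fun _ : ℕ => ℝ) 2) := fun b => (fun w => R b • e + w) '' Y b
  have hZP : ∀ b, Pack 4 Λ (Z b) := fun b => (hP b).image_iso _ (by intro x _ y _; simp)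
  have hZN : ∀ b, NoEmb (EuclideanSpace ℝ (Fin b.unpair.1)) (b.unpair.2 : ℕ) (Z b) :=
    fun b => (hN b).image_iso _ (by intro x _ y _; simp)
  have hZn : ∀ b, ∀ z ∈ Z b, 9 / 10 * R b ≤ ‖z‖ ∧ ‖z‖ ≤ 11 / 10 * R b := by
    rintro b z ⟨w, hw, rfl⟩
    have a1 := hB b w hw
    have a2 := R1 b
    have a3 : ‖R b • e‖ = R b := by rw [norm_smul, he, mul_one, Real.norm_of_nonneg (R0 b).le]
    have a4 := norm_add_le (R b • e) w
    have a5 := norm_sub_le (R b • e + w) w
    rw [add_sub_cancel_right] at a5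
    constructor <;> linarith
  refine ⟨⋃ b, Z b, isDoubling_of_pack (L := Λ * 2) ?_, ?_⟩
  · intro r hr S hS k1 k2
    have : ∀ y, ∃ b, y ∈ S → y ∈ Z b := by
      intro y
      by_cases hy : y ∈ S
      · obtain ⟨b, hb⟩ := Set.mem_iUnion.1 (hS y hy)
        exact ⟨b, fun _ => hb⟩
      · exact ⟨0, fun h => absurd h hy⟩
    choose β hβ using this
    have three : ∀ x ∈ S, ∀ y ∈ S, ∀ z ∈ S, ¬ (β x < β y ∧ β y < β z) := by
      rintro x hx y hy z hz ⟨l1, l2⟩
      have a1 := k1 x hx y hy (fun e => by rw [e] at l1; omega)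
      have a2 := k2 z hz y hy
      have a3 := hZn _ x (hβ x hx)
      have a4 := hZn _ y (hβ y hy)
      have a5 := hZn _ z (hβ z hz)
      have a6 := R3 _ _ l1
      have a7 := R3 _ _ l2
      have a8 := norm_sub_le x y
      have a9 := norm_sub_norm_le z y
      have := R0 (β y)
      linarith
    have hc : (S.image β).card ≤ 2 := by
      by_contra hc
      obtain ⟨a, b, c, ha, hb, hc, n1, n2, n3⟩ := Finset.two_lt_card_iff.1 (not_le.1 hc)
      obtain ⟨x, hx, rfl⟩ := Finset.mem_image.1 ha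
      obtain ⟨y, hy, rfl⟩ := Finset.mem_image.1 hb
      obtain ⟨z, hz, rfl⟩ := Finset.mem_image.1 hc
      have := three x hx y hy z hz
      have := three x hx z hz y hy
      have := three y hy x hx z hz
      have := three y hy z hz x hx
      have := three z hz x hx y hy
      have := three z hz y hy x hx
      omega
    refine (Finset.card_le_mul_card_image (f := β) S Λ ?_).trans (Nat.mul_le_mul_left _ hc)
    intro b _
    refine hZP b r hr _ ?_ ?_ ?_
    · intro x hx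
      obtain ⟨hx1, hx2⟩ := Finset.mem_filter.1 hx
      rw [← hx2]; exact hβ x hx1
    · intro x hx y hy
      exact k1 x (Finset.mem_filter.1 hx).1 y (Finset.mem_filter.1 hy).1
    · intro x hx y hy
      exact k2 x (Finset.mem_filter.1 hx).1 y (Finset.mem_filter.1 hy).1
  · rintro k ⟨f, a, D, ha, hf⟩
    have := hZN (Nat.pair k ⌈D⌉₊)
    rw [Nat.unpair_pair] at this
    refine this (fun w => if h : w ∈ ⋃ b, Z b then a⁻¹ • f ⟨w, h⟩ else 0) fun x hx y hy => ?_
    have hx' : x ∈ ⋃ b, Z b := Set.mem_iUnion.2 ⟨_, hx⟩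
    have hy' : y ∈ ⋃ b, Z b := Set.mem_iUnion.2 ⟨_, hy⟩
    simp only [dif_pos hx', dif_pos hy']
    obtain ⟨a1, a2⟩ := hf ⟨x, hx'⟩ ⟨y, hy'⟩
    rw [Subtype.dist_eq, dist_eq_norm, dist_eq_norm] at a1 a2
    rw [← smul_sub, norm_smul, norm_inv, Real.norm_of_nonneg ha.le]
    constructor
    · rw [le_inv_mul_iff₀ ha]; exact a1
    · rw [inv_mul_le_iff₀ ha]
      have a3 : D ≤ (⌈D⌉₊ : ℝ) := Nat.le_ceil D
      have a4 : 0 ≤ a * ‖x - y‖ := by positivity
      simp only at a2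
      nlinarith

end Vale.Agent.P208
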