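import Vale.Agent.P208.Defs
import Vale.Agent.P208.Game2
import Vale.Agent.P208.Config
import Vale.Agent.P208.Pad
import Vale.Agent.P208.TowerGame
import Vale.Agent.P208.TowerPack
import Vale.Agent.P208.Union

/-! Assembly of the counterexample. -/

namespace Vale.Agent.P208

theorem lang_plaut_counterexample :
    ∃ X : Set (lp (fun _ : ℕ => ℝ) 2), IsDoubling X ∧ ∀ k, ¬ BiLipEmbeds X k := by
  obtain ⟨Λ, hΛ⟩ := forces_main
  refine final_of_pieces (72 * (Λ + 1)) fun k D₀ => ?_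
  have hD : (1 : ℝ) ≤ (D₀ : ℝ) + 1 := by have : (0 : ℝ) ≤ D₀ := Nat.cast_nonneg _; linarith
  obtain ⟨M₀, Γ₀, δ, h₀⟩ := cfg_of_forces hD (hΛ k ((D₀ : ℝ) + 1 + 1) (by linarith))
  obtain ⟨M, Γ, B, c, P, h, hp⟩ := exists_padded h₀
  have hB : 0 < B := lt_of_lt_of_le one_pos hp.one_le
  have hM : 0 < M := lt_of_lt_of_le (by norm_num) hp.two_le
  have hs : 0 < 1 / (32 * B) := by positivity
  have hpos : 0 < δ * (1 / (32 * B)) ^ 2 / M := by
    have := h.pos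
    positivity
  obtain ⟨N, hN⟩ := exists_nat_gt (((D₀ : ℝ) + 1) ^ 2 / (δ * (1 / (32 * B)) ^ 2 / M))
  rw [div_lt_iff₀ hpos] at hN
  have hu : ‖(lp.single 2 0 (1 : ℝ) : lp (fun _ : ℕ => ℝ) 2)‖ = 1 := by
    simp
  refine ⟨_, inferInstance, inferInstance, tower (lp.single 2 0 (1 : ℝ)) (1 / (32 * B)) M N Γ,
    tower_finite h.fin _ _ _ _, tower_pack h hp hu hs (by field_simp; norm_num) N, ?_⟩
  intro f hf
  refine tower_noEmb hD h hM hu hs hN f fun x hx y hy => ⟨(hf x hx y hy).1, ?_⟩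
  have := (hf x hx y hy).2
  nlinarith [norm_nonneg (x - y)]

end Vale.Agent.P208
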